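import Vale.Agent.P233.Gig.Defs
import Vale.Agent.P233.H748.Ex

/-!
P233 (helper866): localisation. An integral inequality with all weights `exp l`, `l` in `TestI`,
holds almost everywhere.
-/

set_option linter.all false

open MeasureTheory Filter Topology Set
open scoped ENNReal NNReal

universe u

namespace Vale.Agent.P233.H866

variable {M : Type u} [MeasurableSpace M] {m : Measure M} {C : Calc m} {K : ℝ}
  {P : ℝ → (M →ₘ[m] ℝ) → (M →ₘ[m] ℝ)}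

/-- nonnegative functions in `L² ∩ L^∞` are limits of nonnegative functions in `TestI` -/
theorem exists_testI_approx (hP : Heat C K P) {ψ : M →ₘ[m] ℝ} (h0 : 0 ≤ ψ) (h2 : MemLp ψ 2 m)
    (ht : MemLp ψ ∞ m) :
    ∃ k : ℕ → M →ₘ[m] ℝ, (∀ n, k n ∈ C.TestI) ∧ (∀ n, 0 ≤ k n) ∧ (∀ n, MemLp (k n) 2 m) ∧
      Tendsto (fun n => I ((k n - ψ) ^ 2)) atTop (𝓝 0) := by
  have hpos : ∀ n : ℕ, (0 : ℝ) < ((n : ℝ) + 1)⁻¹ := fun n => by positivity
  refine ⟨fun n => P ((n : ℝ) + 1)⁻¹ ψ, fun n => hP.testI' _ (hpos n) ψ h2 ht,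
    fun n => hP.nonneg _ (hpos n).le ψ h2 h0, fun n => hP.mem _ (hpos n).le ψ h2, ?_⟩
  have h3 := hP.cont ψ h2 0 le_rfl
  rw [hP.zero ψ h2] at h3
  refine h3.comp (tendsto_nhdsWithin_iff.2 ⟨tendsto_inv_succ, ?_⟩)
  exact Eventually.of_forall fun n => (hpos n).le

/-- convergence in `L²` against a fixed `L²` function -/
theorem tendsto_I_of_L2 {k : ℕ → M →ₘ[m] ℝ} {ψ D : M →ₘ[m] ℝ} (hk : ∀ n, MemLp (k n) 2 m)
    (hψ : MemLp ψ 2 m) (hD : MemLp D 2 m)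
    (h : Tendsto (fun n => I ((k n - ψ) ^ 2)) atTop (𝓝 0)) :
    Tendsto (fun n => I (k n * D)) atTop (𝓝 (I (ψ * D))) := by
  have h1 : ∀ n, |I (k n * D) - I (ψ * D)| ≤ Real.sqrt (I ((k n - ψ) ^ 2)) *
      Real.sqrt (I (D ^ 2)) := by
    intro n
    rw [← I_sub (mem_mul_22 (hk n) hD) (mem_mul_22 hψ hD), ← sub_mul]
    exact I_abs_le (mem_sub (hk n) hψ) hD
  have h2 : Tendsto (fun n => Real.sqrt (I ((k n - ψ) ^ 2)) * Real.sqrt (I (D ^ 2))) atTop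
      (𝓝 0) := by
    have := h.sqrt.mul_const (Real.sqrt (I (D ^ 2)))
    simpa using this
  exact tendsto_iff_norm_sub_tendsto_zero.2
    (squeeze_zero (fun n => norm_nonneg _) (fun n => by rw [Real.norm_eq_abs]; exact h1 n) h2)

/-- **LOC1**: weights in `TestI` -/
theorem loc1 (hP : Heat C K P) {D : M →ₘ[m] ℝ} (hD : MemLp D 2 m)
    (h : ∀ k ∈ C.TestI, 0 ≤ k → I (k * D) ≤ 0) : D ≤ 0 := by
  have h1 : 0 ≤ -D := by
    refine nonneg_of_forall_L2 (mem_neg hD) fun ψ h0 h2 ht => ?_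
    obtain ⟨k, k1, k2, k3, k4⟩ := exists_testI_approx hP h0 h2 ht
    have h5 := tendsto_I_of_L2 k3 h2 hD k4
    have h6 : I (ψ * D) ≤ 0 := le_of_tendsto' h5 fun n => h _ (k1 n) (k2 n)
    rw [neg_mul, I_neg, mul_comm D ψ]
    linarith
  simpa using h1

/-- **LOC2**: weights `exp l` -/
theorem loc2 (hC : IsGamma C) {κ : ℝ} (hB : C.BEi κ) (hP : Heat C K P) {D : M →ₘ[m] ℝ}
    (hD1 : MemLp D 1 m) (hD : MemLp D 2 m) (h : ∀ l ∈ C.TestI, I (ex l * D) ≤ 0) : D ≤ 0 := by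
  refine loc1 hP hD fun k hk hk0 => ?_
  have hk2 : MemLp k 2 m := hC.toIsDir.memLp _ (hC.test_A hk.1).1
  have key : ∀ n : ℕ, I (k * D) ≤ -I D * ((n : ℝ) + 1)⁻¹ := by
    intro n
    have hn : (0 : ℝ) < (n : ℝ) + 1 := by positivity
    obtain ⟨l, hl, el⟩ := hC.exists_log hB (hC.testI_smul hB ((n : ℝ) + 1) hk) (c := 1) one_pos (by
      filter_upwards [smul_ae k ((n : ℝ) + 1), nonneg_iff_ae.1 hk0] with x a1 a2
      rw [a1]
      nlinarith)
    have e1 : ex l = ((n : ℝ) + 1) • k + 1 := by rw [← el]; ring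
    have h1 := h l hl
    rw [e1, add_mul, one_mul, smul_mul_assoc, I_add (mem_smul _ (mem_mul_22 hk2 hD)) hD1,
      I_smul] at h1
    rw [le_mul_inv_iff₀ hn]
    linarith
  have h2 : Tendsto (fun n : ℕ => -I D * ((n : ℝ) + 1)⁻¹) atTop (𝓝 0) := by
    have := tendsto_inv_succ.const_mul (-I D)
    simpa using this
  exact ge_of_tendsto' h2 key

/-- **LOC2**, for functions -/
theorem loc2_fun (hC : IsGamma C) {κ : ℝ} (hB : C.BEi κ) (hP : Heat C K P) {D : M → ℝ}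
    (hD1 : MemLp D 1 m) (hD : MemLp D 2 m)
    (h : ∀ l ∈ C.TestI, ∫ x, Real.exp (l x) * D x ∂m ≤ 0) : ∀ᵐ x ∂m, D x ≤ 0 := by
  set D' : M →ₘ[m] ℝ := AEEqFun.mk D hD.1 with hD'
  have e : ⇑D' =ᵐ[m] D := AEEqFun.coeFn_mk D hD.1
  have h1 : D' ≤ 0 := by
    refine loc2 hC hB hP ((memLp_congr_ae e).2 hD1) ((memLp_congr_ae e).2 hD) fun l hl => ?_
    have e2 : I (ex l * D') = ∫ x, Real.exp (l x) * D x ∂m := by
      refine integral_congr_ae ?_
      filter_upwards [mul_ae (ex l) D', ex_ae (f := l), e] with x a1 a2 a3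
      rw [a1, a2, a3]
    rw [e2]; exact h l hl
  rw [le_iff_ae] at h1
  filter_upwards [h1, e, zero_ae (M := M) (m := m)] with x a1 a2 a3
  rw [a2, a3] at a1
  exact a1

/-- **LOC2**, for functions, equalities -/
theorem loc2_eq (hC : IsGamma C) {κ : ℝ} (hB : C.BEi κ) (hP : Heat C K P) {D : M → ℝ}
    (hD1 : MemLp D 1 m) (hD : MemLp D 2 m)
    (h : ∀ l ∈ C.TestI, ∫ x, Real.exp (l x) * D x ∂m = 0) : ∀ᵐ x ∂m, D x = 0 := by
  have h1 := loc2_fun hC hB hP hD1 hD fun l hl => (h l hl).le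
  have h2 := loc2_fun hC hB hP (D := fun x => -D x) hD1.neg hD.neg fun l hl => by
    have : ∫ x, Real.exp (l x) * -D x ∂m = -∫ x, Real.exp (l x) * D x ∂m := by
      rw [← integral_neg]; simp only [mul_neg]
    rw [this, h l hl, neg_zero]
  filter_upwards [h1, h2] with x a1 a2
  linarith

end Vale.Agent.P233.H866
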