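import Vale.Agent.P233.H866.RDens
import Vale.Agent.P233.RA.Defs

/-!
P233 (RCDA), part S3 (helper866): short time behaviour of the truncated Cheeger-Yau kernel at a
point of density: field `asy` of the input of part S.
-/

set_option linter.all false

open MeasureTheory Filter Topology Set Real
open scoped ENNReal NNReal

universe u

namespace Vale.Agent.P233.H866

open RA (gg aK bK ga KH)

variable {M : Type u} [MetricSpace M] [MeasurableSpace M] [BorelSpace M] {m : Measure M}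

theorem int_radial {x : M} {η : ℝ} (hfin : m (Metric.ball x η) < ∞) {f : ℝ → ℝ}
    (hf : Continuous f) : IntegrableOn (fun y => f (dist x y)) (Metric.ball x η) m := by
  haveI : IsFiniteMeasure (m.restrict (Metric.ball x η)) := ⟨by
    rwa [Measure.restrict_apply_univ]⟩
  obtain ⟨B, hB⟩ := (isCompact_Icc (a := (0 : ℝ)) (b := η)).exists_bound_of_continuousOn
    hf.continuousOn
  refine Integrable.of_bound (hf.comp (by fun_prop)).aestronglyMeasurable B ?_
  filter_upwards [ae_restrict_mem Metric.isOpen_ball.measurableSet] with y hy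
  have hy' : dist x y < η := by rwa [Metric.mem_ball, dist_comm] at hy
  exact hB _ ⟨dist_nonneg, hy'.le⟩

theorem abs_exp_sub_one_le' (z : ℝ) : |exp z - 1| ≤ |z| * exp |z| := by
  have h1 : 1 ≤ exp |z| := one_le_exp (abs_nonneg z)
  rw [abs_le]
  constructor
  · have h2 := add_one_le_exp z
    have h3 : -(|z| * exp |z|) ≤ -|z| := neg_le_neg (le_mul_of_one_le_right (abs_nonneg _) h1)
    have h4 := neg_abs_le z
    linarith
  · have h2 := add_one_le_exp (-z)
    rw [exp_neg] at h2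
    have h3 := mul_le_mul_of_nonneg_right h2 (exp_pos z).le
    rw [inv_mul_cancel₀ (exp_pos z).ne'] at h3
    have h4 : z * exp z ≤ |z| * exp |z| := by
      rcases le_total 0 z with h | h
      · rw [abs_of_nonneg h]
      · exact (mul_nonpos_of_nonpos_of_nonneg h (exp_pos _).le).trans (by positivity)
    linarith

/-- the correction in the exponent is of order `s (u + 1)` -/
theorem z_bound {K s η g : ℝ} {n : ℕ} (hs : 0 < s) (hs1 : s ≤ 1) (hg : 0 ≤ g)
    (hgη : g ≤ η ^ 2 / 2) :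
    |-(aK K s * g) - bK n K * s + g / s| ≤ s * ((|K| / 6 + K ^ 2 / 108) * (g / s) + bK n K) ∧
      |-(aK K s * g) - bK n K * s + g / s| ≤ (|K| / 6 + K ^ 2 / 108) * (η ^ 2 / 2) + bK n K := by
  have hb : 0 ≤ bK n K := by unfold bK; positivity
  have h0 : 0 ≤ |K| / 6 + K ^ 2 / 108 := by positivity
  have e1 : -(aK K s * g) - bK n K * s + g / s = (K / 6 - K ^ 2 / 108 * s) * g - bK n K * s := by
    unfold aK; field_simp; ring
  have h1 : |(K / 6 - K ^ 2 / 108 * s) * g - bK n K * s|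
      ≤ (|K| / 6 + K ^ 2 / 108) * g + bK n K * s := by
    refine (abs_sub _ _).trans (add_le_add ?_ (le_of_eq ?_))
    · rw [abs_mul, abs_of_nonneg hg]
      refine mul_le_mul_of_nonneg_right ((abs_sub _ _).trans (add_le_add ?_ ?_)) hg
      · rw [abs_div, abs_of_pos (by norm_num : (0 : ℝ) < 6)]
      · rw [abs_of_nonneg (by positivity)]
        exact mul_le_of_le_one_right (by positivity) hs1
    · rw [abs_of_nonneg (by positivity)]
  rw [e1]
  refine ⟨h1.trans (le_of_eq ?_), h1.trans ?_⟩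
  · field_simp
  · have h2 : bK n K * s ≤ bK n K := mul_le_of_le_one_right hb hs1
    have h3 := mul_le_mul_of_nonneg_left hgη h0
    linarith

/-- moments of the Cheeger-Yau profile -/
theorem lim_KH {x : M} {n : ℕ} {K θ η : ℝ} (hη : 0 < η) (hfin : m (Metric.ball x η) < ∞)
    (hdens : Tendsto (fun r => m.real (Metric.ball x r) / r ^ n) (𝓝[>] 0) (𝓝 θ)) (k : ℕ) :
    Tendsto (fun s => s ^ (-((n : ℝ) / 2)) * ∫ y in Metric.ball x η,
      (dist x y ^ 2 / (2 * s)) ^ k * exp (-(aK K s * gg y x) - bK n K * s) ∂m) (𝓝[>] 0)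
      (𝓝 (momL n θ k)) := by
  have hk := lim_mom hη hfin hdens k
  have hk1 := lim_mom hη hfin hdens (k + 1)
  set c0 : ℝ := |K| / 6 + K ^ 2 / 108 with hc0
  set Z : ℝ := c0 * (η ^ 2 / 2) + bK n K with hZ
  have hb : 0 ≤ bK n K := by unfold bK; positivity
  have hc00 : 0 ≤ c0 := by positivity
  set G : ℕ → ℝ → ℝ := fun j s => s ^ (-((n : ℝ) / 2)) * ∫ y in Metric.ball x η,
      (dist x y ^ 2 / (2 * s)) ^ j * exp (-(dist x y ^ 2 / (2 * s))) ∂m with hG
  -- the bound of the difference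
  have hlim : Tendsto (fun s => s * (exp Z * (c0 * G (k + 1) s + bK n K * G k s))) (𝓝[>] 0)
      (𝓝 0) := by
    have h1 : Tendsto (fun s : ℝ => s) (𝓝[>] 0) (𝓝 0) := tendsto_id.mono_left nhdsWithin_le_nhds
    have h2 := h1.mul (((hk1.const_mul c0).add (hk.const_mul (bK n K))).const_mul (exp Z))
    rwa [zero_mul] at h2
  have hev : ∀ᶠ s in 𝓝[>] (0 : ℝ), 0 < s ∧ s ≤ 1 := by
    filter_upwards [self_mem_nhdsWithin, nhdsWithin_le_nhds (eventually_le_nhds
      (zero_lt_one' ℝ))] with s h1 h2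
    exact ⟨h1, h2⟩
  have hdiff : Tendsto (fun s => (s ^ (-((n : ℝ) / 2)) * ∫ y in Metric.ball x η,
      (dist x y ^ 2 / (2 * s)) ^ k * exp (-(aK K s * gg y x) - bK n K * s) ∂m) - G k s)
      (𝓝[>] 0) (𝓝 0) := by
    refine squeeze_zero_norm' ?_ hlim
    filter_upwards [hev] with s hs
    obtain ⟨hs0, hs1⟩ := hs
    have hsn : 0 < s ^ (-((n : ℝ) / 2)) := Real.rpow_pos_of_pos hs0 _
    have i0 : ∀ j : ℕ, IntegrableOn (fun y => (dist x y ^ 2 / (2 * s)) ^ j
        * exp (-(dist x y ^ 2 / (2 * s)))) (Metric.ball x η) m := fun j =>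
      int_radial hfin (f := fun r => (r ^ 2 / (2 * s)) ^ j * exp (-(r ^ 2 / (2 * s))))
        (by fun_prop)
    have i1 : IntegrableOn (fun y => (dist x y ^ 2 / (2 * s)) ^ k
        * exp (-(aK K s * gg y x) - bK n K * s)) (Metric.ball x η) m :=
      int_radial hfin (f := fun r => (r ^ 2 / (2 * s)) ^ k
        * exp (-(aK K s * (r ^ 2 / 2)) - bK n K * s)) (by fun_prop)
    simp only [hG]
    rw [← mul_sub, ← integral_sub i1 (i0 k), norm_mul, Real.norm_eq_abs, abs_of_pos hsn]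
    have e1 : s * (exp Z * (c0 * (s ^ (-((n : ℝ) / 2)) * ∫ y in Metric.ball x η,
        (dist x y ^ 2 / (2 * s)) ^ (k + 1) * exp (-(dist x y ^ 2 / (2 * s))) ∂m)
        + bK n K * (s ^ (-((n : ℝ) / 2)) * ∫ y in Metric.ball x η,
        (dist x y ^ 2 / (2 * s)) ^ k * exp (-(dist x y ^ 2 / (2 * s))) ∂m)))
        = s ^ (-((n : ℝ) / 2)) * (∫ y in Metric.ball x η, s * (exp Z * (c0 *
          ((dist x y ^ 2 / (2 * s)) ^ (k + 1) * exp (-(dist x y ^ 2 / (2 * s))))
          + bK n K * ((dist x y ^ 2 / (2 * s)) ^ k * exp (-(dist x y ^ 2 / (2 * s)))))) ∂m) := by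
      rw [integral_const_mul, integral_const_mul,
        integral_add ((i0 (k + 1)).const_mul _) ((i0 k).const_mul _), integral_const_mul,
        integral_const_mul]
      ring
    rw [e1]
    refine mul_le_mul_of_nonneg_left ?_ hsn.le
    refine norm_integral_le_of_norm_le
      (((((i0 (k + 1)).const_mul c0).add ((i0 k).const_mul (bK n K))).const_mul (exp Z)).const_mul s)
      ?_
    filter_upwards [ae_restrict_mem Metric.isOpen_ball.measurableSet] with y hy
    have hy' : dist x y < η := by rwa [Metric.mem_ball, dist_comm] at hy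
    have hg0 : 0 ≤ gg y x := by unfold RA.gg; positivity
    have hgη : gg y x ≤ η ^ 2 / 2 := by
      unfold RA.gg
      exact div_le_div_of_nonneg_right (pow_le_pow_left₀ dist_nonneg hy'.le 2) (by norm_num)
    obtain ⟨z1, z2⟩ := z_bound (K := K) (n := n) hs0 hs1 hg0 hgη
    set z : ℝ := -(aK K s * gg y x) - bK n K * s + gg y x / s with hz
    have hu : dist x y ^ 2 / (2 * s) = gg y x / s := by unfold RA.gg; field_simp
    set v : ℝ := gg y x / s with hv
    have hv0 : 0 ≤ v := div_nonneg hg0 hs0.le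
    rw [hu]
    have e2 : -(aK K s * gg y x) - bK n K * s = -v + z := by rw [hz]; ring
    rw [e2, Real.exp_add, Real.norm_eq_abs,
      show v ^ k * (exp (-v) * exp z) - v ^ k * exp (-v) = v ^ k * exp (-v) * (exp z - 1) by ring,
      abs_mul, abs_of_nonneg (by positivity)]
    have h3 : |exp z - 1| ≤ s * (c0 * v + bK n K) * exp Z := by
      refine (abs_exp_sub_one_le' z).trans ?_
      exact mul_le_mul z1 (exp_le_exp.2 z2) (exp_pos _).le (by positivity)
    calc v ^ k * exp (-v) * |exp z - 1|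
        ≤ v ^ k * exp (-v) * (s * (c0 * v + bK n K) * exp Z) :=
          mul_le_mul_of_nonneg_left h3 (by positivity)
      _ = s * (exp Z * (c0 * (v ^ (k + 1) * exp (-v)) + bK n K * (v ^ k * exp (-v)))) := by
          rw [pow_succ]; ring
  have h2 := hdiff.add hk
  rw [zero_add] at h2
  refine h2.congr fun s => ?_
  simp only [hG]
  ring

theorem momL_zero (n : ℕ) (θ : ℝ) : momL n θ 0 = ga n θ := by
  unfold momL RA.ga
  simp
  ring

theorem momL_one (n : ℕ) (θ : ℝ) : momL n θ 1 = ga n θ * ((n : ℝ) / 2) := by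
  unfold momL RA.ga
  have h : Real.Gamma ((n : ℝ) / 2 + 1 + 1) = ((n : ℝ) / 2 + 1) * Real.Gamma ((n : ℝ) / 2 + 1) :=
    Real.Gamma_add_one (by positivity)
  simp only [Nat.cast_one, Nat.sub_self, Nat.cast_zero, add_zero, one_mul]
  rw [h]
  ring

theorem ga_pos {n : ℕ} {θ : ℝ} (hθ : 0 < θ) : 0 < ga n θ := by
  unfold RA.ga
  have : 0 < Real.Gamma ((n : ℝ) / 2 + 1) := Real.Gamma_pos_of_pos (by positivity)
  positivity

/-- **N3a (mass)** -/
theorem asy0 {x : M} {n : ℕ} {K θ η : ℝ} (hη : 0 < η) (hfin : m (Metric.ball x η) < ∞)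
    (hθ : 0 < θ)
    (hdens : Tendsto (fun r : ℝ => (m (Metric.ball x r)).toReal / r ^ n) (𝓝[>] 0) (𝓝 θ)) :
    Tendsto (fun s => ∫ y in Metric.ball x η, KH n K θ s x y ∂m) (𝓝[>] 0) (𝓝 1) := by
  have h1 := (lim_KH (K := K) hη hfin hdens 0).const_mul (ga n θ)⁻¹
  rw [momL_zero, inv_mul_cancel₀ (ga_pos hθ).ne'] at h1
  refine h1.congr fun s => ?_
  rw [← mul_assoc, ← integral_const_mul]
  refine integral_congr_ae (Eventually.of_forall fun y => ?_)
  simp only [RA.KH, pow_zero, one_mul]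

/-- **N3a (energy)** -/
theorem asy1' {x : M} {n : ℕ} {K θ η : ℝ} (hη : 0 < η) (hfin : m (Metric.ball x η) < ∞)
    (hθ : 0 < θ)
    (hdens : Tendsto (fun r : ℝ => (m (Metric.ball x r)).toReal / r ^ n) (𝓝[>] 0) (𝓝 θ)) :
    Tendsto (fun s => ∫ y in Metric.ball x η, gg y x / s * KH n K θ s x y ∂m) (𝓝[>] 0)
      (𝓝 ((n : ℝ) / 2)) := by
  have h1 := (lim_KH (K := K) hη hfin hdens 1).const_mul (ga n θ)⁻¹
  rw [momL_one, ← mul_assoc, inv_mul_cancel₀ (ga_pos hθ).ne', one_mul] at h1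
  refine h1.congr' ?_
  filter_upwards [self_mem_nhdsWithin] with s hs
  have hs0 : (0 : ℝ) < s := hs
  rw [← mul_assoc, ← integral_const_mul]
  refine integral_congr_ae (Eventually.of_forall fun y => ?_)
  have hu : dist x y ^ 2 / (2 * s) = gg y x / s := by unfold RA.gg; field_simp
  simp only [RA.KH, pow_one, hu]
  ring

theorem int_KH {x : M} {n : ℕ} {K θ η s : ℝ} (hfin : m (Metric.ball x η) < ∞) (k : ℕ) :
    IntegrableOn (fun y => gg y x ^ k * KH n K θ s x y) (Metric.ball x η) m :=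
  int_radial hfin (f := fun r => (r ^ 2 / 2) ^ k * ((ga n θ)⁻¹ * s ^ (-((n : ℝ) / 2))
    * exp (-(aK K s * (r ^ 2 / 2)) - bK n K * s))) (by fun_prop)

/-- **N3a (energy, with `a(s)`)** -/
theorem asy1 {x : M} {n : ℕ} {K θ η : ℝ} (hη : 0 < η) (hfin : m (Metric.ball x η) < ∞)
    (hθ : 0 < θ)
    (hdens : Tendsto (fun r : ℝ => (m (Metric.ball x r)).toReal / r ^ n) (𝓝[>] 0) (𝓝 θ)) :
    Tendsto (fun s => ∫ y in Metric.ball x η, aK K s * gg y x * KH n K θ s x y ∂m) (𝓝[>] 0)
      (𝓝 ((n : ℝ) / 2)) := by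
  have h1 := asy1' (K := K) hη hfin hθ hdens
  have h2 : Tendsto (fun s : ℝ => s * aK K s) (𝓝[>] 0) (𝓝 1) := by
    have h3 : Tendsto (fun s : ℝ => 1 - K / 6 * s + K ^ 2 / 108 * s ^ 2) (𝓝[>] 0) (𝓝 1) := by
      have h4 : Tendsto (fun s : ℝ => 1 - K / 6 * s + K ^ 2 / 108 * s ^ 2) (𝓝 0)
          (𝓝 (1 - K / 6 * 0 + K ^ 2 / 108 * 0 ^ 2)) :=
        (by fun_prop : Continuous fun s : ℝ => 1 - K / 6 * s + K ^ 2 / 108 * s ^ 2).tendsto 0
      simp only [mul_zero, sub_zero, ne_eq, OfNat.ofNat_ne_zero, not_false_eq_true, zero_pow,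
        add_zero] at h4
      exact h4.mono_left nhdsWithin_le_nhds
    refine h3.congr' ?_
    filter_upwards [self_mem_nhdsWithin] with s hs
    have hs0 : (0 : ℝ) < s := hs
    unfold RA.aK
    field_simp
  have h3 := h2.mul h1
  rw [one_mul] at h3
  refine h3.congr' ?_
  filter_upwards [self_mem_nhdsWithin] with s hs
  have hs0 : (0 : ℝ) < s := hs
  rw [← integral_const_mul]
  refine integral_congr_ae (Eventually.of_forall fun y => ?_)
  simp only
  field_simp

end Vale.Agent.P233.H866
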