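import Vale.Agent.P233.H866.RS6

/-! P233 RCDA, block S5: exhaustion of the set `{d²/2 < δ}` (Egorov) and optimization. -/

set_option linter.all false

open MeasureTheory Filter Topology Set
open scoped ENNReal NNReal

universe u

namespace Vale.Agent.P233.H866

open Vale.Agent.P233.RA

theorem tau_pos (j : ℕ) : 0 < tau j := by
  unfold tau
  positivity

theorem tau_tendsto : Tendsto tau atTop (𝓝 0) := by
  unfold tau
  exact_mod_cast tendsto_one_div_add_atTop_nhds_zero_nat (𝕜 := ℝ)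

theorem tau_anti : Antitone tau := by
  intro i j hij
  unfold tau
  have : (i : ℝ) ≤ j := by exact_mod_cast hij
  exact one_div_le_one_div_of_le (by positivity) (by linarith)

variable {M : Type u} [MetricSpace M] [MeasurableSpace M] {m : Measure M} {n : ℕ} {K θ δ : ℝ}

theorem good_empty : Good m n K θ (∅ : Set M) :=
  ⟨MeasurableSet.empty, Bornology.isBounded_empty, fun η hη ε hε =>
    Eventually.of_forall fun j x hx => absurd hx (notMem_empty x)⟩

theorem aS_swap (γ : Measure (M × M)) (ψ : M → ℝ) (σ' : M →ₘ[m] ℝ) :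
    aS n K δ (γ.map Prod.swap) ψ σ' = aS n K δ γ ψ σ' := by
  unfold aS
  have e := (MeasurableEquiv.prodComm (α := M) (β := M)).measurableEmbedding.integral_map
    (μ := γ) (fun z : M × M => cc δ z.1 z.2)
  have e1 : ∫ z, cc δ z.1 z.2 ∂(γ.map Prod.swap) = ∫ z, cc δ z.1 z.2 ∂γ := by
    refine e.trans ?_
    refine integral_congr_ae (Eventually.of_forall fun z => ?_)
    show cc δ z.2 z.1 = cc δ z.1 z.2
    exact cc_comm δ _ _
  rw [e1]

section

variable [BorelSpace M] [ProperSpace M]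

theorem aS_nonneg (h4 : Blk_S4.{u}) (hS : InS m n K θ δ) {ρ ρ' σ σ' : M →ₘ[m] ℝ}
    (hρ : CD m ρ ρ') (hσ : CD m σ σ') {γ : Measure (M × M)} {φ ψ : M → ℝ}
    (ho : Opt δ (dm ρ) (dm σ) γ φ ψ) : 0 ≤ aS n K δ γ φ ρ' := by
  have h := h4 m n K θ δ hS ρ ρ' σ σ' hρ hσ γ φ ψ ho ∅ good_empty ∅ MeasurableSet.empty
    (empty_subset _) 1 one_pos
  by_contra hneg
  push Not at hneg
  obtain ⟨j, hj⟩ := (h (-aS n K δ γ φ ρ' / 4) (by linarith)).exists
  rw [Measure.restrict_empty, integral_zero_measure] at hj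
  have h1 := tau_pos j
  nlinarith

/-- exhaustion of the region in which the cost is not cut off -/
theorem exhaust (h3 : Blk_S3.{u}) (hS : InS m n K θ δ) {ρ ρ' σ σ' : M →ₘ[m] ℝ}
    (hρ : CD m ρ ρ') (hσ : CD m σ σ') {γ : Measure (M × M)} {φ ψ : M → ℝ}
    (ho : Opt δ (dm ρ) (dm σ) γ φ ψ) :
    ∃ (E E' : ℕ → Set M) (B : ℕ → Set (M × M)), (∀ k, Good m n K θ (E k)) ∧
      (∀ k, Good m n K θ (E' k)) ∧ (∀ k, MeasurableSet (B k)) ∧ (∀ k, B k ⊆ E k ×ˢ E' k) ∧
      (∀ k, ∀ z ∈ B k, dist z.1 z.2 ^ 2 / 2 ≤ δ - tau k) ∧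
      Tendsto (fun k => (γ (B k)).toReal) atTop (𝓝 (γ (cutA M δ)).toReal) ∧
      Tendsto (fun k => ∫ z in B k, cc δ z.1 z.2 ∂γ) atTop
        (𝓝 (∫ z in cutA M δ, cc δ z.1 z.2 ∂γ)) := by
  haveI := cdP hρ
  haveI := cdP hσ
  haveI : IsProbabilityMeasure γ := (opt_plan ho).isProb
  have hδ := hS.ok.1
  have hc := cost_cc (M := M) hδ.le
  have hci := hc.integrable γ
  have hpos : ∀ k, 0 < ENNReal.ofReal (tau k) := fun k => ENNReal.ofReal_pos.2 (tau_pos k)
  choose E hE hEs using fun k => h3 m n K θ δ hS (dm ρ) (dm_ac ρ) _ (hpos k)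
  choose E' hE' hEs' using fun k => h3 m n K θ δ hS (dm σ) (dm_ac σ) _ (hpos k)
  have hdm : Measurable fun z : M × M => dist z.1 z.2 ^ 2 / 2 :=
    ((continuous_fst.dist continuous_snd).pow 2 |>.div_const 2).measurable
  have hAm : MeasurableSet (cutA M δ) := hdm measurableSet_Iio
  set B : ℕ → Set (M × M) := fun k => {z | dist z.1 z.2 ^ 2 / 2 ≤ δ - tau k} ∩ (E k ×ˢ E' k)
    with hB
  have hBm : ∀ k, MeasurableSet (B k) := fun k =>
    (hdm measurableSet_Iic).inter ((hE k).meas.prod (hE' k).meas)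
  have hBA : ∀ k, B k ⊆ cutA M δ := fun k z hz => by
    have h1 : dist z.1 z.2 ^ 2 / 2 ≤ δ - tau k := hz.1
    have := tau_pos k
    show dist z.1 z.2 ^ 2 / 2 < δ
    linarith
  -- the layer near the cut-off
  set S : ℕ → Set (M × M) := fun k => {z | δ - tau k < dist z.1 z.2 ^ 2 / 2 ∧
    dist z.1 z.2 ^ 2 / 2 < δ} with hSdef
  have hSm : ∀ k, MeasurableSet (S k) := fun k =>
    (hdm measurableSet_Ioi).inter (hdm measurableSet_Iio)
  have hSanti : Antitone S := fun i j hij z hz =>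
    ⟨lt_of_le_of_lt (sub_le_sub_left (tau_anti hij) δ) hz.1, hz.2⟩
  have hSlim : Tendsto (fun k => γ (S k)) atTop (𝓝 0) := by
    have h1 := tendsto_measure_iInter_atTop (μ := γ) (s := S) (fun k => (hSm k).nullMeasurableSet)
      hSanti ⟨0, measure_ne_top _ _⟩
    have h2 : ⋂ k, S k = ∅ := by
      rw [eq_empty_iff_forall_notMem]
      intro z hz
      rw [mem_iInter] at hz
      have h3 : dist z.1 z.2 ^ 2 / 2 < δ := (hz 0).2
      have h4 : ∀ k, δ - dist z.1 z.2 ^ 2 / 2 ≤ tau k := fun k => by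
        have := (hz k).1
        linarith
      have h5 := ge_of_tendsto' tau_tendsto h4
      linarith
    rwa [h2, measure_empty] at h1
  have hfst : ∀ k, γ {z | z.1 ∉ E k} ≤ ENNReal.ofReal (tau k) := fun k => by
    have h1 : γ {z | z.1 ∉ E k} = dm ρ (E k)ᶜ := by
      rw [← ho.fst, Measure.map_apply measurable_fst (hE k).meas.compl]
      rfl
    rw [h1]
    exact hEs k
  have hsnd : ∀ k, γ {z | z.2 ∉ E' k} ≤ ENNReal.ofReal (tau k) := fun k => by
    have h1 : γ {z | z.2 ∉ E' k} = dm σ (E' k)ᶜ := by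
      rw [← ho.snd, Measure.map_apply measurable_snd (hE' k).meas.compl]
      rfl
    rw [h1]
    exact hEs' k
  have hdiff : ∀ k, γ (cutA M δ \ B k) ≤ γ (S k) + ENNReal.ofReal (tau k)
      + ENNReal.ofReal (tau k) := fun k => by
    have h1 : cutA M δ \ B k ⊆ (S k ∪ {z | z.1 ∉ E k}) ∪ {z | z.2 ∉ E' k} := by
      rintro z ⟨hz1, hz2⟩
      by_cases c1 : z.1 ∈ E k
      · by_cases c2 : z.2 ∈ E' k
        · refine Or.inl (Or.inl ⟨?_, hz1⟩)
          by_contra c3
          exact hz2 ⟨not_lt.1 c3, c1, c2⟩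
        · exact Or.inr c2
      · exact Or.inl (Or.inr c1)
    refine (measure_mono h1).trans ((measure_union_le _ _).trans ?_)
    exact add_le_add ((measure_union_le _ _).trans (add_le_add le_rfl (hfst k))) (hsnd k)
  have hofr : Tendsto (fun k => ENNReal.ofReal (tau k)) atTop (𝓝 0) := by
    have := ENNReal.tendsto_ofReal tau_tendsto
    rwa [ENNReal.ofReal_zero] at this
  have hr : Tendsto (fun k => γ (cutA M δ \ B k)) atTop (𝓝 0) := by
    have h1 := (hSlim.add hofr).add hofr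
    rw [add_zero, add_zero] at h1
    exact tendsto_of_tendsto_of_tendsto_of_le_of_le tendsto_const_nhds h1 (fun _ => bot_le) hdiff
  have hr' : Tendsto (fun k => (γ (cutA M δ \ B k)).toReal) atTop (𝓝 0) := by
    have := (ENNReal.tendsto_toReal ENNReal.zero_ne_top).comp hr
    rw [ENNReal.toReal_zero] at this
    exact this
  have e1 : ∀ k, (γ (B k)).toReal = (γ (cutA M δ)).toReal - (γ (cutA M δ \ B k)).toReal := fun k => by
    have := measureReal_diff (μ := γ) (hBA k) (hBm k)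
    unfold Measure.real at this
    linarith
  have e2 : ∀ k, ∫ z in B k, cc δ z.1 z.2 ∂γ = ∫ z in cutA M δ, cc δ z.1 z.2 ∂γ
      - ∫ z in cutA M δ \ B k, cc δ z.1 z.2 ∂γ := fun k => by
    have := integral_diff (μ := γ) (f := fun z : M × M => cc δ z.1 z.2) (hBm k)
      hci.integrableOn (hBA k)
    linarith
  have e3 : ∀ k, |∫ z in cutA M δ \ B k, cc δ z.1 z.2 ∂γ| ≤ δ * (γ (cutA M δ \ B k)).toReal :=
    fun k => by
    have := norm_setIntegral_le_of_norm_le_const (μ := γ) (s := cutA M δ \ B k)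
      (f := fun z : M × M => cc δ z.1 z.2) (C := δ) (measure_lt_top _ _) (fun z _ => by
        rw [Real.norm_eq_abs, abs_of_nonneg (hc.nonneg _ _)]
        exact hc.le _ _)
    rw [Real.norm_eq_abs] at this
    exact this
  refine ⟨E, E', B, hE, hE', hBm, fun k => inter_subset_right, fun k z hz => hz.1, ?_, ?_⟩
  · simp_rw [e1]
    have := hr'.const_sub (γ (cutA M δ)).toReal
    rwa [sub_zero] at this
  · simp_rw [e2]
    have h1 : Tendsto (fun k => ∫ z in cutA M δ \ B k, cc δ z.1 z.2 ∂γ) atTop (𝓝 0) := by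
      have h2 := hr'.const_mul δ
      rw [mul_zero] at h2
      exact squeeze_zero_norm (fun k => by rw [Real.norm_eq_abs]; exact e3 k) h2
    have := h1.const_sub (∫ z in cutA M δ, cc δ z.1 z.2 ∂γ)
    rwa [sub_zero] at this

end

/-- **S5** -/
theorem blk_S5 (h3 : Blk_S3.{u}) (h4 : Blk_S4.{u}) (h25 : Blk_S25.{u}) : Blk_S5.{u} := by
  intro M _ _ _ _ m n K θ δ hS ρ ρ' σ σ' hρ hσ γ φ ψ ho
  have a1 := aS_nonneg h4 hS hρ hσ ho
  have a2 : 0 ≤ aS n K δ γ ψ σ' := by
    have := aS_nonneg h4 hS hσ hρ ho.swap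
    rwa [aS_swap] at this
  refine ⟨a1, a2, fun hal => ?_⟩
  have hn : (0 : ℝ) < n := by exact_mod_cast hS.hN.n_pos
  obtain ⟨E, E', B, hE, hE', hBm, hBs, hBd, hlim1, hlim2⟩ := exhaust h3 hS hρ hσ ho
  set al := (γ (cutA M δ)).toReal with hal'
  set Ac := ∫ z in cutA M δ, cc δ z.1 z.2 ∂γ with hAc
  have key : ∀ l > 0, ∀ l' > 0, 0 ≤ -((n : ℝ) / 2) * Real.log (l * l') - n
      + (l * aS n K δ γ φ ρ' + l' * aS n K δ γ ψ σ') / (2 * al) - K / (3 * al) * Ac := by
    intro l hl l' hl'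
    have ht : Tendsto (fun k => -((n : ℝ) / 2) * Real.log (l * l') - n
        + (l * aS n K δ γ φ ρ' + l' * aS n K δ γ ψ σ') / (2 * (γ (B k)).toReal)
        - K / (3 * (γ (B k)).toReal) * ∫ z in B k, cc δ z.1 z.2 ∂γ) atTop
        (𝓝 (-((n : ℝ) / 2) * Real.log (l * l') - n
        + (l * aS n K δ γ φ ρ' + l' * aS n K δ γ ψ σ') / (2 * al) - K / (3 * al) * Ac)) := by
      have t1 : Tendsto (fun k => (l * aS n K δ γ φ ρ' + l' * aS n K δ γ ψ σ')
          / (2 * (γ (B k)).toReal)) atTop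
          (𝓝 ((l * aS n K δ γ φ ρ' + l' * aS n K δ γ ψ σ') / (2 * al))) :=
        tendsto_const_nhds.div (hlim1.const_mul 2) (by positivity)
      have t2 : Tendsto (fun k => K / (3 * (γ (B k)).toReal)) atTop (𝓝 (K / (3 * al))) :=
        tendsto_const_nhds.div (hlim1.const_mul 3) (by positivity)
      exact (t1.const_add _).sub (t2.mul hlim2)
    refine ge_of_tendsto ht ?_
    filter_upwards [hlim1.eventually (lt_mem_nhds hal)] with k hk
    have hne : γ (B k) ≠ 0 := fun h0 => by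
      rw [h0, ENNReal.toReal_zero] at hk
      exact lt_irrefl _ hk
    exact h25 m n K θ δ hS ρ ρ' σ σ' hρ hσ γ φ ψ ho (E k) (E' k) (hE k) (hE' k) (B k) (hBm k)
      (hBs k) hne (tau k) (tau_pos k) (hBd k) l l' hl hl'
  obtain ⟨-, -, h⟩ := opt hn hal key
  refine le_trans (le_of_eq ?_) h
  congr 2
  field_simp

/-- the parts S and T, from the blocks S3, S4, S25 and the input -/
theorem blk_ST_of' (hIn : Blk_InS.{u}) (h3 : Blk_S3.{u}) (h4 : Blk_S4.{u})
    (h25 : Blk_S25.{u}) : Blk_ST.{u} :=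
  RA.blk_ST_of hIn (blk_S6 (blk_S5 h3 h4 h25))

end Vale.Agent.P233.H866
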