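import Vale.Agent.P233.H866.S3c
import Vale.Agent.P233.H457.GlueC
import Vale.Agent.P233.H227.Into
import Vale.Agent.P233.H715.BlkA1
import Vale.Agent.P233.H715.BlkHeat
import Vale.Agent.P233.H790.Up

/-! P233, part F2 (helper866): `PartF2` from the blocks of part C. -/

set_option linter.all false

universe u

namespace Vale.Agent.P233.PF

open Vale.Agent.P233.PC

/-- the input of part C -/
theorem intoC_all : IntoC.{u} := intoC H715.blk_A1 H715.blk_A H329.blk_AsmB

/-- **Part F2** from the blocks of part C -/
theorem partF2_all (hb : CBlocks.{u}) : Gig.PartF2.{u} :=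
  partF2 (partD1_of hb intoC_all H790.blk_A5v) H715.blk_A1 H715.blk_A hb.c1 hb.c2 hb.c3 hb.c4
    hb.c6a blk_S3

end Vale.Agent.P233.PF
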