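import Vale.Agent.P233.H866.F2Asm
import Vale.Agent.P233.H227.IntoC

/-! P233, part F2, assembly (helper866): the step S3 as a block (`Blk_S3`, helper368) and
`PartF2` from the blocks. -/

set_option linter.all false

open MeasureTheory Filter Topology Set
open scoped ENNReal NNReal MeasureTheory

universe u

namespace Vale.Agent.P233.PF

open Vale.Agent.P233.PC
open Vale.Agent.P233.PA (en OutA PotLim)

/-- the bounds of part A in the form used by part B (329, 227: `lvB_of_outA`) -/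
def HasLvB {M : Type u} [MetricSpace M] [MeasurableSpace M] (m : Measure M)
    (u : ℕ → ℝ → M →ₘ[m] ℝ) (φ : (M →ₘ[m] ℝ) → ℕ → ℝ → M →ₘ[m] ℝ) : Prop :=
  ∀ l ∈ (sob m).TestI, ∀ s ∈ Ioo (0 : ℝ) 1, ∃ Λ : ℝ, ∀ᶠ n in atTop,
    LvB (sob m) (en n) s Λ l (φ l n) (u n)

def Blk_LvB : Prop :=
  ∀ (M : Type u) [MetricSpace M] [CompleteSpace M] [SecondCountableTopology M] [MeasurableSpace M]
    [BorelSpace M] (m : Measure M) (K N : ℝ) (P : ℝ → (M →ₘ[m] ℝ) → (M →ₘ[m] ℝ))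
    (q : M) (s₀ C₀ : ℝ), CHyp M m K N P q s₀ C₀ →
    ∀ (u : ℕ → ℝ → M →ₘ[m] ℝ) (φ : (M →ₘ[m] ℝ) → ℕ → ℝ → M →ₘ[m] ℝ),
      OutA m K N P q s₀ C₀ u φ → HasLvB m u φ

/-- **S3**: the limit `ε → 0` of the integrated inequality for `F = md_κ(d_p)` along the flow of
centre `q`. -/
def Blk_S3 : Prop :=
  ∀ (M : Type u) [MetricSpace M] [CompleteSpace M] [SecondCountableTopology M] [MeasurableSpace M]
    [BorelSpace M] (m : Measure M) (K N κ : ℝ) (P : ℝ → (M →ₘ[m] ℝ) → (M →ₘ[m] ℝ))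
    (q : M) (s₀ C₀ : ℝ), CHyp M m K N P q s₀ C₀ →
    ∀ (E : Type) [NormedAddCommGroup E] [InnerProductSpace ℝ E] [CompleteSpace E]
    (Gr : (M →ₘ[m] ℝ) → M → E) (V : (M →ₘ[m] ℝ) → (M →ₘ[m] ℝ) → M → E)
    (D : (M →ₘ[m] ℝ) → (M →ₘ[m] ℝ))
    (HO : (M →ₘ[m] ℝ) → M → E →L[ℝ] E) (e : ℕ → M →ₘ[m] ℝ), EHyp m K N Gr V D HO e →
    CtB (sob m) K N Gr V D →
    ∀ (u : ℕ → ℝ → M →ₘ[m] ℝ) (φ : (M →ₘ[m] ℝ) → ℕ → ℝ → M →ₘ[m] ℝ),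
      OutA m K N P q s₀ C₀ u φ → LevB m Gr V D κ u φ → HasLvB m u φ →
    ∀ (U : Ultrafilter ℕ), (U : Filter ℕ) ≤ atTop →
    ∀ (φ₀ : ℝ → M → ℝ) (L B R₀ c : ℝ) (ρ : ℝ → M →ₘ[m] ℝ)
      (R : ℝ → ℝ → (M →ₘ[m] ℝ) → (M →ₘ[m] ℝ)) (Y : ℝ → M → M),
      PotLim m N q s₀ C₀ U (φ 0) u φ₀ L B R₀ c → LimOf P U u φ ρ R →
      Lim m K N q s₀ C₀ (fun t => cl m (φ₀ t)) ρ R → Mult ρ R → Maps ρ R Y →
      RFlow m K N q s₀ C₀ Y → Strong q s₀ C₀ U u φ Y →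
    ∀ (p : M) (r Λ₀ : ℝ), Adm κ r →
      (sob m).WHess (cl m (mdr κ p r)) (cl m (Lam κ p r Λ₀)) →
      ∀ G, (sob m).FLap (cl m (mdr κ p r)) G →
      IntConc m (cl m (mdr κ p r)) (cl m (Lam κ p r Λ₀)) q s₀ C₀ Y

/-- the flows with the output of S3, from the blocks of part C -/
theorem flowS3_of (h1 : Blk_C1.{u}) (h2 : Blk_C2.{u}) (h3 : Blk_C3.{u}) (h4 : Blk_C4.{u})
    (h6a : Blk_C6a.{u}) (hLv : Blk_LvB.{u}) (hS3 : Blk_S3.{u})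
    {M : Type u} [MetricSpace M] [CompleteSpace M] [SecondCountableTopology M] [MeasurableSpace M]
    [BorelSpace M] {m : Measure M} {K N κ : ℝ} {P : ℝ → (M →ₘ[m] ℝ) → (M →ₘ[m] ℝ)}
    {E : Type} [NormedAddCommGroup E] [InnerProductSpace ℝ E] [CompleteSpace E]
    {Gr : (M →ₘ[m] ℝ) → M → E} {V : (M →ₘ[m] ℝ) → (M →ₘ[m] ℝ) → M → E}
    {D : (M →ₘ[m] ℝ) → (M →ₘ[m] ℝ)}
    {HO : (M →ₘ[m] ℝ) → M → E →L[ℝ] E} {e : ℕ → M →ₘ[m] ℝ}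
    (h : CIn m K N κ P Gr V D HO e) : FlowS3 m K N κ := by
  refine ⟨h.std, ⟨P, h.heat⟩, fun q s₀ C₀ hs hs1 hC0 => ?_⟩
  have hyp := h.chyp (p := q) hs hs1 hC0
  obtain ⟨u, φ, hO, hB⟩ := h.lev q s₀ C₀ hs hs1 hC0
  let U : Ultrafilter ℕ := Filter.hyperfilter ℕ
  have hU : (U : Filter ℕ) ≤ atTop := Nat.hyperfilter_le_atTop
  obtain ⟨φ₀, L, B, R₀, c, ρ, R, a0, a1, a2⟩ := h1 M m K N P q s₀ C₀ hyp u φ hO U hU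
  have a3 := h2 M m K N P q s₀ C₀ hyp _ ρ R a2
  obtain ⟨Y₀, a4⟩ := h3 M m K N P q s₀ C₀ hyp _ ρ R a2 a3
  obtain ⟨Y, a5, a6⟩ := h4 M m K N P q s₀ C₀ hyp _ ρ R Y₀ a2 a4
  have a7 := h6a M m K N κ P q s₀ C₀ hyp E Gr V D HO e h.ehyp u φ hO hB U hU φ₀ L B R₀ c ρ R Y
    a0 a1 a2 a3 a5
  exact ⟨_, ρ, R, Y, a2, a5, a6, hS3 M m K N κ P q s₀ C₀ hyp E Gr V D HO e h.ehyp h.ctb u φ hO hB
    (hLv M m K N P q s₀ C₀ hyp u φ hO) U hU φ₀ L B R₀ c ρ R Y a0 a1 a2 a3 a5 a6 a7⟩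

end Vale.Agent.P233.PF
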