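import Vale.Agent.P233.Gig.Defs
import Vale.Agent.P233.H368.Static

/-!
P233, block F2S (helper866): the weak Hessian bound with densities `1 + TestI`, and the weak
Laplacian bound on constants + bounded Sobolev functions (cut-off arguments).
-/

set_option linter.all false

open MeasureTheory Filter Topology
open scoped ENNReal NNReal

namespace Vale.Agent.P233

variable {M : Type*} [MeasurableSpace M] {m : Measure M} {C : Calc m}

namespace H866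

section

variable (hC : IsGamma C) {κ : ℝ} (hB : C.BEi κ)
variable {F G Λ ρ h w : M →ₘ[m] ℝ}

include hC

/-- the error term with `Γ(h,χ_k)` tends to `0` -/
theorem err_tendsto (hh : h ∈ C.W) {a : M →ₘ[m] ℝ} (ha : MemLp a 2 m)
    {χ : ℕ → M →ₘ[m] ℝ} {L : ℝ} (hχ : ∀ k, χ k ∈ C.W)
    (hL : ∀ k : ℕ, ∀ᵐ x ∂m, |C.Γ (χ k) (χ k) x| ≤ L * ((k : ℝ) + 1)⁻¹) :
    Tendsto (fun k => I (a * C.Γ h (χ k))) atTop (𝓝 0) := by
  have hD := hC.toIsDir
  have hT : ∀ k, MemLp (C.Γ (χ k) (χ k)) ∞ m := fun k => mem_top_iff.2 ⟨_, hL k⟩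
  have h2 : ∀ k, MemLp (C.Γ h (χ k)) 2 m := fun k => by
    rw [hD.symm h hh _ (hχ k)]
    exact hD.Γ_mem2 (hχ k) (hT k) hh
  have hE : ∀ k : ℕ, I (C.Γ h (χ k) ^ 2) ≤ L * ((k : ℝ) + 1)⁻¹ * I (C.Γ h h) := by
    intro k
    rw [← I_smul]
    refine I_mono (mem_sq (h2 k)) (mem_smul _ (hD.mem1 _ hh)) ?_
    rw [le_iff_ae]
    filter_upwards [hD.Γ_cs_ae hh (hχ k), hL k, sq_ae (C.Γ h (χ k)),
      smul_ae (C.Γ h h) (L * ((k : ℝ) + 1)⁻¹), hD.Γ_nonneg_ae hh] with x a1 a2 a3 a4 a5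
    rw [a3, a4]
    calc C.Γ h (χ k) x ^ 2 ≤ C.Γ h h x * C.Γ (χ k) (χ k) x := a1
      _ ≤ C.Γ h h x * (L * ((k : ℝ) + 1)⁻¹) :=
          mul_le_mul_of_nonneg_left ((le_abs_self _).trans a2) a5
      _ = L * ((k : ℝ) + 1)⁻¹ * C.Γ h h x := by ring
  have hlim : Tendsto (fun k : ℕ => L * ((k : ℝ) + 1)⁻¹ * I (C.Γ h h)) atTop (𝓝 0) := by
    have := (tendsto_inv_succ.const_mul L).mul_const (I (C.Γ h h))
    simpa using this
  have hE0 : Tendsto (fun k => I (C.Γ h (χ k) ^ 2)) atTop (𝓝 0) :=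
    squeeze_zero (fun k => I_sq_nonneg _) hE hlim
  have hb : ∀ k, |I (a * C.Γ h (χ k))| ≤ Real.sqrt (I (a ^ 2)) * Real.sqrt (I (C.Γ h (χ k) ^ 2)) :=
    fun k => I_abs_le ha (h2 k)
  have hs : Tendsto (fun k => Real.sqrt (I (a ^ 2)) * Real.sqrt (I (C.Γ h (χ k) ^ 2))) atTop
      (𝓝 0) := by
    have := (hE0.sqrt).const_mul (Real.sqrt (I (a ^ 2)))
    simpa using this
  rw [tendsto_zero_iff_abs_tendsto_zero]
  exact squeeze_zero (fun k => abs_nonneg _) hb hs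

include hB

/-- **The weak Hessian bound for densities**: `Hess F ≤ Λ` for nonnegative weights in `TestI`
gives the same for nonnegative weights in `1 + TestI`. -/
theorem wH1_le [SigmaFinite m] (hF : F ∈ C.W) (hΛ : MemLp Λ ∞ m) (hW : C.WHess F Λ)
    (hh : h ∈ C.TestI) (hρ : ρ - 1 ∈ C.TestI) (hρ0 : 0 ≤ ρ) :
    C.wH1 F h ρ ≤ I (ρ * Λ * C.Γ h h) := by
  have hD := hC.toIsDir
  obtain ⟨χ, L, h1, h2, h3, h4, h5, h6, h7⟩ := hC.exists_cut hB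
  obtain ⟨r, hr⟩ : ∃ r, r = ρ - 1 := ⟨_, rfl⟩
  have hρr : ρ = r + 1 := by rw [hr]; ring
  have hrT : r ∈ C.TestI := hr ▸ hρ
  have hrA : r ∈ C.A := hC.test_A hrT.1
  have hhA : h ∈ C.A := hC.test_A hh.1
  have hχI : ∀ k, χ k ∈ C.TestI := fun k => ⟨h1 k, mem_top_iff.2 ⟨L, h5 k⟩⟩
  have hχA : ∀ k, χ k ∈ C.A := fun k => hC.test_A (h1 k)
  have hρt : MemLp ρ ∞ m := by rw [hρr]; exact mem_add hrA.2 mem_top_one
  have hw : ∀ k, χ k * r + χ k ∈ C.TestI := fun k =>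
    hC.testI_add hB (hC.testI_mul hB (hχI k) hrT) (hχI k)
  have ew : ∀ k, χ k * r + χ k = χ k * ρ := fun k => by rw [hρr]; ring
  have hw0 : ∀ k, 0 ≤ χ k * r + χ k := fun k => by
    rw [ew]; exact mul_nonneg (h2 k) hρ0
  have hΓhh : C.Γ h h ∈ C.A := hC.Γ_mem hB hh.1 hh.1
  have hFh2 : MemLp (C.Γ F h) 2 m := by
    rw [hD.symm F hF h hhA.1]
    exact hD.Γ_mem2 hhA.1 hΓhh.2 hF
  have hlap2 : MemLp (C.lap h) 2 m := hD.memLp _ (hC.testI_lap_A hB hh).1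
  have hhr2 : MemLp (C.Γ h r) 2 m := hD.Γ_mem2 hhA.1 hΓhh.2 hrA.1
  -- the pieces
  have iA : MemLp (C.Γ F h * (ρ * C.lap h + C.Γ h r) : M →ₘ[m] ℝ) 1 m :=
    mem_mul_22 hFh2 (mem_add (mem_mul_top hρt hlap2) hhr2)
  have iB : MemLp (ρ * C.Γ F (C.Γ h h) : M →ₘ[m] ℝ) 1 m := mem_mul_top hρt (hD.Γ_mem1 hF hΓhh.1)
  have iC : MemLp (ρ * Λ * C.Γ h h : M →ₘ[m] ℝ) 1 m :=
    mem_mul_top (mem_mul_top hρt hΛ) (hD.mem1 _ hhA.1)
  have ha2 : MemLp (ρ * C.Γ F h : M →ₘ[m] ℝ) 2 m := mem_mul_top hρt hFh2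
  -- the inequality for `χ_k ρ`
  have key : ∀ k, -I (χ k * (C.Γ F h * (ρ * C.lap h + C.Γ h r)))
      - I (ρ * C.Γ F h * C.Γ h (χ k)) - 2⁻¹ * I (χ k * (ρ * C.Γ F (C.Γ h h)))
      ≤ I (χ k * (ρ * Λ * C.Γ h h)) := by
    intro k
    have e0 := hW h hh _ (hw k) (hw0 k)
    have e1 : C.Γ h (χ k * r + χ k) = χ k * C.Γ h r + ρ * C.Γ h (χ k) := by
      rw [hD.Γ_add_right hhA.1 (hD.mul_mem_A (hχA k) hrA).1 (hχA k).1,
        hD.Γ_mul_right (hχA k) hrA hhA.1, hρr]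
      ring
    have e2 : C.Γ F h * ((χ k * r + χ k) * C.lap h + C.Γ h (χ k * r + χ k))
        = χ k * (C.Γ F h * (ρ * C.lap h + C.Γ h r)) + ρ * C.Γ F h * C.Γ h (χ k) := by
      rw [e1, ew]; ring
    have e3 : (χ k * r + χ k) * C.Γ F (C.Γ h h) = χ k * (ρ * C.Γ F (C.Γ h h)) := by
      rw [ew]; ring
    have e4 : (χ k * r + χ k) * Λ * C.Γ h h = χ k * (ρ * Λ * C.Γ h h) := by
      rw [ew]; ring
    have hhχ2 : MemLp (C.Γ h (χ k)) 2 m := hD.Γ_mem2 hhA.1 hΓhh.2 (hχA k).1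
    have i1 : MemLp (χ k * (C.Γ F h * (ρ * C.lap h + C.Γ h r)) : M →ₘ[m] ℝ) 1 m :=
      mem_mul_top (hχA k).2 iA
    have i2 : MemLp (ρ * C.Γ F h * C.Γ h (χ k) : M →ₘ[m] ℝ) 1 m := mem_mul_22 ha2 hhχ2
    unfold Calc.wH at e0
    rw [e2, e3, e4, I_add i1 i2] at e0
    linarith
  have l1 : Tendsto (fun k => I (χ k * (C.Γ F h * (ρ * C.lap h + C.Γ h r)))) atTop
      (𝓝 (I (C.Γ F h * (ρ * C.lap h + C.Γ h r)))) := by
    have := I_tendsto_of_bdd (v := 1) h3 (by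
      filter_upwards [h4, one_ae (M := M) (m := m)] with x b1 b2
      rw [b2]; exact b1) iA
    rwa [one_mul] at this
  have l2 : Tendsto (fun k => I (ρ * C.Γ F h * C.Γ h (χ k))) atTop (𝓝 0) :=
    err_tendsto hC hhA.1 ha2 (fun k => (hχA k).1) h7
  have l3 : Tendsto (fun k => I (χ k * (ρ * C.Γ F (C.Γ h h)))) atTop
      (𝓝 (I (ρ * C.Γ F (C.Γ h h)))) := by
    have := I_tendsto_of_bdd (v := 1) h3 (by
      filter_upwards [h4, one_ae (M := M) (m := m)] with x b1 b2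
      rw [b2]; exact b1) iB
    rwa [one_mul] at this
  have l4 : Tendsto (fun k => I (χ k * (ρ * Λ * C.Γ h h))) atTop
      (𝓝 (I (ρ * Λ * C.Γ h h))) := by
    have := I_tendsto_of_bdd (v := 1) h3 (by
      filter_upwards [h4, one_ae (M := M) (m := m)] with x b1 b2
      rw [b2]; exact b1) iC
    rwa [one_mul] at this
  have l5 := ((l1.neg).sub l2).sub (l3.const_mul (2⁻¹ : ℝ))
  have := le_of_tendsto_of_tendsto' l5 l4 key
  unfold Calc.wH1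
  rw [← hr]
  linarith

/-- **The weak Laplacian bound on constants + bounded Sobolev functions** from the plain weak
bound, for an integrable `F`. -/
theorem flap_of [SigmaFinite m] (hF : F ∈ C.W) (hFt : MemLp F ∞ m) (hF1 : MemLp F 1 m)
    (hFF : MemLp (C.Γ F F) ∞ m) (hG0 : 0 ≤ G) (hG1 : MemLp G 1 m) (hGt : MemLp G ∞ m)
    (hL : ∀ w ∈ C.A, 0 ≤ w → -I (C.Γ F w) ≤ I (G * w)) : C.FLap F G := by
  refine ⟨hF, hFt, hFF, hG0, hG1, hGt, ?_⟩
  have hD := hC.toIsDir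
  obtain ⟨χ, L, h1, h2, h3, h4, h5, h6, h7⟩ := hC.exists_cut hB
  have hχA : ∀ k, χ k ∈ C.A := fun k => hC.test_A (h1 k)
  intro w hw c hc
  have hvA : ∀ k, χ k * w + c • χ k ∈ C.A := fun k =>
    hD.A_add (hD.mul_mem_A (hχA k) hw) (hD.A_smul c (hχA k))
  have ev : ∀ k, χ k * w + c • χ k = χ k * (w + c • 1) := fun k => by
    simp only [Algebra.smul_def]; ring
  have hv0 : ∀ k, 0 ≤ χ k * w + c • χ k := fun k => by
    rw [ev]; exact mul_nonneg (h2 k) hc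
  have iG : MemLp (G * (w + c • 1) : M →ₘ[m] ℝ) 1 m :=
    mem_top_mul hG1 (mem_add hw.2 (mem_smul c mem_top_one))
  have hisl : ∀ k, C.IsLap (χ k) (C.lap (χ k)) := fun k => by
    obtain ⟨hb, u, hu, _⟩ := h1 k
    rw [hD.lap_eq hu]; exact hu
  have key : ∀ k, -I (χ k * C.Γ F w) - I (w * C.Γ F (χ k)) + c * I (C.lap (χ k) * F)
      ≤ I (χ k * (G * (w + c • 1))) := by
    intro k
    have e0 := hL _ (hvA k) (hv0 k)
    have e1 : C.Γ F (χ k * w + c • χ k) = χ k * C.Γ F w + w * C.Γ F (χ k) + c • C.Γ F (χ k) := by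
      rw [hD.Γ_add_right hF (hD.mul_mem_A (hχA k) hw).1 (hD.A_smul c (hχA k)).1,
        hD.Γ_mul_right (hχA k) hw hF, hD.Γ_smul_right c hF (hχA k).1]
    have e2 : G * (χ k * w + c • χ k) = χ k * (G * (w + c • 1)) := by
      rw [ev]; ring
    have i1 : MemLp (χ k * C.Γ F w : M →ₘ[m] ℝ) 1 m := mem_mul_top (hχA k).2 (hD.Γ_mem1 hF hw.1)
    have i2 : MemLp (w * C.Γ F (χ k) : M →ₘ[m] ℝ) 1 m := mem_mul_top hw.2 (hD.Γ_mem1 hF (hχA k).1)
    have i3 : MemLp (C.Γ F (χ k)) 1 m := hD.Γ_mem1 hF (hχA k).1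
    have e3 : I (C.Γ F (χ k)) = -I (C.lap (χ k) * F) := by
      rw [hD.symm F hF _ (hχA k).1]
      exact (hisl k).2.2 F hF
    rw [e1, e2, I_add (mem_add i1 i2) (mem_smul c i3), I_add i1 i2, I_smul, e3] at e0
    linarith
  have l1 : Tendsto (fun k => I (χ k * C.Γ F w)) atTop (𝓝 (I (C.Γ F w))) := by
    have := I_tendsto_of_bdd (v := 1) h3 (by
      filter_upwards [h4, one_ae (M := M) (m := m)] with x b1 b2
      rw [b2]; exact b1) (hD.Γ_mem1 hF hw.1)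
    rwa [one_mul] at this
  have l2 : Tendsto (fun k => I (w * C.Γ F (χ k))) atTop (𝓝 0) :=
    err_tendsto hC hF (hD.memLp _ hw.1) (fun k => (hχA k).1) h7
  have l3 : Tendsto (fun k => I (C.lap (χ k) * F)) atTop (𝓝 0) := by
    have := I_tendsto_of_bdd (v := 0) h5 (by
      filter_upwards [h6, zero_ae (M := M) (m := m)] with x b1 b2
      rw [b2]; exact b1) hF1
    rwa [zero_mul, I_zero] at this
  have l4 : Tendsto (fun k => I (χ k * (G * (w + c • 1)))) atTop (𝓝 (I (G * (w + c • 1)))) := by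
    have := I_tendsto_of_bdd (v := 1) h3 (by
      filter_upwards [h4, one_ae (M := M) (m := m)] with x b1 b2
      rw [b2]; exact b1) iG
    rwa [one_mul] at this
  have l5 := ((l1.neg).sub l2).add (l3.const_mul c)
  have := le_of_tendsto_of_tendsto' l5 l4 key
  linarith

end

end H866

end Vale.Agent.P233
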