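import Vale.Agent.P233.Gig.Defs
import Vale.Agent.P233.H616.Model
import Mathlib.Analysis.Calculus.LHopital

/-!
P233 (helper866): the function `y ↦ md_κ (√y)` is `C²` on `[0,∞)`.
-/

set_option linter.all false

open MeasureTheory Filter Topology Set
open scoped ENNReal NNReal

namespace Vale.Agent.P233

/-- the definitions of `Gig.Defs` and of `H616.Model` agree -/
theorem sn_eq (κ : ℝ) : sn κ = H616.sn κ := rfl
theorem cs_eq_H616 (κ : ℝ) : cs κ = H616.cs κ := rfl
theorem md_eq_H616 (κ : ℝ) : md κ = H616.md κ := by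
  ext r
  unfold md H616.md
  split_ifs
  · rfl
  · rfl
  · rw [div_neg, ← neg_div, neg_sub]

theorem hasDerivAt_md (κ t : ℝ) : HasDerivAt (md κ) (sn κ t) t := by
  rw [md_eq_H616]; exact H616.hasDerivAt_md κ t
theorem hasDerivAt_sn (κ t : ℝ) : HasDerivAt (sn κ) (cs κ t) t := H616.hasDerivAt_sn κ t
theorem hasDerivAt_cs (κ t : ℝ) : HasDerivAt (cs κ) (-(κ * sn κ t)) t := H616.hasDerivAt_cs κ t
theorem continuous_md (κ : ℝ) : Continuous (md κ) := by
  rw [md_eq_H616]; exact H616.continuous_md κ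
theorem continuous_sn (κ : ℝ) : Continuous (sn κ) := H616.continuous_sn κ
theorem continuous_cs (κ : ℝ) : Continuous (cs κ) := H616.continuous_cs κ
theorem md_zero_arg (κ : ℝ) : md κ 0 = 0 := by rw [md_eq_H616]; exact H616.md_at_zero κ
theorem sn_zero_arg (κ : ℝ) : sn κ 0 = 0 := H616.sn_at_zero κ
theorem cs_zero_arg (κ : ℝ) : cs κ 0 = 1 := H616.cs_at_zero κ
theorem cs_eq_md (κ t : ℝ) : cs κ t = 1 - κ * md κ t := by
  rw [md_eq_H616]; exact H616.cs_eq κ t

/-- `md_κ (√y)` -/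
noncomputable def hm (κ y : ℝ) : ℝ := md κ (√y)

/-- the first derivative of `md_κ (√y)` -/
noncomputable def hm1 (κ y : ℝ) : ℝ := if y = 0 then 1 / 2 else sn κ (√y) / (2 * √y)

/-- the second derivative of `md_κ (√y)` -/
noncomputable def hm2 (κ y : ℝ) : ℝ :=
  if y = 0 then -κ / 12 else (cs κ (√y) - sn κ (√y) / √y) / (4 * y)

theorem tendsto_sqrt_nhdsGT : Tendsto Real.sqrt (𝓝[>] (0 : ℝ)) (𝓝[>] (0 : ℝ)) := by
  refine tendsto_nhdsWithin_iff.2 ⟨?_, ?_⟩
  · have := Real.continuous_sqrt.tendsto 0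
    rw [Real.sqrt_zero] at this
    exact this.mono_left nhdsWithin_le_nhds
  · filter_upwards [self_mem_nhdsWithin] with y hy
    exact Real.sqrt_pos.2 hy

theorem tendsto_sn_div (κ : ℝ) : Tendsto (fun r => sn κ r / r) (𝓝[>] (0 : ℝ)) (𝓝 1) := by
  have h := (hasDerivAt_iff_tendsto_slope_zero.1 (hasDerivAt_sn κ 0))
  rw [cs_zero_arg] at h
  have h2 := h.mono_left (nhdsWithin_mono (0 : ℝ) (s := Ioi 0) (t := {0}ᶜ)
    (fun x (hx : 0 < x) => hx.ne'))
  refine h2.congr fun r => ?_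
  rw [zero_add, sn_zero_arg, sub_zero, smul_eq_mul, div_eq_inv_mul]

theorem tendsto_aux (κ : ℝ) :
    Tendsto (fun r => (r * cs κ r - sn κ r) / (4 * r ^ 3)) (𝓝[>] (0 : ℝ)) (𝓝 (-κ / 12)) := by
  have hc1 : Tendsto (fun r => r * cs κ r - sn κ r) (𝓝[>] (0 : ℝ)) (𝓝 0) := by
    have hc : Continuous fun r => r * cs κ r - sn κ r :=
      (continuous_id.mul (continuous_cs κ)).sub (continuous_sn κ)
    have := hc.tendsto 0
    simp only [zero_mul, sn_zero_arg, sub_zero] at this
    exact this.mono_left nhdsWithin_le_nhds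
  have hc2 : Tendsto (fun r : ℝ => 4 * r ^ 3) (𝓝[>] (0 : ℝ)) (𝓝 0) := by
    have hc : Continuous fun r : ℝ => 4 * r ^ 3 := by fun_prop
    have := hc.tendsto 0
    norm_num at this
    exact this.mono_left nhdsWithin_le_nhds
  refine HasDerivAt.lhopital_zero_nhdsGT (f' := fun r => -(κ * (r * sn κ r)))
    (g' := fun r => 12 * r ^ 2) ?_ ?_ ?_ hc1 hc2 ?_
  · refine Eventually.of_forall fun r => ?_
    have h1 := ((hasDerivAt_id r).mul (hasDerivAt_cs κ r)).sub (hasDerivAt_sn κ r)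
    refine h1.congr_deriv ?_
    simp only [id_eq]; ring
  · refine Eventually.of_forall fun r => ?_
    have h1 := (hasDerivAt_pow 3 r).const_mul 4
    refine h1.congr_deriv ?_
    push_cast; ring
  · filter_upwards [self_mem_nhdsWithin] with r hr
    have : (0 : ℝ) < r := hr
    positivity
  · have h1 := (tendsto_sn_div κ).const_mul (-κ / 12)
    rw [mul_one] at h1
    refine h1.congr' ?_
    filter_upwards [self_mem_nhdsWithin] with r hr
    have : (0 : ℝ) < r := hr
    field_simp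

theorem hasDerivAt_hm {κ y : ℝ} (hy : 0 < y) : HasDerivAt (hm κ) (hm1 κ y) y := by
  have h1 := (hasDerivAt_md κ (√y)).comp y (Real.hasDerivAt_sqrt hy.ne')
  refine h1.congr_deriv ?_
  unfold hm1
  rw [if_neg hy.ne']
  ring

theorem hasDerivAt_hm1 {κ y : ℝ} (hy : 0 < y) : HasDerivAt (hm1 κ) (hm2 κ y) y := by
  have hs : 0 < √y := Real.sqrt_pos.2 hy
  have hsq : √y * √y = y := Real.mul_self_sqrt hy.le
  have h0 := Real.hasDerivAt_sqrt hy.ne'
  have h1 := ((hasDerivAt_sn κ (√y)).comp y h0).div (h0.const_mul 2) (by positivity)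
  have h2 : HasDerivAt (fun y => sn κ (√y) / (2 * √y)) (hm2 κ y) y := by
    refine h1.congr_deriv ?_
    unfold hm2
    rw [if_neg hy.ne']
    simp only [Function.comp_apply]
    rw [show y = √y * √y from hsq.symm]
    rw [Real.sqrt_mul_self hs.le]
    field_simp
    ring
  refine h2.congr_of_eventuallyEq ?_
  filter_upwards [lt_mem_nhds hy] with z hz
  unfold hm1
  rw [if_neg hz.ne']

theorem tendsto_hm1 (κ : ℝ) : Tendsto (hm1 κ) (𝓝[>] (0 : ℝ)) (𝓝 (1 / 2)) := by
  have h1 := ((tendsto_sn_div κ).comp tendsto_sqrt_nhdsGT).mul_const (1 / 2 : ℝ)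
  rw [one_mul] at h1
  refine h1.congr' ?_
  filter_upwards [self_mem_nhdsWithin] with y hy
  have hy' : (0 : ℝ) < y := hy
  have hs : 0 < √y := Real.sqrt_pos.2 hy'
  unfold hm1
  rw [if_neg hy'.ne']
  simp only [Function.comp_apply]
  field_simp

theorem tendsto_hm2 (κ : ℝ) : Tendsto (hm2 κ) (𝓝[>] (0 : ℝ)) (𝓝 (-κ / 12)) := by
  have h1 := (tendsto_aux κ).comp tendsto_sqrt_nhdsGT
  refine h1.congr' ?_
  filter_upwards [self_mem_nhdsWithin] with y hy
  have hy' : (0 : ℝ) < y := hy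
  have hs : 0 < √y := Real.sqrt_pos.2 hy'
  have hsq : √y ^ 2 = y := Real.sq_sqrt hy'.le
  unfold hm2
  rw [if_neg hy'.ne']
  simp only [Function.comp_apply]
  rw [show 4 * √y ^ 3 = 4 * y * √y by rw [pow_succ, hsq]; ring]
  field_simp

theorem continuousWithinAt_of_tendsto {f : ℝ → ℝ} {c : ℝ} (h : Tendsto f (𝓝[>] (0 : ℝ)) (𝓝 c))
    (h0 : f 0 = c) : ContinuousWithinAt f (Ici 0) 0 := by
  have h1 : ContinuousWithinAt f (Ioi 0) 0 := by
    rw [ContinuousWithinAt, h0]; exact h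
  rw [show Ici (0 : ℝ) = insert 0 (Ioi 0) from (Set.Ioi_insert).symm]
  exact h1.insert

theorem continuousOn_hm (κ : ℝ) : ContinuousOn (hm κ) (Ici 0) :=
  ((continuous_md κ).comp Real.continuous_sqrt).continuousOn

theorem continuousOn_hm1 (κ : ℝ) : ContinuousOn (hm1 κ) (Ici 0) := by
  intro y hy
  rcases (show (0 : ℝ) ≤ y from hy).eq_or_lt with h | h
  · rw [← h]
    exact continuousWithinAt_of_tendsto (tendsto_hm1 κ) (by simp [hm1])
  · exact (hasDerivAt_hm1 h).continuousAt.continuousWithinAt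

theorem continuousOn_hm2 (κ : ℝ) : ContinuousOn (hm2 κ) (Ici 0) := by
  intro y hy
  rcases (show (0 : ℝ) ≤ y from hy).eq_or_lt with h | h
  · rw [← h]
    exact continuousWithinAt_of_tendsto (tendsto_hm2 κ) (by simp [hm2])
  · have h1 : ContinuousAt (fun y => (cs κ (√y) - sn κ (√y) / √y) / (4 * y)) y := by
      have hs : √y ≠ 0 := (Real.sqrt_pos.2 h).ne'
      have a1 : ContinuousAt (fun y => cs κ (√y)) y :=
        ((continuous_cs κ).comp Real.continuous_sqrt).continuousAt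
      have a2 : ContinuousAt (fun y => sn κ (√y)) y :=
        ((continuous_sn κ).comp Real.continuous_sqrt).continuousAt
      exact (a1.sub (a2.div Real.continuous_sqrt.continuousAt hs)).div
        (by fun_prop) (by positivity)
    refine (h1.congr ?_).continuousWithinAt
    filter_upwards [lt_mem_nhds h] with z hz
    unfold hm2
    rw [if_neg hz.ne']

theorem hasDerivWithinAt_hm {κ y : ℝ} (hy : 0 ≤ y) :
    HasDerivWithinAt (hm κ) (hm1 κ y) (Ici 0) y := by
  rcases hy.eq_or_lt with h | h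
  · rw [← h]
    have e : hm1 κ 0 = 1 / 2 := by simp [hm1]
    rw [e]
    refine hasDerivWithinAt_Ici_of_tendsto_deriv (s := Ioi 0) ?_ ?_ self_mem_nhdsWithin ?_
    · intro z hz
      exact (hasDerivAt_hm hz).differentiableAt.differentiableWithinAt
    · exact (continuousOn_hm κ 0 (by simp)).mono Ioi_subset_Ici_self
    · refine (tendsto_hm1 κ).congr' ?_
      filter_upwards [self_mem_nhdsWithin] with z hz
      exact (hasDerivAt_hm hz).deriv.symm
  · exact (hasDerivAt_hm h).hasDerivWithinAt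

theorem hasDerivWithinAt_hm1 {κ y : ℝ} (hy : 0 ≤ y) :
    HasDerivWithinAt (hm1 κ) (hm2 κ y) (Ici 0) y := by
  rcases hy.eq_or_lt with h | h
  · rw [← h]
    have e : hm2 κ 0 = -κ / 12 := by simp [hm2]
    rw [e]
    refine hasDerivWithinAt_Ici_of_tendsto_deriv (s := Ioi 0) ?_ ?_ self_mem_nhdsWithin ?_
    · intro z hz
      exact (hasDerivAt_hm1 hz).differentiableAt.differentiableWithinAt
    · exact (continuousOn_hm1 κ 0 (by simp)).mono Ioi_subset_Ici_self
    · refine (tendsto_hm2 κ).congr' ?_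
      filter_upwards [self_mem_nhdsWithin] with z hz
      exact (hasDerivAt_hm1 hz).deriv.symm
  · exact (hasDerivAt_hm1 h).hasDerivWithinAt

theorem hm1_pos {κ y : ℝ} (hy : 0 ≤ y) (h : 0 < κ → √κ * √y < Real.pi) : 0 < hm1 κ y := by
  unfold hm1
  split_ifs with h0
  · norm_num
  · have hy' : 0 < y := lt_of_le_of_ne hy (Ne.symm h0)
    have hs : 0 < √y := Real.sqrt_pos.2 hy'
    exact div_pos (H616.sn_pos hs h) (by positivity)

/-- `cs_κ = 4 y h'' + 2 h'` -/
theorem hm_ode {κ y : ℝ} (hy : 0 ≤ y) : 4 * y * hm2 κ y + 2 * hm1 κ y = cs κ (√y) := by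
  unfold hm1 hm2
  split_ifs with h0
  · subst h0; simp [cs_zero_arg]
  · have hy' : 0 < y := lt_of_le_of_ne hy (Ne.symm h0)
    have hs : 0 < √y := Real.sqrt_pos.2 hy'
    field_simp
    ring

theorem hm_sq {κ r : ℝ} (hr : 0 ≤ r) : hm κ (r ^ 2) = md κ r := by
  unfold hm; rw [Real.sqrt_sq hr]

/-- clamped version, continuous on `ℝ` -/
theorem continuous_clamp {f : ℝ → ℝ} (hf : ContinuousOn f (Ici 0)) :
    Continuous fun y => f (max 0 y) :=
  hf.comp_continuous (continuous_const.max continuous_id) fun y =>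
    (le_max_left 0 y : (0 : ℝ) ≤ max 0 y)

end Vale.Agent.P233
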