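import Vale.Agent.P233.Gig.Defs
import Vale.Agent.P233.H866.MdSqrt
import Vale.Agent.P233.H866.HessF

/-!
P233 (helper866): the one-sided Laplacian bound of `md_κ(d_p)` truncated at `R` from the one of
the radial potential `zr`.
-/

set_option linter.all false

open MeasureTheory Filter Topology Set
open scoped ENNReal NNReal

universe u

namespace Vale.Agent.P233

/-! ### abstract chain rule -/

namespace H866

section chain

variable {M : Type*} [MeasurableSpace M] {m : Measure M} {C : Calc m}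

theorem comp_bdd {f : M →ₘ[m] ℝ} {a b : ℝ} (hab : ∀ᵐ x ∂m, a ≤ f x ∧ f x ≤ b) {φ : ℝ → ℝ}
    (hφ : Continuous φ) : ∃ B : ℝ, 0 ≤ B ∧ ∀ᵐ x ∂m, |AEEqFun.comp φ hφ f x| ≤ B := by
  obtain ⟨B, hB⟩ := (isCompact_Icc (a := a) (b := b)).exists_bound_of_continuousOn
    hφ.continuousOn
  refine ⟨|B|, abs_nonneg _, ?_⟩
  filter_upwards [AEEqFun.coeFn_comp φ hφ f, hab] with x h1 h2
  rw [h1, Function.comp_apply]
  exact (hB _ h2).trans (le_abs_self B)

/-- one-sided Laplacian bound of a nondecreasing `C²` function of `z` -/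
theorem lap_chain (hD : IsDir C) {z : M →ₘ[m] ℝ} (hz : z ∈ C.W) {a b : ℝ} (ha : a ≤ 0)
    (hb : 0 ≤ b) (hab : ∀ᵐ x ∂m, a ≤ z x ∧ z x ≤ b) {φ φ1 φ2 : ℝ → ℝ}
    (hφ : Continuous φ) (hφ1 : Continuous φ1) (hφ2 : Continuous φ2)
    (hd : ∀ t ∈ Icc a b, HasDerivWithinAt φ (φ1 t) (Icc a b) t)
    (hd1 : ∀ t ∈ Icc a b, HasDerivWithinAt φ1 (φ2 t) (Icc a b) t)
    (h0 : φ 0 = 0) (hpos : ∀ t ∈ Icc a b, 0 ≤ φ1 t) {c : ℝ}
    (hzz : MemLp (C.Γ z z) ∞ m)
    (hL : ∀ w ∈ C.A, MemLp w 1 m → 0 ≤ w → -I (C.Γ z w) ≤ c * I w) :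
    ∃ c' : ℝ, 0 ≤ c' ∧ ∀ w ∈ C.A, MemLp w 1 m → 0 ≤ w →
      -I (C.Γ (AEEqFun.comp φ hφ z) w) ≤ c' * I w := by
  obtain ⟨B1, hB1, hb1⟩ := comp_bdd hab hφ1
  obtain ⟨B2, hB2, hb2⟩ := comp_bdd hab hφ2
  obtain ⟨G, hG⟩ := mem_top_iff.1 hzz
  refine ⟨|c| * B1 + B2 * |G|, by positivity, ?_⟩
  intro w hw hw1 hw0
  have hc0 : Continuous fun t => φ1 t - φ1 0 := hφ1.sub continuous_const
  obtain ⟨h1, h2⟩ := hD.hc_chain hz ha hb hab hφ hφ1 hd h0
  obtain ⟨h3, h4⟩ := hD.hc_chain hz ha hb hab hc0 hφ2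
    (fun t ht => (hd1 t ht).sub_const _) (sub_self _)
  set p := AEEqFun.comp φ1 hφ1 z with hp
  set q := AEEqFun.comp φ2 hφ2 z with hq
  set b0 := AEEqFun.comp _ hc0 z with hb0
  have hb0t : MemLp b0 ∞ m := hc_comp_top hab hc0
  have hpt : MemLp p ∞ m := mem_top_iff.2 ⟨_, hb1⟩
  have hqt : MemLp q ∞ m := mem_top_iff.2 ⟨_, hb2⟩
  have hb0A : b0 ∈ C.A := ⟨h3, hb0t⟩
  have ep : p = b0 + φ1 0 • 1 := by
    rw [eq_iff_ae]
    filter_upwards [AEEqFun.coeFn_comp φ1 hφ1 z, AEEqFun.coeFn_comp _ hc0 z,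
      add_ae b0 (φ1 0 • (1 : M →ₘ[m] ℝ)), smul_ae (1 : M →ₘ[m] ℝ) (φ1 0),
      one_ae (M := M) (m := m)] with x a1 a2 a3 a4 a5
    rw [a3, a4, a5, a1, a2]
    simp only [Function.comp_apply]; ring
  have hp0 : 0 ≤ p := by
    rw [nonneg_iff_ae]
    filter_upwards [AEEqFun.coeFn_comp φ1 hφ1 z, hab] with x a1 a2
    rw [a1]; exact hpos _ a2
  -- the test function `p w`
  have hwA : b0 * w + φ1 0 • w ∈ C.A := hD.A_add (hD.mul_mem_A hb0A hw) (hD.A_smul _ hw)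
  have ew : b0 * w + φ1 0 • w = p * w := by
    rw [ep]; simp only [Algebra.smul_def]; ring
  have hw1' : MemLp (p * w : M →ₘ[m] ℝ) 1 m := mem_mul_top hpt hw1
  have e0 := hL _ hwA (by rw [ew]; exact hw1') (by rw [ew]; exact mul_nonneg hp0 hw0)
  have e1 : C.Γ z (b0 * w + φ1 0 • w) = p * C.Γ z w + w * (q * C.Γ z z) := by
    rw [hD.Γ_add_right hz (hD.mul_mem_A hb0A hw).1 (hD.A_smul _ hw).1,
      hD.Γ_mul_right hb0A hw hz, hD.Γ_smul_right _ hz hw.1, hD.symm z hz b0 h3, h4 z hz, ep]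
    simp only [Algebra.smul_def]; ring
  have i1 : MemLp (p * C.Γ z w : M →ₘ[m] ℝ) 1 m := mem_mul_top hpt (hD.Γ_mem1 hz hw.1)
  have i2 : MemLp (w * (q * C.Γ z z) : M →ₘ[m] ℝ) 1 m := mem_top_mul hw1 (mem_mul_top hqt hzz)
  rw [e1, ew, I_add i1 i2] at e0
  have e2 : I (p * w) ≤ B1 * I w := by
    rw [← I_smul]
    refine I_mono hw1' (mem_smul _ hw1) ?_
    rw [le_iff_ae]
    filter_upwards [mul_ae p w, smul_ae w B1, hb1, nonneg_iff_ae.1 hw0] with x a1 a2 a3 a4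
    rw [a1, a2]
    exact mul_le_mul_of_nonneg_right ((le_abs_self _).trans a3) a4
  have e3 : I (w * (q * C.Γ z z)) ≤ B2 * |G| * I w := by
    rw [← I_smul]
    refine I_mono i2 (mem_smul _ hw1) ?_
    rw [le_iff_ae]
    filter_upwards [mul_ae w (q * C.Γ z z), mul_ae q (C.Γ z z), smul_ae w (B2 * |G|), hb2, hG,
      nonneg_iff_ae.1 hw0] with x a1 a2 a3 a4 a5 a6
    rw [a1, a2, a3, mul_comm (w x)]
    refine mul_le_mul_of_nonneg_right ?_ a6
    calc q x * C.Γ z z x ≤ |q x * C.Γ z z x| := le_abs_self _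
      _ = |q x| * |C.Γ z z x| := abs_mul _ _
      _ ≤ B2 * |G| := mul_le_mul a4 (a5.trans (le_abs_self _)) (abs_nonneg _) hB2
  have e4 : 0 ≤ I (p * w) := I_nonneg (mul_nonneg hp0 hw0)
  rw [h2 w hw.1]
  have e5 : c * I (p * w) ≤ |c| * (B1 * I w) :=
    (mul_le_mul_of_nonneg_right (le_abs_self c) e4).trans
      (mul_le_mul_of_nonneg_left e2 (abs_nonneg c))
  linarith

end chain

/-! ### the metric space -/

section metric

variable {M : Type u} [MetricSpace M] [MeasurableSpace M] [BorelSpace M]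
  [SecondCountableTopology M] {m : Measure M}

theorem cl_ae {f : M → ℝ} (hf : Continuous f) : ⇑(cl m f) =ᵐ[m] f := by
  have h : AEStronglyMeasurable f m := hf.aestronglyMeasurable
  unfold cl
  rw [dif_pos h]
  exact AEEqFun.coeFn_mk f h

theorem cl_comp {f : M → ℝ} (hf : Continuous f) {φ : ℝ → ℝ} (hφ : Continuous φ) :
    AEEqFun.comp φ hφ (cl m f) = cl m (fun x => φ (f x)) := by
  rw [eq_iff_ae]
  filter_upwards [AEEqFun.coeFn_comp φ hφ (cl m f), cl_ae (m := m) hf,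
    cl_ae (m := m) (hφ.comp hf)] with x a1 a2 a3
  rw [a1, Function.comp_apply, a2]
  exact a3.symm

/-- Lipschitz functions with bounded support -/
theorem cl_mem (hfin : ∀ (x : M) (r : ℝ), m (Metric.ball x r) < ∞) {u : M → ℝ} {L : ℝ≥0}
    (hL : LipschitzWith L u) {x₀ : M} {R : ℝ} (hsupp : ∀ x, x ∉ Metric.ball x₀ R → u x = 0) :
    cl m u ∈ (sob m).W ∧ MemLp (cl m u) ∞ m ∧
      (∀ᵐ x ∂m, (sob m).Γ (cl m u) (cl m u) x ≤ (L : ℝ) ^ 2) ∧
      MemLp ((sob m).Γ (cl m u) (cl m u)) ∞ m := by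
  have hgood := Met.good_of_bounded_support hfin hL hsupp
  have hW : Met.W12 m u := ⟨_, hgood.rSlope⟩
  obtain ⟨G, hG, hGe⟩ := exists_class hW
  have e : cl m u = G := by
    rw [eq_iff_ae]
    filter_upwards [cl_ae (m := m) hL.continuous, hGe] with x a1 a2
    rw [a1, a2]
  rw [e]
  obtain ⟨B, hB⟩ := Met.bdd_of_bounded_support hL hsupp
  have h1 : ∀ᵐ x ∂m, (sob m).Γ G G x ≤ (L : ℝ) ^ 2 ∧ 0 ≤ (sob m).Γ G G x := by
    have h4 := slope_le_of_lipschitz hfin hG hGe hL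
    rw [le_iff_ae] at h4
    filter_upwards [h4, sob_Γ_self_ae hG, slope_ae hG,
      smul_ae (1 : M →ₘ[m] ℝ) (L : ℝ), one_ae (M := M) (m := m),
      (mem_sob_iff.1 hG).mslope_nonneg] with x a1 a2 a3 a4 a5 a6
    rw [a3, a4, a5, mul_one] at a1
    rw [a2]
    exact ⟨by gcongr, sq_nonneg _⟩
  refine ⟨hG, ?_, h1.mono fun x hx => hx.1, ?_⟩
  · rw [mem_top_iff]
    refine ⟨B, ?_⟩
    filter_upwards [hGe] with x hx
    rw [hx]; exact hB x
  · rw [mem_top_iff]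
    exact ⟨(L : ℝ) ^ 2, h1.mono fun x hx => by rw [abs_of_nonneg hx.2]; exact hx.1⟩

theorem continuous_zr (p : M) (s₀ C₀ t : ℝ) : Continuous (zr p s₀ C₀ t) := by
  unfold zr; fun_prop

theorem continuous_mdr (κ : ℝ) (p : M) (R : ℝ) : Continuous (mdr κ p R) := by
  unfold mdr
  exact ((continuous_md κ).comp (by fun_prop)).sub continuous_const

theorem std_gamma {K N : ℝ} (h : Std m K N) : IsGamma (sob m) :=
  isGamma_sob h.hfin h.rcd.quadratic h.rcd.sobolev_to_lipschitz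

theorem std_bei {K N : ℝ} (h : Std m K N) : (sob m).BEi K := (std_gamma h).bei h.hN h.rcd.bochner

/-- `2 T z + R² = min (d_p, R)²` -/
theorem zr_eq {p : M} {s₀ C₀ t R : ℝ} (hR : 0 < R) (hT : 0 < t + s₀)
    (hC0 : C₀ = R ^ 2 / (2 * (t + s₀))) (x : M) :
    2 * (t + s₀) * zr p s₀ C₀ t x + R ^ 2 = min (dist p x) R ^ 2 := by
  unfold zr
  have h2 : 0 < 2 * (t + s₀) := by linarith
  have hd : 0 ≤ dist p x := dist_nonneg
  rcases le_total (dist p x) R with h | h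
  · have h3 : dist p x ^ 2 / (2 * (t + s₀)) - C₀ ≤ 0 := by
      rw [hC0, ← sub_div]
      refine div_nonpos_of_nonpos_of_nonneg ?_ h2.le
      nlinarith
    rw [min_eq_left h, min_eq_left h3, hC0]
    field_simp
    ring
  · have h3 : 0 ≤ dist p x ^ 2 / (2 * (t + s₀)) - C₀ := by
      rw [hC0, ← sub_div]
      refine div_nonneg ?_ h2.le
      nlinarith
    rw [min_eq_right h, min_eq_right h3]
    ring

theorem zr_range {p : M} {s₀ C₀ t R : ℝ} (hR : 0 < R) (hT : 0 < t + s₀)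
    (hC0 : C₀ = R ^ 2 / (2 * (t + s₀))) (x : M) :
    -(R ^ 2 / (2 * (t + s₀))) ≤ zr p s₀ C₀ t x ∧ zr p s₀ C₀ t x ≤ 0 := by
  have h2 : 0 < 2 * (t + s₀) := by linarith
  refine ⟨?_, min_le_right _ _⟩
  have h3 := zr_eq (p := p) hR hT hC0 x
  have h4 : 0 ≤ min (dist p x) R ^ 2 := sq_nonneg _
  rw [← neg_div, div_le_iff₀ h2]
  nlinarith

theorem zr_lip {p : M} {s₀ C₀ t R : ℝ} (hR : 0 < R) (hT : 0 < t + s₀)
    (hC0 : C₀ = R ^ 2 / (2 * (t + s₀))) :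
    LipschitzWith (R / (t + s₀)).toNNReal (zr p s₀ C₀ t) := by
  have h2 : 0 < 2 * (t + s₀) := by linarith
  refine LipschitzWith.of_dist_le_mul fun x y => ?_
  rw [Real.coe_toNNReal _ (by positivity), Real.dist_eq]
  have hx := zr_eq (p := p) hR hT hC0 x
  have hy := zr_eq (p := p) hR hT hC0 y
  set a := min (dist p x) R with ha
  set b := min (dist p y) R with hb
  have ha0 : 0 ≤ a := le_min dist_nonneg hR.le
  have hb0 : 0 ≤ b := le_min dist_nonneg hR.le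
  have haR : a ≤ R := min_le_right _ _
  have hbR : b ≤ R := min_le_right _ _
  have hab : |a - b| ≤ dist x y := by
    have h5 := abs_min_sub_min_le_max (dist p x) R (dist p y) R
    rw [sub_self, abs_zero, max_eq_left (abs_nonneg _)] at h5
    refine h5.trans ?_
    rw [dist_comm p x, dist_comm p y]
    exact abs_dist_sub_le x y p
  have e : zr p s₀ C₀ t x - zr p s₀ C₀ t y = (a - b) * (a + b) / (2 * (t + s₀)) := by
    rw [eq_div_iff h2.ne']
    linear_combination hx - hy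
  rw [e, abs_div, abs_of_pos h2, abs_mul, div_le_iff₀ h2, abs_of_nonneg (by linarith : 0 ≤ a + b)]
  have e2 : R / (t + s₀) * dist x y * (2 * (t + s₀)) = dist x y * (2 * R) := by
    field_simp
  rw [e2]
  exact mul_le_mul hab (by linarith) (by linarith) dist_nonneg

theorem zr_supp {p : M} {s₀ C₀ t R : ℝ} (hR : 0 < R) (hT : 0 < t + s₀)
    (hC0 : C₀ = R ^ 2 / (2 * (t + s₀))) (x : M) (hx : x ∉ Metric.ball p R) :
    zr p s₀ C₀ t x = 0 := by
  have h2 : 0 < 2 * (t + s₀) := by linarith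
  have h3 := zr_eq (p := p) hR hT hC0 x
  rw [Metric.mem_ball, not_lt, dist_comm] at hx
  rw [min_eq_right hx] at h3
  have h4 : 2 * (t + s₀) * zr p s₀ C₀ t x = 0 := by linarith
  rcases mul_eq_zero.1 h4 with h5 | h5
  · linarith
  · exact h5

theorem mdr_supp {κ : ℝ} {p : M} {R : ℝ} (x : M) (hx : R ≤ dist p x) : mdr κ p R x = 0 := by
  unfold mdr; rw [min_eq_right hx, sub_self]

/-- `md_κ (d_p)` truncated as a function of the radial potential -/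
noncomputable def phiF (κ T R s : ℝ) : ℝ := hm κ (max 0 (2 * T * s + R ^ 2)) - hm κ (R ^ 2)
noncomputable def phiF1 (κ T R s : ℝ) : ℝ := 2 * T * hm1 κ (max 0 (2 * T * s + R ^ 2))
noncomputable def phiF2 (κ T R s : ℝ) : ℝ := (2 * T) ^ 2 * hm2 κ (max 0 (2 * T * s + R ^ 2))

theorem continuous_phiF (κ T R : ℝ) : Continuous (phiF κ T R) :=
  ((continuous_clamp (continuousOn_hm κ)).comp
    (by fun_prop : Continuous fun s : ℝ => 2 * T * s + R ^ 2)).sub continuous_const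
theorem continuous_phiF1 (κ T R : ℝ) : Continuous (phiF1 κ T R) :=
  continuous_const.mul ((continuous_clamp (continuousOn_hm1 κ)).comp
    (by fun_prop : Continuous fun s : ℝ => 2 * T * s + R ^ 2))
theorem continuous_phiF2 (κ T R : ℝ) : Continuous (phiF2 κ T R) :=
  continuous_const.mul ((continuous_clamp (continuousOn_hm2 κ)).comp
    (by fun_prop : Continuous fun s : ℝ => 2 * T * s + R ^ 2))

theorem arg_nonneg {T R s : ℝ} (hT : 0 < T) (hs : s ∈ Icc (-(R ^ 2 / (2 * T))) 0) :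
    0 ≤ 2 * T * s + R ^ 2 := by
  have h2 : 0 < 2 * T := by linarith
  have h3 := hs.1
  rw [← neg_div, div_le_iff₀ h2] at h3
  linarith

theorem arg_le {T R s : ℝ} (hT : 0 < T) (hs : s ∈ Icc (-(R ^ 2 / (2 * T))) 0) :
    2 * T * s + R ^ 2 ≤ R ^ 2 := by
  have := hs.2
  nlinarith

theorem hasDerivWithinAt_phiF {κ T R s : ℝ} (hT : 0 < T)
    (hs : s ∈ Icc (-(R ^ 2 / (2 * T))) 0) :
    HasDerivWithinAt (phiF κ T R) (phiF1 κ T R s) (Icc (-(R ^ 2 / (2 * T))) 0) s := by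
  have hlin : HasDerivWithinAt (fun s : ℝ => 2 * T * s + R ^ 2) (2 * T)
      (Icc (-(R ^ 2 / (2 * T))) 0) s := by
    have := ((hasDerivAt_id s).const_mul (2 * T)).add_const (R ^ 2)
    rw [mul_one] at this
    exact this.hasDerivWithinAt
  have h1 := (hasDerivWithinAt_hm (κ := κ) (arg_nonneg hT hs)).comp s hlin
    (fun x hx => arg_nonneg hT hx)
  have h2 : HasDerivWithinAt (fun s => hm κ (2 * T * s + R ^ 2) - hm κ (R ^ 2))
      (phiF1 κ T R s) (Icc (-(R ^ 2 / (2 * T))) 0) s := by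
    refine (h1.sub_const _).congr_deriv ?_
    unfold phiF1
    rw [max_eq_right (arg_nonneg hT hs)]; ring
  refine h2.congr (fun x hx => ?_) ?_
  · unfold phiF; rw [max_eq_right (arg_nonneg hT hx)]
  · unfold phiF; rw [max_eq_right (arg_nonneg hT hs)]

theorem hasDerivWithinAt_phiF1 {κ T R s : ℝ} (hT : 0 < T)
    (hs : s ∈ Icc (-(R ^ 2 / (2 * T))) 0) :
    HasDerivWithinAt (phiF1 κ T R) (phiF2 κ T R s) (Icc (-(R ^ 2 / (2 * T))) 0) s := by
  have hlin : HasDerivWithinAt (fun s : ℝ => 2 * T * s + R ^ 2) (2 * T)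
      (Icc (-(R ^ 2 / (2 * T))) 0) s := by
    have := ((hasDerivAt_id s).const_mul (2 * T)).add_const (R ^ 2)
    rw [mul_one] at this
    exact this.hasDerivWithinAt
  have h1 := (hasDerivWithinAt_hm1 (κ := κ) (arg_nonneg hT hs)).comp s hlin
    (fun x hx => arg_nonneg hT hx)
  have h2 : HasDerivWithinAt (fun s => 2 * T * hm1 κ (2 * T * s + R ^ 2))
      (phiF2 κ T R s) (Icc (-(R ^ 2 / (2 * T))) 0) s := by
    refine (h1.const_mul (2 * T)).congr_deriv ?_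
    unfold phiF2
    rw [max_eq_right (arg_nonneg hT hs)]; ring
  refine h2.congr (fun x hx => ?_) ?_
  · unfold phiF1; rw [max_eq_right (arg_nonneg hT hx)]
  · unfold phiF1; rw [max_eq_right (arg_nonneg hT hs)]

theorem phiF_zero (κ T R : ℝ) : phiF κ T R 0 = 0 := by
  unfold phiF; rw [mul_zero, zero_add, max_eq_right (sq_nonneg R), sub_self]

theorem phiF1_pos {κ T R s : ℝ} (hT : 0 < T) (hR : Adm κ R)
    (hs : s ∈ Icc (-(R ^ 2 / (2 * T))) 0) : 0 < phiF1 κ T R s := by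
  unfold phiF1
  refine mul_pos (by linarith) (hm1_pos (le_max_left _ _) fun hκ => ?_)
  have h1 : √(max 0 (2 * T * s + R ^ 2)) ≤ R := by
    rw [max_eq_right (arg_nonneg hT hs)]
    calc √(2 * T * s + R ^ 2) ≤ √(R ^ 2) := Real.sqrt_le_sqrt (arg_le hT hs)
      _ = R := Real.sqrt_sq hR.1.le
  exact (mul_le_mul_of_nonneg_left h1 (Real.sqrt_nonneg _)).trans_lt hR.2

theorem mdr_eq {κ : ℝ} {p : M} {s₀ C₀ t R : ℝ} (hR : 0 < R) (hT : 0 < t + s₀)
    (hC0 : C₀ = R ^ 2 / (2 * (t + s₀))) :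
    mdr κ p R = fun x => phiF κ (t + s₀) R (zr p s₀ C₀ t x) := by
  ext x
  unfold phiF mdr
  rw [zr_eq hR hT hC0 x, max_eq_right (sq_nonneg _), hm_sq (le_min dist_nonneg hR.le),
    hm_sq hR.le]

/-- `F = cl m (mdr κ p R)` is a bounded Lipschitz function in `W` with bounded support -/
theorem mdr_mem {K N : ℝ} (hS : Std m K N) {κ : ℝ} (p : M) {R : ℝ} (hR : 0 < R) :
    cl m (mdr κ p R) ∈ (sob m).A ∧
      MemLp ((sob m).Γ (cl m (mdr κ p R)) (cl m (mdr κ p R))) ∞ m ∧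
      MemLp (cl m (mdr κ p R)) 1 m ∧
      (∀ᵐ x ∂m, R ≤ dist p x → cl m (mdr κ p R) x = 0) := by
  have hC := std_gamma hS
  have hD := hC.toIsDir
  have hT : (0 : ℝ) < 1 + 0 := by norm_num
  set C₀ : ℝ := R ^ 2 / (2 * (1 + 0)) with hC0
  obtain ⟨h1, h2, h3, h4⟩ := cl_mem hS.hfin (zr_lip (p := p) hR hT hC0) (zr_supp hR hT hC0)
  have hab : ∀ᵐ x ∂m, -(R ^ 2 / (2 * (1 + 0))) ≤ cl m (zr p 0 C₀ 1) x ∧
      cl m (zr p 0 C₀ 1) x ≤ 0 := by
    filter_upwards [cl_ae (m := m) (continuous_zr p 0 C₀ 1)] with x hx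
    rw [hx]; exact zr_range hR hT hC0 x
  have ha : -(R ^ 2 / (2 * ((1 : ℝ) + 0))) ≤ 0 := by
    rw [neg_nonpos]; positivity
  obtain ⟨h5, h6⟩ := hD.hc_chain h1 ha le_rfl hab (continuous_phiF κ (1 + 0) R)
    (continuous_phiF1 κ (1 + 0) R) (fun s hs => hasDerivWithinAt_phiF hT hs) (phiF_zero _ _ _)
  have e : AEEqFun.comp _ (continuous_phiF κ (1 + 0) R) (cl m (zr p 0 C₀ 1))
      = cl m (mdr κ p R) := by
    rw [cl_comp (continuous_zr p 0 C₀ 1), ← mdr_eq hR hT hC0]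
  rw [e] at h5 h6
  have h7 : MemLp (cl m (mdr κ p R)) ∞ m := by
    rw [← e]; exact hc_comp_top hab _
  have hz : ∀ᵐ x ∂m, R ≤ dist p x → cl m (mdr κ p R) x = 0 := by
    filter_upwards [cl_ae (m := m) (continuous_mdr κ p R)] with x hx hd
    rw [hx]; exact mdr_supp x hd
  refine ⟨⟨h5, h7⟩, ?_, ?_, hz⟩
  · rw [h6 _ h5, hD.symm _ h1 _ h5, h6 _ h1]
    have h8 : MemLp (AEEqFun.comp _ (continuous_phiF1 κ (1 + 0) R) (cl m (zr p 0 C₀ 1))) ∞ m :=
      hc_comp_top hab _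
    exact mem_mul_top h8 (mem_mul_top h8 h4)
  · refine BSupp.mem1 hS.hfin h7 ⟨p, R, ?_⟩
    filter_upwards [hz] with x hx hd
    exact hx (by rw [dist_comm]; exact hd.le)

/-- **The one-sided Laplacian bound of `md_κ(d_p)`** -/
theorem exists_FLap {K N : ℝ} (hS : Std m K N) {κ : ℝ} {p : M} {R : ℝ} (hR : Adm κ R)
    {s₀ C₀ t c : ℝ} (hT : 0 < t + s₀) (hC0 : C₀ = R ^ 2 / (2 * (t + s₀)))
    (hL : ∀ w ∈ (sob m).A, MemLp w 1 m → 0 ≤ w →
      -I ((sob m).Γ (cl m (zr p s₀ C₀ t)) w) ≤ c * I w) :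
    ∃ G, (sob m).FLap (cl m (mdr κ p R)) G := by
  have hC := std_gamma hS
  have hB := std_bei hS
  have hD := hC.toIsDir
  haveI : SigmaFinite m := sigmaFinite_of_ball hS.hfin
  obtain ⟨hF, hFF, hF1, hF0⟩ := mdr_mem hS (κ := κ) p hR.1
  obtain ⟨h1, h2, h3, h4⟩ := cl_mem hS.hfin (zr_lip (p := p) hR.1 hT hC0) (zr_supp hR.1 hT hC0)
  have hab : ∀ᵐ x ∂m, -(R ^ 2 / (2 * (t + s₀))) ≤ cl m (zr p s₀ C₀ t) x ∧
      cl m (zr p s₀ C₀ t) x ≤ 0 := by
    filter_upwards [cl_ae (m := m) (continuous_zr p s₀ C₀ t)] with x hx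
    rw [hx]; exact zr_range hR.1 hT hC0 x
  have ha : -(R ^ 2 / (2 * (t + s₀))) ≤ 0 := by
    rw [neg_nonpos]; positivity
  obtain ⟨c', hc', h5⟩ := lap_chain hD h1 ha le_rfl hab (continuous_phiF κ (t + s₀) R)
    (continuous_phiF1 κ (t + s₀) R) (continuous_phiF2 κ (t + s₀) R)
    (fun s hs => hasDerivWithinAt_phiF hT hs) (fun s hs => hasDerivWithinAt_phiF1 hT hs)
    (phiF_zero _ _ _) (fun s hs => (phiF1_pos hT hR hs).le) h4 hL
  have e : AEEqFun.comp _ (continuous_phiF κ (t + s₀) R) (cl m (zr p s₀ C₀ t))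
      = cl m (mdr κ p R) := by
    rw [cl_comp (continuous_zr p s₀ C₀ t), ← mdr_eq hR.1 hT hC0]
  rw [e] at h5
  -- cut-off
  obtain ⟨Cc, hcut⟩ := exists_cutI hS.hfin hC hS.hN hS.rcd.bochner p
  obtain ⟨χ, g1, g2, g3, g4, ⟨R', g5⟩, g6, g7⟩ := hcut (max 1 R) (le_max_left _ _)
  have hχA : χ ∈ (sob m).A := hC.test_A g1.1
  have hχ1 : MemLp χ 1 m := BSupp.mem1 hS.hfin hχA.2 ⟨p, R', g5⟩
  set F := cl m (mdr κ p R) with hFdef
  have hχF : χ * F = F := by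
    rw [eq_iff_ae]
    filter_upwards [mul_ae χ F, g4, hF0] with x a1 a2 a3
    rw [a1]
    by_cases hx : R ≤ dist p x
    · rw [a3 hx, mul_zero]
    · rw [a2 (by rw [dist_comm]; exact (not_le.1 hx).le.trans (le_max_right _ _)), one_mul]
  obtain ⟨l1, l2, _⟩ := hC.Γ_loc hF hχA hχF
  refine ⟨c' • χ, flap_of hC hB hF.1 hF.2 hF1 hFF (smul_nonneg' hc' g2) (mem_smul _ hχ1)
    (mem_smul _ hχA.2) ?_⟩
  intro w hw hw0
  have e1 : (sob m).Γ F (χ * w) = (sob m).Γ F w := by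
    rw [hD.Γ_mul_right hχA hw hF.1, hD.symm F hF.1 χ hχA.1, l1, mul_zero, add_zero, l2 w hw.1]
  have e2 := h5 (χ * w) (hD.mul_mem_A hχA hw) (mem_top_mul hχ1 hw.2) (mul_nonneg g2 hw0)
  rw [e1, ← I_smul] at e2
  rwa [smul_mul_assoc]

end metric

end H866

end Vale.Agent.P233
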