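import Vale.Agent.P233.H866.Loc
import Vale.Agent.P233.H416.Curve

/-!
P233 (helper866): localisation in space of integrated inequalities in time, for the weights
`exp l`, `l` in `TestI`.
-/

set_option linter.all false

open MeasureTheory Filter Topology Set
open scoped ENNReal NNReal

universe u

namespace Vale.Agent.P233.H866

variable {M : Type u} [MeasurableSpace M] {m : Measure M} {C : Calc m} {K : ℝ}
  {P : ℝ → (M →ₘ[m] ℝ) → (M →ₘ[m] ℝ)}

/-- a measurable function that is bounded on a set of finite measure and `0` outside -/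
theorem memLp_of_bdd_on {B : Set M} (hB : MeasurableSet B) (hBf : m B < ∞) {D : M → ℝ}
    (hDm : AEStronglyMeasurable D m) {c : ℝ} (hc : ∀ᵐ x ∂m, |D x| ≤ c)
    (h0 : ∀ᵐ x ∂m, x ∉ B → D x = 0) (p : ℝ≥0∞) : MemLp D p m := by
  have h1 : MemLp (B.indicator fun _ => (c : ℝ)) p m :=
    memLp_indicator_const p hB c (Or.inr hBf.ne)
  refine h1.mono hDm ?_
  filter_upwards [hc, h0] with x a1 a2
  by_cases hx : x ∈ B
  · rw [indicator_of_mem hx, Real.norm_eq_abs, Real.norm_eq_abs]
    exact a1.trans (le_abs_self c)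
  · rw [indicator_of_notMem hx, a2 hx]

/-- integral of a weight against the defect -/
theorem int_dft [SigmaFinite m] {B : Set M} (hB : MeasurableSet B)
    (hBf : m B < ∞) {f g : ℝ → M → ℝ} (hfm : Measurable (Function.uncurry f))
    (hgm : Measurable (Function.uncurry g)) {c : ℝ} (hc0 : 0 ≤ c)
    (hf0 : ∀ t x, x ∉ B → f t x = 0) (hg : ∀ t x, |g t x| ≤ c) (hg0 : ∀ t x, x ∉ B → g t x = 0)
    {a b : ℝ} (hab : a ≤ b) (hfa : ∀ᵐ x ∂m, |f a x| ≤ c) (hfb : ∀ᵐ x ∂m, |f b x| ≤ c)
    {w : M → ℝ} (hwm : AEStronglyMeasurable w m) {c' : ℝ} (hw : ∀ᵐ x ∂m, |w x| ≤ c') :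
    ∫ x, w x * H416.dft f g a b x ∂m = (∫ x, w x * f b x ∂m) - (∫ x, w x * f a x ∂m)
      - ∫ r in Ioc a b, ∫ x, w x * g r x ∂m := by
  have hfbm : Measurable (f b) := hfm.comp (measurable_const.prodMk measurable_id)
  have hfam : Measurable (f a) := hfm.comp (measurable_const.prodMk measurable_id)
  have i1 : Integrable (fun x => w x * f b x) m := by
    rw [← memLp_one_iff_integrable]
    refine memLp_of_bdd_on hB hBf (D := fun x => w x * f b x)
      (hwm.mul hfbm.aestronglyMeasurable) (c := |c'| * c) ?_ ?_ 1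
    · filter_upwards [hw, hfb] with x a1 a2
      rw [abs_mul]
      exact mul_le_mul (a1.trans (le_abs_self _)) a2 (abs_nonneg _) (abs_nonneg _)
    · exact Eventually.of_forall fun x hx => by rw [hf0 _ _ hx, mul_zero]
  have i2 : Integrable (fun x => w x * f a x) m := by
    rw [← memLp_one_iff_integrable]
    refine memLp_of_bdd_on hB hBf (D := fun x => w x * f a x)
      (hwm.mul hfam.aestronglyMeasurable) (c := |c'| * c) ?_ ?_ 1
    · filter_upwards [hw, hfa] with x a1 a2
      rw [abs_mul]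
      exact mul_le_mul (a1.trans (le_abs_self _)) a2 (abs_nonneg _) (abs_nonneg _)
    · exact Eventually.of_forall fun x hx => by rw [hf0 _ _ hx, mul_zero]
  set ν : Measure ℝ := volume.restrict (Ioc a b) with hν
  have i3 : Integrable (Function.uncurry fun (x : M) (r : ℝ) => w x * g r x) (m.prod ν) := by
    rw [← memLp_one_iff_integrable]
    have hBB : MeasurableSet (B ×ˢ (univ : Set ℝ)) := hB.prod MeasurableSet.univ
    have hBBf : (m.prod ν) (B ×ˢ (univ : Set ℝ)) < ∞ := by
      rw [Measure.prod_prod]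
      refine ENNReal.mul_lt_top hBf ?_
      rw [hν, Measure.restrict_apply_univ, Real.volume_Ioc]
      exact ENNReal.ofReal_lt_top
    have hgm' : Measurable fun z : M × ℝ => g z.2 z.1 :=
      hgm.comp (measurable_snd.prodMk measurable_fst)
    refine memLp_of_bdd_on hBB hBBf ?_ (c := |c'| * c) ?_ ?_ 1
    · exact (hwm.comp_quasiMeasurePreserving Measure.quasiMeasurePreserving_fst).mul
        hgm'.aestronglyMeasurable
    · filter_upwards [(Measure.quasiMeasurePreserving_fst (μ := m) (ν := ν)).ae hw] with z hz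
      simp only [Function.uncurry]
      rw [abs_mul]
      exact mul_le_mul (hz.trans (le_abs_self _)) (hg _ _) (abs_nonneg _) (abs_nonneg _)
    · refine Eventually.of_forall fun z hz => ?_
      simp only [Function.uncurry]
      rw [hg0 _ _ (fun h => hz ⟨h, mem_univ _⟩), mul_zero]
  have i4 : Integrable (fun x => ∫ r, w x * g r x ∂ν) m := i3.integral_prod_left
  have e1 : ∀ x, w x * H416.dft f g a b x = w x * f b x - w x * f a x - ∫ r, w x * g r x ∂ν := by
    intro x
    unfold H416.dft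
    rw [integral_const_mul, ← hν]; ring
  simp only [e1]
  have h1 := integral_sub (i1.sub i2) i4
  have h2 := integral_sub i1 i2
  simp only [Pi.sub_apply] at h1
  rw [h1, h2, integral_integral_swap i3]

/-- **Localisation** of an integrated inequality with the weights `exp l`. -/
theorem localise_exp [SigmaFinite m] [MeasurableSpace.CountablyGenerated M] (hC : IsGamma C)
    {κ : ℝ} (hBe : C.BEi κ) (hP : Heat C K P) {B : Set M} (hB : MeasurableSet B)
    (hBf : m B < ∞) {f g : ℝ → M → ℝ} (hfm : Measurable (Function.uncurry f))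
    (hgm : Measurable (Function.uncurry g)) {c : ℝ} (hc0 : 0 ≤ c)
    (hf : ∀ t ∈ Ioo (0 : ℝ) 1, ∀ᵐ x ∂m, |f t x| ≤ c) (hf0 : ∀ t x, x ∉ B → f t x = 0)
    (hg : ∀ t x, |g t x| ≤ c) (hg0 : ∀ t x, x ∉ B → g t x = 0)
    (h : ∀ l ∈ C.TestI, ∀ a ∈ Ioo (0 : ℝ) 1, ∀ b ∈ Ioo a 1,
      (∫ x, Real.exp (l x) * f b x ∂m) - (∫ x, Real.exp (l x) * f a x ∂m)
        ≤ ∫ r in a..b, ∫ x, Real.exp (l x) * g r x ∂m) :
    ∀ᵐ x ∂m, ∀ᵐ s ∂(volume.restrict (Ioo (0 : ℝ) 1)), ∀ᵐ t ∂(volume.restrict (Ioo (0 : ℝ) 1)),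
      s < t → f t x - f s x ≤ ∫ r in Ioc s t, g r x := by
  have hdm : ∀ a b, Measurable (H416.dft f g a b) := fun a b =>
    (H416.measurable_dft hfm hgm).comp
      (measurable_const.prodMk (measurable_const.prodMk measurable_id))
  have hd0 : ∀ a b x, x ∉ B → H416.dft f g a b x = 0 := by
    intro a b x hx
    unfold H416.dft
    rw [hf0 _ _ hx, hf0 _ _ hx]
    simp only [hg0 _ _ hx, integral_zero, sub_zero]
  have hdb : ∀ a ∈ Ioo (0 : ℝ) 1, ∀ b ∈ Ioo a 1, ∀ᵐ x ∂m, |H416.dft f g a b x| ≤ 3 * c := by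
    intro a ha b hb
    filter_upwards [hf a ha, hf b ⟨ha.1.trans hb.1, hb.2⟩] with x a1 a2
    have h1 : ‖∫ r in Ioc a b, g r x‖ ≤ c * (volume (Ioc a b)).toReal := by
      refine norm_setIntegral_le_of_norm_le_const ?_ fun r _ => hg r x
      rw [Real.volume_Ioc]; exact ENNReal.ofReal_lt_top
    rw [Real.volume_Ioc, ENNReal.toReal_ofReal (by linarith [hb.1])] at h1
    have h2 : c * (b - a) ≤ c := by
      nlinarith [hb.1, hb.2, ha.1]
    have h3 := (abs_le.1 (show |∫ r in Ioc a b, g r x| ≤ c from h1.trans h2))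
    unfold H416.dft
    rw [abs_le] at a1 a2 ⊢
    constructor <;> linarith [a1.1, a1.2, a2.1, a2.2, h3.1, h3.2]
  have hDp : ∀ a ∈ Ioo (0 : ℝ) 1, ∀ b ∈ Ioo a 1, ∀ p, MemLp (H416.dft f g a b) p m :=
    fun a ha b hb p => memLp_of_bdd_on hB hBf (hdm a b).aestronglyMeasurable (hdb a ha b hb)
      (Eventually.of_forall fun x hx => hd0 a b x hx) p
  -- pointwise inequality for fixed times
  have hD : ∀ a ∈ Ioo (0 : ℝ) 1, ∀ b ∈ Ioo a 1, ∀ᵐ x ∂m, H416.dft f g a b x ≤ 0 := by
    intro a ha b hb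
    refine loc2_fun hC hBe hP (hDp a ha b hb 1) (hDp a ha b hb 2) fun l hl => ?_
    obtain ⟨L, hL⟩ := mem_top_iff.1 (hC.test_A hl.1).2
    have hw : ∀ᵐ x ∂m, |Real.exp (l x)| ≤ Real.exp L := by
      filter_upwards [hL] with x hx
      rw [abs_of_pos (Real.exp_pos _)]
      exact Real.exp_le_exp.2 ((le_abs_self _).trans hx)
    have hwm : AEStronglyMeasurable (fun x => Real.exp (l x)) m :=
      Real.continuous_exp.comp_aestronglyMeasurable l.aestronglyMeasurable
    rw [int_dft hB hBf hfm hgm hc0 hf0 hg hg0 hb.1.le (hf a ha) (hf b ⟨ha.1.trans hb.1, hb.2⟩)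
      hwm hw]
    have h1 := h l hl a ha b hb
    rw [intervalIntegral.integral_of_le hb.1.le] at h1
    linarith
  obtain ⟨𝒜, h𝒜c, h𝒜⟩ := (exists_countable_measureDense (μ := m))
  refine H416.localise_le h𝒜c h𝒜 hfm hgm ?_ ?_ ?_
  · filter_upwards [ae_restrict_mem measurableSet_Ioo] with t ht
    rw [← memLp_one_iff_integrable]
    exact memLp_of_bdd_on hB hBf
      (hfm.comp (measurable_const.prodMk measurable_id) : Measurable (f t)).aestronglyMeasurable
      (hf t ht) (Eventually.of_forall fun x hx => hf0 t x hx) 1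
  · rw [← memLp_one_iff_integrable]
    have hBB : MeasurableSet ((univ : Set ℝ) ×ˢ B) := MeasurableSet.univ.prod hB
    have hBBf : ((volume.restrict (Ioo (0 : ℝ) 1)).prod m) ((univ : Set ℝ) ×ˢ B) < ∞ := by
      rw [Measure.prod_prod]
      refine ENNReal.mul_lt_top ?_ hBf
      rw [Measure.restrict_apply_univ, Real.volume_Ioo]
      exact ENNReal.ofReal_lt_top
    exact memLp_of_bdd_on hBB hBBf hgm.aestronglyMeasurable (c := c)
      (Eventually.of_forall fun z => hg z.1 z.2)
      (Eventually.of_forall fun z hz => hg0 z.1 z.2 fun hx => hz ⟨mem_univ _, hx⟩) 1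
  · intro A hA
    have hAm := h𝒜.measurable _ hA
    filter_upwards [ae_restrict_mem measurableSet_Ioo] with a ha
    filter_upwards [ae_restrict_mem measurableSet_Ioo] with b hb hab
    have hb' : b ∈ Ioo a 1 := ⟨hab, hb.2⟩
    have hw : ∀ᵐ x ∂m, |A.indicator (fun _ => (1 : ℝ)) x| ≤ 1 := by
      refine Eventually.of_forall fun x => ?_
      by_cases hx : x ∈ A
      · rw [indicator_of_mem hx, abs_one]
      · rw [indicator_of_notMem hx, abs_zero]; exact zero_le_one
    have hwm : AEStronglyMeasurable (A.indicator fun _ => (1 : ℝ)) m :=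
      (measurable_const.indicator hAm).aestronglyMeasurable
    have e := int_dft hB hBf hfm hgm hc0 hf0 hg hg0 hab.le (hf a ha) (hf b hb) hwm hw
    have e2 : ∀ F : M → ℝ, ∫ x, A.indicator (fun _ => (1 : ℝ)) x * F x ∂m = ∫ x in A, F x ∂m := by
      intro F
      rw [← integral_indicator hAm]
      refine integral_congr_ae (Eventually.of_forall fun x => ?_)
      by_cases hx : x ∈ A
      · simp only [indicator_of_mem hx, one_mul]
      · simp only [indicator_of_notMem hx, zero_mul]
    simp only [e2] at e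
    have h1 : ∫ x in A, H416.dft f g a b x ∂m ≤ 0 := by
      refine integral_nonpos_of_ae (ae_restrict_of_ae ?_)
      filter_upwards [hD a ha b hb'] with x hx
      exact hx
    linarith

end Vale.Agent.P233.H866
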