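import Vale.Agent.P233.H866.IntConc
import Vale.Agent.P233.H866.LocT
import Vale.Agent.P233.H866.FLapDist
import Vale.Agent.P233.H183.Unit

/-! P233, part F2, step S4 (helper866): from the integrated inequality of level `ε → 0` with all
weights `exp l` to almost every curve of the flow. -/

set_option linter.all false

open MeasureTheory Filter Topology Set
open scoped ENNReal NNReal

universe u

namespace Vale.Agent.P233.PF

open Vale.Agent.P233.PC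

variable {M : Type u} [MetricSpace M] [MeasurableSpace M] [BorelSpace M]
  [SecondCountableTopology M] {m : Measure M} {K N : ℝ} {q : M} {s₀ C₀ : ℝ} {Y : ℝ → M → M}

/-- statements a.e. pull back along the flow -/
theorem flow_qmp (hY : RFlow m K N q s₀ C₀ Y) {t : ℝ} (ht : t ∈ Ioc (0 : ℝ) 1) :
    Measure.QuasiMeasurePreserving (Y t) m m := by
  have hm : Measurable (Y t) := hY.meas.comp (measurable_const.prodMk measurable_id)
  refine ⟨hm, Measure.AbsolutelyContinuous.mk fun A hA h0 => ?_⟩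
  rw [Measure.map_apply hm hA]
  have := hY.dens t ht A hA
  rw [h0, mul_zero] at this
  exact nonpos_iff_eq_zero.1 this

theorem flow_ae (hY : RFlow m K N q s₀ C₀ Y) {t : ℝ} (ht : t ∈ Ioc (0 : ℝ) 1) {Pr : M → Prop}
    (h : ∀ᵐ y ∂m, Pr y) : ∀ᵐ x ∂m, Pr (Y t x) := (flow_qmp hY ht).ae h

/-- the radius of the moving ball at time `t` -/
theorem sqrt_le_r1 (hC0 : 0 < C₀) {t : ℝ} (ht : t ≤ 1) : √(2 * C₀ * (t + s₀)) ≤ r1 s₀ C₀ := by
  unfold r1
  refine Real.sqrt_le_sqrt ?_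
  nlinarith

/-- the gradient of `zc` in terms of the gradient of the distance -/
theorem Γ_zc (hS : Std m K N) (hs : 0 < s₀) (hC0 : 0 < C₀) {t : ℝ} (ht : t ∈ Ioc (0 : ℝ) 1)
    {h : M →ₘ[m] ℝ} (hh : h ∈ (sob m).W) : ∀ᵐ y ∂m,
      (dist q y < √(2 * C₀ * (t + s₀)) → (sob m).Γ (zc m q s₀ C₀ t) h y
        = dist q y / (t + s₀) * (sob m).Γ (dc m q s₀ C₀) h y) ∧
      (√(2 * C₀ * (t + s₀)) ≤ dist q y → (sob m).Γ (zc m q s₀ C₀ t) h y = 0) := by
  have hD := (H866.std_gamma hS).toIsDir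
  have hT : 0 < t + s₀ := by linarith [ht.1]
  set ρ := √(2 * C₀ * (t + s₀)) with hρ
  have hρ0 : 0 ≤ ρ := Real.sqrt_nonneg _
  have hρ2 : ρ ^ 2 = 2 * C₀ * (t + s₀) := Real.sq_sqrt (by positivity)
  filter_upwards [H183.Γ_zr (m := m) hD hS.hfin (p := q) hT hρ0 hρ2 hh,
    H183.Γ_dtr_radius hD hS.hfin q ρ (r1 s₀ C₀) hh, H183.Γ_dtr_zero hD hS.hfin q ρ hh]
    with y h1 h2 h3
  refine ⟨fun hy => ?_, fun hy => ?_⟩
  · unfold zc dc
    rw [h1, min_eq_left hy.le, h2 hy (hy.trans_le (sqrt_le_r1 hC0 ht.2))]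
  · unfold zc
    rw [h1, h3 hy, mul_zero]

theorem dist_lt_sqrt (hs : 0 < s₀) (hC0 : 0 < C₀) {t d : ℝ} (ht : t ∈ Ioc (0 : ℝ) 1)
    (hd0 : 0 ≤ d) (hd : d < r1 s₀ C₀) :
    (t + s₀) * (d / (1 + s₀)) < √(2 * C₀ * (t + s₀)) := by
  have hT : 0 < t + s₀ := by linarith [ht.1]
  have h1 : 0 < 1 + s₀ := by linarith
  have h2 : d ^ 2 < 2 * C₀ * (1 + s₀) := by
    have := Real.lt_sqrt hd0 |>.1 hd
    exact this
  refine Real.lt_sqrt (by positivity) |>.2 ?_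
  have e : ((t + s₀) * (d / (1 + s₀))) ^ 2 = (t + s₀) ^ 2 / (1 + s₀) ^ 2 * d ^ 2 := by
    field_simp
  rw [e]
  calc (t + s₀) ^ 2 / (1 + s₀) ^ 2 * d ^ 2
      < (t + s₀) ^ 2 / (1 + s₀) ^ 2 * (2 * C₀ * (1 + s₀)) :=
        mul_lt_mul_of_pos_left h2 (by positivity)
    _ = 2 * C₀ * (t + s₀) * ((t + s₀) / (1 + s₀)) := by field_simp
    _ ≤ 2 * C₀ * (t + s₀) * 1 := by
        refine mul_le_mul_of_nonneg_left ?_ (by positivity)
        rw [div_le_one h1]; linarith [ht.2]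
    _ = 2 * C₀ * (t + s₀) := mul_one _

/-- the gradient of `zc` along the flow -/
theorem Γ_zc_flow (hS : Std m K N) (hs : 0 < s₀) (hC0 : 0 < C₀) (hY : RFlow m K N q s₀ C₀ Y)
    {t : ℝ} (ht : t ∈ Ioc (0 : ℝ) 1) {h : M →ₘ[m] ℝ} (hh : h ∈ (sob m).W) : ∀ᵐ x ∂m,
      (dist q x < r1 s₀ C₀ → (sob m).Γ (zc m q s₀ C₀ t) h (Y t x)
        = spd1 q s₀ x * (sob m).Γ (dc m q s₀ C₀) h (Y t x)) ∧
      (r1 s₀ C₀ ≤ dist q x → (sob m).Γ (zc m q s₀ C₀ t) h (Y t x) = 0) := by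
  filter_upwards [flow_ae hY ht (Γ_zc hS hs hC0 ht hh), hY.rad] with x h1 h2
  have hT : 0 < t + s₀ := by linarith [ht.1]
  refine ⟨fun hx => ?_, fun hx => ?_⟩
  · have h3 := h2 hx t ⟨ht.1.le, ht.2⟩
    have h4 : dist q (Y t x) < √(2 * C₀ * (t + s₀)) := by
      rw [h3]; exact dist_lt_sqrt hs hC0 ht dist_nonneg hx
    rw [h1.1 h4, h3, mul_div_cancel_left₀ _ hT.ne']
  · refine h1.2 ?_
    rw [hY.off x hx t]
    exact (sqrt_le_r1 hC0 ht.2).trans hx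

/-- the square of the gradient of `zc` along the flow -/
theorem Γ_zc_zc_flow (hS : Std m K N) (hs : 0 < s₀) (hC0 : 0 < C₀)
    (hY : RFlow m K N q s₀ C₀ Y)
    (hunit : ∀ᵐ x ∂m, dist q x < r1 s₀ C₀ → (sob m).Γ (dc m q s₀ C₀) (dc m q s₀ C₀) x = 1)
    {t : ℝ} (ht : t ∈ Ioc (0 : ℝ) 1) : ∀ᵐ x ∂m,
      (dist q x < r1 s₀ C₀ →
        (sob m).Γ (zc m q s₀ C₀ t) (zc m q s₀ C₀ t) (Y t x) = spd1 q s₀ x ^ 2) ∧
      (r1 s₀ C₀ ≤ dist q x → (sob m).Γ (zc m q s₀ C₀ t) (zc m q s₀ C₀ t) (Y t x) = 0) := by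
  have hD := (H866.std_gamma hS).toIsDir
  have hT : 0 < t + s₀ := by linarith [ht.1]
  have hz : zc m q s₀ C₀ t ∈ (sob m).W :=
    (H183.zr_mem_A (m := m) hD hS.hfin (p := q) hT (Real.sqrt_nonneg _)
      (Real.sq_sqrt (by positivity : (0 : ℝ) ≤ 2 * C₀ * (t + s₀)))).1
  have hd : dc m q s₀ C₀ ∈ (sob m).W := H183.dtr_mem hS.hfin q (r1 s₀ C₀)
  filter_upwards [Γ_zc_flow hS hs hC0 hY ht hz, Γ_zc_flow hS hs hC0 hY ht hd,
    flow_ae hY ht hunit, hY.rad] with x h1 h2 h3 h4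
  refine ⟨fun hx => ?_, fun hx => h1.2 hx⟩
  have h5 : dist q (Y t x) < r1 s₀ C₀ := by
    rw [h4 hx t ⟨ht.1.le, ht.2⟩]
    exact (dist_lt_sqrt hs hC0 ht dist_nonneg hx).trans_le (sqrt_le_r1 hC0 ht.2)
  rw [h1.1 hx, hD.symm _ hd _ hz, h2.1 hx, h3 h5]
  ring

theorem Lam_measurable (κ : ℝ) (p : M) (R Λ₀ : ℝ) : Measurable (Lam κ p R Λ₀) := by
  unfold Lam
  have h1 : MeasurableSet {y : M | dist p y < R} :=
    (isOpen_lt (by fun_prop) continuous_const).measurableSet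
  classical
  exact Measurable.ite h1 ((continuous_cs κ).comp (by fun_prop)).measurable measurable_const

theorem Lam_bdd (κ : ℝ) (p : M) (R Λ₀ : ℝ) : ∃ c : ℝ, 0 ≤ c ∧ ∀ y, |Lam κ p R Λ₀ y| ≤ c := by
  obtain ⟨B, hB⟩ := (isCompact_Icc (a := (0 : ℝ)) (b := R)).exists_bound_of_continuousOn
    (continuous_cs κ).continuousOn
  refine ⟨|B| + |Λ₀|, by positivity, fun y => ?_⟩
  unfold Lam
  split_ifs with h
  · have := hB (dist p y) ⟨dist_nonneg, h.le⟩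
    rw [Real.norm_eq_abs] at this
    linarith [le_abs_self B, abs_nonneg Λ₀]
  · linarith [abs_nonneg B]

theorem cl_ae_meas {f : M → ℝ} (hf : Measurable f) : ⇑(cl m f) =ᵐ[m] f :=
  H183.cl_ae hf.aestronglyMeasurable

theorem mdr_lip (κ : ℝ) (p : M) {R : ℝ} (hR : 0 < R) :
    ∃ L : ℝ≥0, LipschitzWith L (mdr κ p R) := by
  obtain ⟨B, hB⟩ := (isCompact_Icc (a := (0 : ℝ)) (b := R)).exists_bound_of_continuousOn
    (continuous_sn κ).continuousOn
  refine ⟨|B|.toNNReal, LipschitzWith.of_dist_le_mul fun x y => ?_⟩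
  rw [Real.coe_toNNReal _ (abs_nonneg B), Real.dist_eq]
  have hx : min (dist p x) R ∈ Icc 0 R := ⟨le_min dist_nonneg hR.le, min_le_right _ _⟩
  have hy : min (dist p y) R ∈ Icc 0 R := ⟨le_min dist_nonneg hR.le, min_le_right _ _⟩
  have h1 := Convex.norm_image_sub_le_of_norm_hasDerivWithin_le (f := md κ) (f' := sn κ)
    (s := Icc 0 R) (C := |B|) (fun z _ => (hasDerivAt_md κ z).hasDerivWithinAt)
    (fun z hz => (hB z hz).trans (le_abs_self B)) (convex_Icc _ _) hy hx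
  rw [Real.norm_eq_abs, Real.norm_eq_abs] at h1
  have h2 : |min (dist p x) R - min (dist p y) R| ≤ dist x y := by
    have h5 := abs_min_sub_min_le_max (dist p x) R (dist p y) R
    rw [sub_self, abs_zero, max_eq_left (abs_nonneg _)] at h5
    refine h5.trans ?_
    rw [dist_comm p x, dist_comm p y]
    exact abs_dist_sub_le x y p
  unfold mdr
  rw [sub_sub_sub_cancel_right]
  exact h1.trans (mul_le_mul_of_nonneg_left h2 (abs_nonneg B))

/-- **S4** -/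
theorem concAt_of_intConc {P : ℝ → (M →ₘ[m] ℝ) → (M →ₘ[m] ℝ)} (hS : Std m K N)
    (hP : Heat (sob m) K P) (hs : 0 < s₀) (hC0 : 0 < C₀) (hY : RFlow m K N q s₀ C₀ Y)
    (hunit : ∀ᵐ x ∂m, dist q x < r1 s₀ C₀ → (sob m).Γ (dc m q s₀ C₀) (dc m q s₀ C₀) x = 1)
    {κ : ℝ} {p : M} {R Λ₀ : ℝ} (hR : Adm κ R)
    (hI : IntConc m (cl m (mdr κ p R)) (cl m (Lam κ p R Λ₀)) q s₀ C₀ Y) :
    ∀ᵐ x ∂m, dist q x < r1 s₀ C₀ → ConcAt κ p R Λ₀ q s₀ Y x := by
  have hC := H866.std_gamma hS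
  have hBe := H866.std_bei hS
  have hD := hC.toIsDir
  haveI : SigmaFinite m := sigmaFinite_of_ball hS.hfin
  obtain ⟨hFA, hFF, hF1, hF0⟩ := H866.mdr_mem hS (κ := κ) p hR.1
  set F := cl m (mdr κ p R) with hFdef
  have hd : dc m q s₀ C₀ ∈ (sob m).A := H183.dtr_mem_A hS.hfin q (r1 s₀ C₀)
  have hdΓ : MemLp ((sob m).Γ (dc m q s₀ C₀) (dc m q s₀ C₀)) ∞ m := by
    rw [mem_top_iff]
    refine ⟨1, ?_⟩
    filter_upwards [H183.Γ_cl_le hS.hfin (H183.dtr_lip q (r1 s₀ C₀)) (x₀ := q)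
      (R := r1 s₀ C₀) (fun x hx => H183.dtr_zero hx), hD.Γ_nonneg_ae hd.1] with x a1 a2
    have a1' : (sob m).Γ (cl m (dtr q (r1 s₀ C₀))) (cl m (dtr q (r1 s₀ C₀))) x ≤ 1 := by
      simpa using a1
    rw [abs_of_nonneg a2]; exact a1'
  obtain ⟨cF, hcF⟩ := mem_top_iff.1 (hD.Γ_memTop hd.1 hdΓ hFA.1 hFF)
  obtain ⟨cL, hcL0, hcL⟩ := Lam_bdd κ p R Λ₀
  set r := r1 s₀ C₀ with hr
  have hr0 : 0 ≤ r := Real.sqrt_nonneg _
  set GF : M → ℝ := ⇑((sob m).Γ (dc m q s₀ C₀) F) with hGF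
  have hGFm : Measurable GF := (AEEqFun.stronglyMeasurable _).measurable
  set B : Set M := {x | dist q x < r} with hB
  have hBm : MeasurableSet B := (isOpen_lt (by fun_prop) continuous_const).measurableSet
  have hBf : m B < ∞ := by
    refine lt_of_le_of_lt (measure_mono fun x hx => ?_) (hS.hfin q r)
    rw [Metric.mem_ball, dist_comm]; exact hx
  have hspm : Measurable (spd1 q s₀) := by unfold spd1; fun_prop
  have hsp0 : ∀ x, 0 ≤ spd1 q s₀ x := fun x => div_nonneg dist_nonneg (by linarith)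
  have hspr : ∀ x ∈ B, spd1 q s₀ x ≤ r := fun x hx => by
    unfold spd1
    rw [div_le_iff₀ (by linarith)]
    have : dist q x < r := hx
    nlinarith
  classical
  set f : ℝ → M → ℝ := fun t x => if x ∈ B then spd1 q s₀ x * GF (Y t x) else 0 with hf
  set g : ℝ → M → ℝ := fun t x => if x ∈ B then Lam κ p R Λ₀ (Y t x) * spd1 q s₀ x ^ 2 else 0
    with hg
  have hBm2 : MeasurableSet {z : ℝ × M | z.2 ∈ B} := measurable_snd hBm
  have hfm : Measurable (Function.uncurry f) :=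
    Measurable.ite hBm2 ((hspm.comp measurable_snd).mul (hGFm.comp hY.meas)) measurable_const
  have hgm : Measurable (Function.uncurry g) :=
    Measurable.ite hBm2 (((Lam_measurable κ p R Λ₀).comp hY.meas).mul
      ((hspm.comp measurable_snd).pow_const 2)) measurable_const
  set c : ℝ := r * |cF| + cL * r ^ 2 with hc
  have hc0 : 0 ≤ c := by positivity
  have hf0 : ∀ t x, x ∉ B → f t x = 0 := fun t x hx => if_neg hx
  have hg0 : ∀ t x, x ∉ B → g t x = 0 := fun t x hx => if_neg hx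
  have hfb : ∀ t ∈ Ioo (0 : ℝ) 1, ∀ᵐ x ∂m, |f t x| ≤ c := by
    intro t ht
    filter_upwards [flow_ae hY ⟨ht.1, ht.2.le⟩ hcF] with x hx
    by_cases hxB : x ∈ B
    · simp only [hf, if_pos hxB]
      rw [abs_mul, abs_of_nonneg (hsp0 x)]
      have h1 : spd1 q s₀ x * |GF (Y t x)| ≤ r * |cF| :=
        mul_le_mul (hspr x hxB) (hx.trans (le_abs_self _)) (abs_nonneg _) hr0
      have : 0 ≤ cL * r ^ 2 := by positivity
      linarith
    · rw [hf0 t x hxB, abs_zero]; exact hc0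
  have hgb : ∀ t x, |g t x| ≤ c := by
    intro t x
    by_cases hxB : x ∈ B
    · simp only [hg, if_pos hxB]
      rw [abs_mul, abs_of_nonneg (sq_nonneg (spd1 q s₀ x))]
      have h1 : |Lam κ p R Λ₀ (Y t x)| * spd1 q s₀ x ^ 2 ≤ cL * r ^ 2 :=
        mul_le_mul (hcL _) (pow_le_pow_left₀ (hsp0 x) (hspr x hxB) 2) (sq_nonneg _) hcL0
      have : 0 ≤ r * |cF| := by positivity
      linarith
    · rw [hg0 t x hxB, abs_zero]; exact hc0
  -- the integrals of `IntConc`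
  have ef : ∀ l : M →ₘ[m] ℝ, ∀ t ∈ Ioc (0 : ℝ) 1,
      ∫ x, Real.exp (l x) * (sob m).Γ F (zc m q s₀ C₀ t) (Y t x) ∂m
        = ∫ x, Real.exp (l x) * f t x ∂m := by
    intro l t ht
    have hT : 0 < t + s₀ := by linarith [ht.1]
    have hz : zc m q s₀ C₀ t ∈ (sob m).W :=
      (H183.zr_mem_A (m := m) hD hS.hfin (p := q) hT (Real.sqrt_nonneg _)
        (Real.sq_sqrt (by positivity : (0 : ℝ) ≤ 2 * C₀ * (t + s₀)))).1
    refine integral_congr_ae ?_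
    filter_upwards [Γ_zc_flow hS hs hC0 hY ht hFA.1] with x h1
    rw [hD.symm F hFA.1 _ hz]
    by_cases hxB : x ∈ B
    · simp only [hf, if_pos hxB]
      rw [h1.1 hxB]
    · rw [hf0 t x hxB, h1.2 (not_lt.1 hxB)]
  have eg : ∀ l : M →ₘ[m] ℝ, ∀ t ∈ Ioc (0 : ℝ) 1,
      ∫ x, Real.exp (l x) * (cl m (Lam κ p R Λ₀) (Y t x) *
          (sob m).Γ (zc m q s₀ C₀ t) (zc m q s₀ C₀ t) (Y t x)) ∂m
        = ∫ x, Real.exp (l x) * g t x ∂m := by
    intro l t ht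
    refine integral_congr_ae ?_
    filter_upwards [Γ_zc_zc_flow hS hs hC0 hY hunit ht,
      flow_ae hY ht (cl_ae_meas (Lam_measurable κ p R Λ₀))] with x h1 h2
    by_cases hxB : x ∈ B
    · simp only [hg, if_pos hxB]
      rw [h1.1 hxB, h2]
    · rw [hg0 t x hxB, h1.2 (not_lt.1 hxB), mul_zero]
  have hloc := H866.localise_exp hC hBe hP hBm hBf hfm hgm hc0 hfb hf0 hgb hg0 (by
    intro l hl a ha b hb
    have h1 := hI l hl a ha b hb
    have hb' : b ∈ Ioc (0 : ℝ) 1 := ⟨ha.1.trans hb.1, hb.2.le⟩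
    rw [ef l b hb', ef l a ⟨ha.1, ha.2.le⟩] at h1
    have h2 : ∫ r in a..b, ∫ x, Real.exp (l x) * (cl m (Lam κ p R Λ₀) (Y r x) *
          (sob m).Γ (zc m q s₀ C₀ r) (zc m q s₀ C₀ r) (Y r x)) ∂m
        = ∫ r in a..b, ∫ x, Real.exp (l x) * g r x ∂m := by
      refine intervalIntegral.integral_congr fun t ht => ?_
      rw [uIcc_of_le hb.1.le] at ht
      exact eg l t ⟨ha.1.trans_le ht.1, ht.2.trans hb.2.le⟩
    rwa [h2] at h1)
  -- first derivatives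
  obtain ⟨L, hL⟩ := mdr_lip κ p hR.1
  have hder := hY.derLip (mdr κ p R) ⟨L, hL⟩ hFA.1
  filter_upwards [hloc, hder] with x h1 h2 hx
  have hxB : x ∈ B := hx
  have hsym : (sob m).Γ F (dc m q s₀ C₀) = (sob m).Γ (dc m q s₀ C₀) F :=
    hD.symm F hFA.1 _ hd.1
  refine ⟨fun t => spd1 q s₀ x * GF (Y t x), fun a ha ha1 => ?_, fun t ht => ?_, ?_⟩
  · obtain ⟨h3, h4⟩ := h2 hx a ⟨ha.le, ha1⟩ 1 ⟨ha1, le_rfl⟩
    rw [← hFdef, hsym] at h3
    exact h3.const_mul _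
  · obtain ⟨h3, h4⟩ := h2 hx t ⟨ht.1.le, ht.2⟩ 1 ⟨ht.2, le_rfl⟩
    rw [← hFdef, hsym, hY.one] at h4
    rw [intervalIntegral.integral_const_mul]
    linarith
  · rw [ae_restrict_iff' measurableSet_Ioo] at h1
    filter_upwards [h1] with a ha
    by_cases ha1 : a ∈ Ioo (0 : ℝ) 1
    swap
    · refine Eventually.of_forall fun b h0 hab hb => ?_
      exact absurd ⟨h0, hab.trans hb⟩ ha1
    have ha2 := ha ha1
    rw [ae_restrict_iff' measurableSet_Ioo] at ha2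
    filter_upwards [ha2] with b hb h0 hab hb1
    have h5 := hb ⟨h0.trans hab, hb1⟩ hab
    simp only [hf, hg, if_pos hxB] at h5
    rw [intervalIntegral.integral_of_le hab.le]
    exact h5

end Vale.Agent.P233.PF
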