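import Vale.Agent.P242.H124.Global
import Mathlib.MeasureTheory.Covering.Vitali

/-! P233, stage 3, block VOL3b: properness, geodesics, volume growth and the density function of a
`CD(K,n)` space with its Hausdorff measure. helper866. -/

set_option linter.unusedSectionVars false

open MeasureTheory Set Metric Filter Topology
open scoped ENNReal NNReal

universe u

namespace Vale.Agent.P233.H866.CDVol

open Vale.Agent.P242 Vale.Agent.P242.H124

section metric

variable {M : Type u} [MetricSpace M]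

/-- approximate points of geodesics -/
theorem approx_geo (h : Mids M) (n : ℕ) : ∀ (l : ℝ), 0 ≤ l → l ≤ 1 → ∀ (x y : M) (ε : ℝ), 0 < ε →
    ∃ w, dist x w ≤ l * dist x y + dist x y / 2 ^ n + ε ∧
      dist w y ≤ (1 - l) * dist x y + dist x y / 2 ^ n + ε := by
  induction n with
  | zero =>
    intro l hl0 hl1 x y ε hε
    have hd : 0 ≤ dist x y := dist_nonneg
    refine ⟨x, ?_, ?_⟩
    · rw [dist_self]
      have := mul_nonneg hl0 hd
      simp only [pow_zero, div_one]
      linarith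
    · have := mul_nonneg (sub_nonneg.2 hl1) hd
      simp only [pow_zero, div_one]
      linarith
  | succ n ih =>
    intro l hl0 hl1 x y ε hε
    set d := dist x y with hdd
    have hd : 0 ≤ d := dist_nonneg
    obtain ⟨z, hz1, hz2⟩ := h x y (ε / 8) (by positivity)
    have hp : (0 : ℝ) < 2 ^ n := by positivity
    have hp1 : (1 : ℝ) ≤ 2 ^ n := one_le_pow₀ (by norm_num)
    have hpow : d / 2 ^ (n + 1) = d / 2 / 2 ^ n := by
      rw [pow_succ]
      field_simp
    have hk : ∀ a : ℝ, a ≤ d / 2 + ε / 8 → a / 2 ^ n ≤ d / 2 / 2 ^ n + ε / 8 := by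
      intro a ha
      have h1 : a / 2 ^ n ≤ (d / 2 + ε / 8) / 2 ^ n := div_le_div_of_nonneg_right ha hp.le
      have h2 : ε / 8 / 2 ^ n ≤ ε / 8 := div_le_self (by positivity) hp1
      rw [add_div] at h1
      linarith
    rw [hpow]
    rcases le_total l (1 / 2) with hl | hl
    · obtain ⟨w, hw1, hw2⟩ := ih (2 * l) (by linarith) (by linarith) x z (ε / 4) (by positivity)
      have hk' := hk _ hz1
      have hx : 0 ≤ dist x z := dist_nonneg
      refine ⟨w, ?_, ?_⟩
      · have h1 : 2 * l * dist x z ≤ 2 * l * (d / 2 + ε / 8) :=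
          mul_le_mul_of_nonneg_left hz1 (by linarith)
        nlinarith only [hw1, h1, hk', hl, hl0, hε]
      · have h1 : (1 - 2 * l) * dist x z ≤ (1 - 2 * l) * (d / 2 + ε / 8) :=
          mul_le_mul_of_nonneg_left hz1 (by linarith)
        have h2 := dist_triangle w z y
        nlinarith only [hw2, h1, h2, hk', hl, hl0, hε, hz2]
    · obtain ⟨w, hw1, hw2⟩ := ih (2 * l - 1) (by linarith) (by linarith) z y (ε / 4) (by positivity)
      have hk' := hk _ hz2
      refine ⟨w, ?_, ?_⟩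
      · have h1 : (2 * l - 1) * dist z y ≤ (2 * l - 1) * (d / 2 + ε / 8) :=
          mul_le_mul_of_nonneg_left hz2 (by linarith)
        have h2 := dist_triangle x z w
        nlinarith only [hw1, h1, h2, hk', hl, hl1, hε, hz1]
      · have h1 : (1 - (2 * l - 1)) * dist z y ≤ (1 - (2 * l - 1)) * (d / 2 + ε / 8) :=
          mul_le_mul_of_nonneg_left hz2 (by linarith)
        nlinarith only [hw2, h1, hk', hl, hl1, hε]

theorem approx_geo' (h : Mids M) {l : ℝ} (hl0 : 0 ≤ l) (hl1 : l ≤ 1) (x y : M) {ε : ℝ}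
    (hε : 0 < ε) : ∃ w, dist x w ≤ l * dist x y + ε ∧ dist w y ≤ (1 - l) * dist x y + ε := by
  have h1 : Tendsto (fun n : ℕ => dist x y / 2 ^ n) atTop (𝓝 0) := by
    have := (tendsto_pow_atTop_nhds_zero_of_lt_one (r := (1 / 2 : ℝ)) (by norm_num)
      (by norm_num)).const_mul (dist x y)
    simp only [mul_zero, one_div, inv_pow] at this
    exact this
  obtain ⟨n, hn⟩ := (h1.eventually (Iio_mem_nhds (show (0 : ℝ) < ε / 2 by positivity))).exists
  obtain ⟨w, h2, h3⟩ := approx_geo h n l hl0 hl1 x y (ε / 2) (by positivity)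
  have hn' : dist x y / 2 ^ n < ε / 2 := hn
  exact ⟨w, by linarith, by linarith⟩

/-- a proper space with approximate midpoints is geodesic -/
theorem geo_of [ProperSpace M] (h : Mids M) :
    ∀ x y : M, ∀ s t : ℝ, 0 ≤ s → 0 ≤ t → s + t = dist x y → ∃ w, dist x w = s ∧ dist w y = t := by
  intro x y s t hs ht hst
  rcases eq_or_lt_of_le (dist_nonneg (x := x) (y := y)) with h0 | h0
  · have hs0 : s = 0 := by linarith
    have ht0 : t = 0 := by linarith
    exact ⟨x, by rw [dist_self, hs0], by rw [← h0, ht0]⟩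
  set d := dist x y with hd
  have hl0 : 0 ≤ s / d := div_nonneg hs h0.le
  have hl1 : s / d ≤ 1 := (div_le_one h0).2 (by linarith)
  have e1 : s / d * d = s := div_mul_cancel₀ _ h0.ne'
  have e2 : (1 - s / d) * d = t := by rw [sub_mul, e1]; linarith
  have hc : IsCompact (closedBall x (d + 1)) := isCompact_closedBall _ _
  have hf : ContinuousOn (fun w => max (dist x w - s) (dist w y - t)) (closedBall x (d + 1)) := by
    fun_prop
  obtain ⟨w, hw, hmin⟩ := hc.exists_isMinOn ⟨x, mem_closedBall_self (by positivity)⟩ hf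
  have hle : max (dist x w - s) (dist w y - t) ≤ 0 := by
    refine le_of_forall_pos_le_add fun ε hε => ?_
    obtain ⟨v, hv1, hv2⟩ := approx_geo' h hl0 hl1 x y (ε := min ε 1) (lt_min hε one_pos)
    rw [← hd, e1] at hv1
    rw [← hd, e2] at hv2
    have hm1 := min_le_left ε 1
    have hm2 := min_le_right ε 1
    have hv : v ∈ closedBall x (d + 1) := by
      rw [mem_closedBall, dist_comm]
      linarith
    refine (hmin hv).trans ?_
    simp only [max_le_iff]
    constructor <;> linarith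
  have h1 := (le_max_left _ _).trans hle
  have h2 := (le_max_right _ _).trans hle
  have h3 := dist_triangle x w y
  exact ⟨w, by linarith, by linarith⟩

/-- properness from covering numbers -/
theorem proper_of [CompleteSpace M]
    (h : ∀ (x : M) (r s : ℝ), 0 < s → ∃ T : Finset M, ball x r ⊆ ⋃ y ∈ T, ball y s) :
    ProperSpace M := by
  refine ⟨fun x r => ?_⟩
  refine isCompact_iff_totallyBounded_isComplete.2 ⟨?_, isClosed_closedBall.isComplete⟩
  rw [Metric.totallyBounded_iff]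
  intro ε hε
  obtain ⟨T, hT⟩ := h x (r + 1) ε hε
  exact ⟨T, T.finite_toSet, (closedBall_subset_ball (by linarith)).trans hT⟩

end metric

section measure

variable {M : Type u} [MetricSpace M] [SecondCountableTopology M] [MeasurableSpace M]
  [BorelSpace M] {m : Measure M} {n : ℕ}

/-- the volume information extracted from `CD(K,n)` -/
structure Hyp (m : Measure M) (n : ℕ) : Prop where
  fin : ∀ (x : M) (r : ℝ), m (ball x r) < ∞
  pos : ∀ (x : M) (r : ℝ), 0 < r → 0 < m (ball x r)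
  contr : ∀ Q : ℝ, 0 < Q → Q < 1 → ∃ R₀ : ℝ, 0 < R₀ ∧
    ∀ (x : M) (s R : ℝ), 0 < s → s ≤ R → R ≤ R₀ →
      Q * (s / R) ^ n * m.real (ball x R) ≤ m.real (ball x s)
  mids : Mids M
  upper : ∃ C R₁ : ℝ, 0 < C ∧ 0 < R₁ ∧ ∀ (x : M) (r : ℝ), 0 < r → r ≤ R₁ →
    m.real (ball x r) ≤ C * r ^ n
  cover : ∀ (x : M) (r s : ℝ), 0 < s → ∃ T : Finset M, ball x r ⊆ ⋃ y ∈ T, ball y s
  chain : ∀ r₀ : ℝ, 0 < r₀ → ∃ r, 0 < r ∧ r ≤ r₀ ∧ ∀ R : ℝ, ∃ c : ℝ, 0 < c ∧
    ∀ x y : M, dist x y ≤ R → c * m.real (ball x r) ≤ m.real (ball y r)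

theorem hyp_of_contr (hfin : ∀ (x : M) (r : ℝ), m (ball x r) < ∞)
    (hpos : ∀ (x : M) (r : ℝ), 0 < r → 0 < m (ball x r)) (hmid : Mids M)
    (hc : ∀ Q : ℝ, 0 < Q → Q < 1 → ∃ R₀ : ℝ, 0 < R₀ ∧ Contr m n Q R₀)
    (hup : ∃ C R₁ : ℝ, 0 < C ∧ 0 < R₁ ∧ ∀ (x : M) (r : ℝ), 0 < r → r ≤ R₁ →
      m.real (ball x r) ≤ C * r ^ n) : Hyp m n where
  fin := hfin
  pos := hpos
  contr := by
    intro Q hQ0 hQ1
    obtain ⟨R₀, hR₀, h⟩ := hc Q hQ0 hQ1
    refine ⟨R₀, hR₀, fun x s R hs hsR hR => ?_⟩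
    have := h.mono hfin hQ1.le (x := x) hs hsR hR
    rwa [Real.rpow_natCast] at this
  mids := hmid
  upper := hup
  cover := by
    intro x r s hs
    obtain ⟨R₀, hR₀, h⟩ := hc (1 / 2) (by norm_num) (by norm_num)
    set a : ℝ := R₀ / 2 with ha
    have ha0 : 0 < a := by positivity
    set s' : ℝ := min s (a / 8) with hs'
    have hs'0 : 0 < s' := lt_min hs (by positivity)
    obtain ⟨B, hB⟩ := exists_nat_ge ((8 * a / s') ^ (n : ℝ) / (1 / 2 : ℝ) ^ 2)
    obtain ⟨k, hk⟩ := (tendsto_pow_atTop_atTop_of_one_lt (r := (3 / 2 : ℝ)) (by norm_num)).eventually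
      (eventually_ge_atTop (r / a)) |>.exists
    obtain ⟨T, -, hT⟩ := Vale.Agent.P242.H124.cover (Q := 1 / 2) (by norm_num) (by norm_num) h hfin
      hpos hmid ha0 (by rw [ha]; linarith) hs'0 (min_le_right _ _) hB k x
    refine ⟨T, (ball_subset_ball ?_).trans (hT.trans ?_)⟩
    · rwa [div_le_iff₀ ha0] at hk
    · exact iUnion₂_mono fun y _ => ball_subset_ball (min_le_left _ _)
  chain := by
    intro r₀ hr₀
    obtain ⟨R₀, hR₀, h⟩ := hc (1 / 2) (by norm_num) (by norm_num)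
    set a : ℝ := min r₀ (R₀ / 2) with ha
    have ha0 : 0 < a := lt_min hr₀ (by positivity)
    have ha2 : a ≤ R₀ / 2 := min_le_right _ _
    refine ⟨a, ha0, min_le_left _ _, fun R => ?_⟩
    obtain ⟨k, hk⟩ := (tendsto_pow_atTop_atTop_of_one_lt (r := (3 / 2 : ℝ)) (by norm_num)).eventually
      (eventually_ge_atTop (R / a)) |>.exists
    refine ⟨(1 / 2 * (1 / 2 : ℝ) ^ (n : ℝ)) ^ (2 ^ k), by positivity, fun x y hxy => ?_⟩
    refine Vale.Agent.P242.H124.chain (by norm_num) (by norm_num) h hfin hmid ha0 (by linarith) k x y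
      (hxy.trans ?_)
    rwa [div_le_iff₀ ha0] at hk

namespace Hyp

variable (h : Hyp m n)

include h

theorem proper [CompleteSpace M] : ProperSpace M := proper_of h.cover

theorem real_pos (x : M) {r : ℝ} (hr : 0 < r) : 0 < m.real (ball x r) :=
  ENNReal.toReal_pos (h.pos x r hr).ne' (h.fin x r).ne

theorem real_mono {A B : Set M} (hAB : A ⊆ B) {x : M} {r : ℝ} (hB : B ⊆ ball x r) :
    m.real A ≤ m.real B :=
  measureReal_mono hAB ((measure_mono hB).trans_lt (h.fin x r)).ne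

/-- the volume of small balls is at least a constant on bounded sets -/
theorem lower {r₀ : ℝ} (hr₀ : 0 < r₀) (x₀ : M) (R : ℝ) : ∃ r c : ℝ, 0 < r ∧ r ≤ r₀ ∧ 0 < c ∧
    ∀ x ∈ ball x₀ R, c ≤ m.real (ball x r) := by
  obtain ⟨r, hr, hr', hc⟩ := h.chain r₀ hr₀
  obtain ⟨c, hc0, hc⟩ := hc R
  refine ⟨r, c * m.real (ball x₀ r), hr, hr', mul_pos hc0 (h.real_pos x₀ hr), fun x hx => ?_⟩
  rw [mem_ball, dist_comm] at hx
  exact hc x₀ x hx.le

/-- upper Ahlfors bound up to scale one -/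
theorem upper_one (x₀ : M) (R : ℝ) : ∃ c : ℝ, 0 < c ∧ ∀ x ∈ ball x₀ R, ∀ r, 0 < r → r ≤ 1 →
    m.real (ball x r) ≤ c * r ^ n := by
  obtain ⟨C, R₁, hC, hR₁, hu⟩ := h.upper
  set V := m.real (ball x₀ (R + 1)) with hV
  refine ⟨C + V / R₁ ^ n, by positivity, fun x hx r hr hr1 => ?_⟩
  rcases le_total r R₁ with h1 | h1
  · refine (hu x r hr h1).trans ?_
    have : 0 ≤ V / R₁ ^ n * r ^ n := by positivity
    nlinarith only [this]
  · have h2 : m.real (ball x r) ≤ V := by
      refine measureReal_mono ?_ (h.fin _ _).ne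
      intro z hz
      rw [mem_ball] at *
      have := dist_triangle z x x₀
      linarith
    have h3 : V ≤ V / R₁ ^ n * r ^ n := by
      rw [div_mul_eq_mul_div, le_div_iff₀ (by positivity)]
      exact mul_le_mul_of_nonneg_left (pow_le_pow_left₀ hR₁.le h1 n) measureReal_nonneg
    have : 0 ≤ C * r ^ n := by positivity
    nlinarith only [h2, h3, this]

/-- doubling up to scale one -/
theorem doubling_one (x₀ : M) (R : ℝ) : ∃ c : ℝ, 0 < c ∧ ∀ x ∈ ball x₀ R, ∀ r, 0 < r → r ≤ 1 →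
    m.real (ball x (2 * r)) ≤ c * m.real (ball x r) := by
  obtain ⟨R₀, hR₀, hc⟩ := h.contr (1 / 2) (by norm_num) (by norm_num)
  obtain ⟨r₁, c₁, hr₁, hr₁', hc₁, hl⟩ := h.lower (show 0 < R₀ / 2 by positivity) x₀ R
  set V := m.real (ball x₀ (R + 2)) with hV
  refine ⟨2 * 2 ^ n + V / c₁, by positivity, fun x hx r hr hr1 => ?_⟩
  rcases le_total (2 * r) R₀ with h1 | h1
  · have h2 := hc x r (2 * r) hr (by linarith) h1
    have h3 : r / (2 * r) = 1 / 2 := by
      rw [div_eq_div_iff (by positivity) two_ne_zero]; ring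
    rw [h3, one_div_pow] at h2
    have h4 : m.real (ball x (2 * r)) ≤ 2 * 2 ^ n * m.real (ball x r) := by
      have h5 : (0 : ℝ) < 2 ^ n := by positivity
      have h6 : 1 / 2 * (1 / 2 ^ n) * m.real (ball x (2 * r)) =
          m.real (ball x (2 * r)) / (2 * 2 ^ n) := by field_simp
      rw [h6, div_le_iff₀ (by positivity)] at h2
      linarith
    have : 0 ≤ V / c₁ * m.real (ball x r) := by positivity
    nlinarith only [h4, this]
  · have h2 : m.real (ball x (2 * r)) ≤ V := by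
      refine measureReal_mono ?_ (h.fin _ _).ne
      intro z hz
      rw [mem_ball] at *
      have := dist_triangle z x x₀
      linarith
    have h3 : c₁ ≤ m.real (ball x r) :=
      (hl x hx).trans (measureReal_mono (ball_subset_ball (by linarith)) (h.fin _ _).ne)
    have h4 : V ≤ V / c₁ * m.real (ball x r) := by
      rw [div_mul_eq_mul_div, le_div_iff₀ hc₁]
      exact mul_le_mul_of_nonneg_left h3 measureReal_nonneg
    have : 0 ≤ 2 * 2 ^ n * m.real (ball x r) := by positivity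
    nlinarith only [h2, h4, this]

/-- the volume ratio -/
theorem ratio {Q : ℝ} (hQ0 : 0 < Q) (hQ1 : Q < 1) : ∃ R₀ : ℝ, 0 < R₀ ∧
    ∀ (x : M) (s R : ℝ), 0 < s → s ≤ R → R ≤ R₀ →
      Q * (m.real (ball x R) / R ^ n) ≤ m.real (ball x s) / s ^ n := by
  obtain ⟨R₀, hR₀, hc⟩ := h.contr Q hQ0 hQ1
  refine ⟨R₀, hR₀, fun x s R hs hsR hR => ?_⟩
  have h1 := hc x s R hs hsR hR
  have hR0 : 0 < R := hs.trans_le hsR
  rw [le_div_iff₀ (by positivity)]
  refine le_trans (le_of_eq ?_) h1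
  rw [div_pow]
  ring

/-- the volume ratio has a limit at every point -/
theorem exists_lim (x : M) : ∃ l : ℝ, Tendsto (fun r : ℝ => m.real (ball x r) / r ^ n) (𝓝[>] 0) (𝓝 l) := by
  set f : ℝ → ℝ := fun r => m.real (ball x r) / r ^ n with hf
  obtain ⟨C, R₁, hC, hR₁, hu⟩ := h.upper
  have hub : ∀ᶠ r in 𝓝[>] (0 : ℝ), f r ≤ C := by
    filter_upwards [Ioc_mem_nhdsGT hR₁] with r hr
    rw [hf]
    simp only
    rw [div_le_iff₀ (pow_pos hr.1 n)]
    exact hu x r hr.1 hr.2
  have hlb : ∀ᶠ r in 𝓝[>] (0 : ℝ), 0 ≤ f r := by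
    filter_upwards [self_mem_nhdsWithin] with r hr
    exact div_nonneg measureReal_nonneg (pow_nonneg (le_of_lt hr) n)
  have b1 : IsBoundedUnder (· ≤ ·) (𝓝[>] (0 : ℝ)) f := ⟨C, hub⟩
  have b2 : IsBoundedUnder (· ≥ ·) (𝓝[>] (0 : ℝ)) f := ⟨0, hlb⟩
  have key : ∀ Q : ℝ, 0 < Q → Q < 1 → Q * limsup f (𝓝[>] 0) ≤ liminf f (𝓝[>] 0) := by
    intro Q hQ0 hQ1
    obtain ⟨R₀, hR₀, hr⟩ := h.ratio hQ0 hQ1
    have h1 : ∀ᶠ R in 𝓝[>] (0 : ℝ), f R ≤ liminf f (𝓝[>] 0) / Q := by
      filter_upwards [Ioc_mem_nhdsGT hR₀] with R hR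
      rw [le_div_iff₀ hQ0, mul_comm]
      refine le_liminf_of_le b1.isCoboundedUnder_ge ?_
      filter_upwards [Ioc_mem_nhdsGT hR.1] with s hs
      exact hr x s R hs.1 hs.2 hR.2
    have h2 := limsup_le_of_le b2.isCoboundedUnder_le h1
    rwa [le_div_iff₀ hQ0, mul_comm] at h2
  have hle : limsup f (𝓝[>] 0) ≤ liminf f (𝓝[>] 0) := by
    have h1 : Tendsto (fun Q : ℝ => Q * limsup f (𝓝[>] 0)) (𝓝[<] 1) (𝓝 (1 * limsup f (𝓝[>] 0))) :=
      (tendsto_id.mono_left nhdsWithin_le_nhds).mul_const _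
    rw [one_mul] at h1
    refine le_of_tendsto h1 ?_
    filter_upwards [Ioo_mem_nhdsLT (show (0 : ℝ) < 1 by norm_num)] with Q hQ
    exact key Q hQ.1 hQ.2
  exact ⟨liminf f (𝓝[>] 0), tendsto_of_le_liminf_of_limsup_le le_rfl hle b1 b2⟩

/-- the density function -/
noncomputable def th (x : M) : ℝ := (h.exists_lim x).choose

theorem tendsto_th (x : M) : Tendsto (fun r : ℝ => m.real (ball x r) / r ^ n) (𝓝[>] 0) (𝓝 (h.th x)) :=
  (h.exists_lim x).choose_spec

theorem measurable_th [SFinite m] : Measurable h.th := by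
  have hu : Tendsto (fun k : ℕ => (1 : ℝ) / ((k : ℝ) + 1)) atTop (𝓝[>] 0) := by
    rw [tendsto_nhdsWithin_iff]
    refine ⟨tendsto_one_div_add_atTop_nhds_zero_nat, Eventually.of_forall fun k => ?_⟩
    have : (0 : ℝ) < (k : ℝ) + 1 := by positivity
    exact div_pos one_pos this
  refine measurable_of_tendsto_metrizable (f := fun (k : ℕ) (x : M) =>
    m.real (ball x (1 / ((k : ℝ) + 1))) / (1 / ((k : ℝ) + 1)) ^ n) (fun k => ?_) ?_
  · refine Measurable.div_const ?_ _
    have h1 : MeasurableSet {z : M × M | dist z.2 z.1 < 1 / ((k : ℝ) + 1)} :=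
      (isOpen_lt (by fun_prop) continuous_const).measurableSet
    exact (measurable_measure_prodMk_left h1).ennreal_toReal
  · rw [tendsto_pi_nhds]
    exact fun x => (h.tendsto_th x).comp hu

/-- the density function is locally bounded above and below -/
theorem th_bd (x₀ : M) (R : ℝ) : ∃ c : ℝ, 0 < c ∧ ∀ x ∈ ball x₀ R, c ≤ h.th x ∧ h.th x ≤ c⁻¹ := by
  obtain ⟨C, R₁, hC, hR₁, hu⟩ := h.upper
  obtain ⟨R₀, hR₀, hr⟩ := h.ratio (Q := 1 / 2) (by norm_num) (by norm_num)
  obtain ⟨r, c, hr0, hr1, hc, hl⟩ := h.lower hR₀ x₀ R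
  have hlow : 0 < 1 / 2 * (c / r ^ n) := by positivity
  refine ⟨min (1 / 2 * (c / r ^ n)) C⁻¹, lt_min hlow (by positivity), fun x hx => ⟨?_, ?_⟩⟩
  · refine (min_le_left _ _).trans ?_
    refine ge_of_tendsto (h.tendsto_th x) ?_
    filter_upwards [Ioc_mem_nhdsGT hr0] with s hs
    refine le_trans ?_ (hr x s r hs.1 hs.2 hr1)
    have := hl x hx
    gcongr
  · have h1 : h.th x ≤ C := by
      refine le_of_tendsto (h.tendsto_th x) ?_
      filter_upwards [Ioc_mem_nhdsGT hR₁] with s hs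
      rw [div_le_iff₀ (pow_pos hs.1 n)]
      exact hu x s hs.1 hs.2
    refine h1.trans ?_
    rw [← inv_inv C]
    have h2 := min_le_right (1 / 2 * (c / r ^ n)) C⁻¹
    rw [inv_inv C] at *
    have h3 : 0 < min (1 / 2 * (c / r ^ n)) C⁻¹ := lt_min hlow (by positivity)
    have h4 := inv_anti₀ h3 h2
    rwa [inv_inv] at h4

/-- one step of the volume growth -/
theorem growth_step : ∃ a D : ℝ, 0 < a ∧ 1 ≤ D ∧ ∀ (x₀ : M) (R : ℝ), 0 < R →
    m.real (ball x₀ (R + 4 * a)) ≤ D * m.real (ball x₀ (R + 2 * a)) := by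
  obtain ⟨R₀, hR₀, hc⟩ := h.contr (1 / 2) (by norm_num) (by norm_num)
  set a : ℝ := R₀ / 11 with ha
  have ha0 : 0 < a := by positivity
  have hD : ∀ y : M, m.real (closedBall y (10 * a)) ≤ 2 * 11 ^ n * m.real (closedBall y a) := by
    intro y
    have h1 := hc y a R₀ ha0 (by rw [ha]; linarith) le_rfl
    have h2 : a / R₀ = 1 / 11 := by rw [ha]; field_simp
    rw [h2, one_div_pow] at h1
    have h3 : 1 / 2 * (1 / 11 ^ n) * m.real (ball y R₀) = m.real (ball y R₀) / (2 * 11 ^ n) := by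
      field_simp
    rw [h3, div_le_iff₀ (by positivity)] at h1
    have h4 : m.real (closedBall y (10 * a)) ≤ m.real (ball y R₀) :=
      measureReal_mono (closedBall_subset_ball (by rw [ha]; linarith)) (h.fin _ _).ne
    have h5 : m.real (ball y a) ≤ m.real (closedBall y a) :=
      h.real_mono ball_subset_closedBall (closedBall_subset_ball (show a < 2 * a by linarith))
    have h6 : (0 : ℝ) < 2 * 11 ^ n := by positivity
    nlinarith only [h1, h4, h5, h6]
  refine ⟨a, 2 * 11 ^ n, ha0, ?_, fun x₀ R hR => ?_⟩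
  · have : (1 : ℝ) ≤ 11 ^ n := one_le_pow₀ (by norm_num)
    linarith
  obtain ⟨u, hu, hdisj, hcov⟩ := Vitali.exists_disjoint_subfamily_covering_enlargement_closedBall
    (ball x₀ R) (fun y => y) (fun _ => a) a (fun _ _ => le_rfl) 5 (by norm_num)
  have hcount : u.Countable := by
    refine hdisj.countable_of_nonempty_interior fun y _ => ?_
    exact ⟨y, mem_interior_iff_mem_nhds.2 (closedBall_mem_nhds y ha0)⟩
  have hsub : ball x₀ (R + 4 * a) ⊆ ⋃ y ∈ u, closedBall y (10 * a) := by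
    intro z hz
    rw [mem_ball, dist_comm] at hz
    set d := dist x₀ z with hd
    have hd0 : 0 ≤ d := dist_nonneg
    obtain ⟨z', hz'1, hz'2⟩ : ∃ z', dist x₀ z' < R ∧ dist z' z < 5 * a := by
      rcases lt_or_ge d R with hlt | hge
      · exact ⟨z, hlt, by rw [dist_self]; positivity⟩
      · have hdpos : 0 < d := hR.trans_le hge
        obtain ⟨δ, hδ0, hδR, hδa⟩ : ∃ δ : ℝ, 0 < δ ∧ δ ≤ R ∧ δ ≤ a / 2 :=
          ⟨min R (a / 2), lt_min hR (by positivity), min_le_left _ _, min_le_right _ _⟩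
        obtain ⟨z', h1, h2⟩ := approx_geo' h.mids (l := (R - δ) / d)
          (div_nonneg (by linarith) hdpos.le) ((div_le_one hdpos).2 (by linarith)) x₀ z
          (ε := δ / 2) (by positivity)
        rw [← hd, div_mul_cancel₀ _ hdpos.ne'] at h1
        rw [← hd, sub_mul, div_mul_cancel₀ _ hdpos.ne', one_mul] at h2
        exact ⟨z', by linarith, by linarith⟩
    have hz'3 : z' ∈ ball x₀ R := by rw [mem_ball, dist_comm]; exact hz'1
    obtain ⟨y, hy, hyz⟩ := hcov z' hz'3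
    have h1 : z' ∈ closedBall y (5 * a) := hyz (mem_closedBall_self ha0.le)
    rw [mem_iUnion₂]
    refine ⟨y, hy, ?_⟩
    rw [mem_closedBall] at *
    have := dist_triangle z z' y
    rw [dist_comm z z'] at this
    linarith
  have hD' : ∀ y : M, m (closedBall y (10 * a)) ≤
      ENNReal.ofReal (2 * 11 ^ n) * m (closedBall y a) := by
    intro y
    have h1 : m (closedBall y (10 * a)) ≠ ∞ := ((measure_mono (closedBall_subset_ball
      (show 10 * a < 11 * a by linarith))).trans_lt (h.fin _ _)).ne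
    have h2 : m (closedBall y a) ≠ ∞ := ((measure_mono (closedBall_subset_ball
      (show a < 2 * a by linarith))).trans_lt (h.fin _ _)).ne
    rw [← ofReal_measureReal h1, ← ofReal_measureReal h2, ← ENNReal.ofReal_mul (by positivity)]
    exact ENNReal.ofReal_le_ofReal (hD y)
  have hmain : m (ball x₀ (R + 4 * a)) ≤ ENNReal.ofReal (2 * 11 ^ n) * m (ball x₀ (R + 2 * a)) := by
    calc m (ball x₀ (R + 4 * a)) ≤ m (⋃ y ∈ u, closedBall y (10 * a)) := measure_mono hsub
      _ ≤ ∑' y : u, m (closedBall (y : M) (10 * a)) := measure_biUnion_le m hcount _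
      _ ≤ ∑' y : u, ENNReal.ofReal (2 * 11 ^ n) * m (closedBall (y : M) a) :=
          ENNReal.tsum_le_tsum fun y => hD' y
      _ = ENNReal.ofReal (2 * 11 ^ n) * m (⋃ y ∈ u, closedBall y a) := by
          rw [ENNReal.tsum_mul_left, measure_biUnion hcount hdisj fun y _ => measurableSet_closedBall]
      _ ≤ _ := by
          refine mul_le_mul_right (measure_mono ?_) _
          refine iUnion₂_subset fun y hy z hz => ?_
          have h1 := hu hy
          rw [mem_ball] at *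
          rw [mem_closedBall] at hz
          have := dist_triangle z y x₀
          linarith
  have h9 := ENNReal.toReal_mono (ENNReal.mul_ne_top ENNReal.ofReal_ne_top (h.fin _ _).ne) hmain
  rwa [ENNReal.toReal_mul, ENNReal.toReal_ofReal (by positivity)] at h9

/-- exponential growth -/
theorem growth (x₀ : M) : ∃ c : ℝ, ∀ r > 0, m (ball x₀ r) ≤ ENNReal.ofReal (c * Real.exp (c * r)) := by
  obtain ⟨a, D, ha, hD, hstep⟩ := h.growth_step
  have hD0 : 0 < D := by linarith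
  have hk : ∀ k : ℕ, m.real (ball x₀ (3 * a + 2 * a * k)) ≤ D ^ k * m.real (ball x₀ (3 * a)) := by
    intro k
    induction k with
    | zero => simp
    | succ k ih =>
      have h1 := hstep x₀ (a + 2 * a * k) (by positivity)
      have e1 : a + 2 * a * k + 4 * a = 3 * a + 2 * a * ((k + 1 : ℕ) : ℝ) := by push_cast; ring
      have e2 : a + 2 * a * k + 2 * a = 3 * a + 2 * a * k := by ring
      rw [e1, e2] at h1
      calc _ ≤ D * m.real (ball x₀ (3 * a + 2 * a * k)) := h1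
        _ ≤ D * (D ^ k * m.real (ball x₀ (3 * a))) := mul_le_mul_of_nonneg_left ih hD0.le
        _ = _ := by ring
  set b : ℝ := Real.log D / (2 * a) with hb
  have hb0 : 0 ≤ b := div_nonneg (Real.log_nonneg hD) (by positivity)
  set V : ℝ := D * m.real (ball x₀ (3 * a)) with hV
  have hV0 : 0 ≤ V := by positivity
  refine ⟨max V b, fun r hr => ?_⟩
  rw [← ofReal_measureReal (h.fin x₀ r).ne]
  refine ENNReal.ofReal_le_ofReal ?_
  set k : ℕ := ⌈r / (2 * a)⌉₊ with hkd
  have hk1 : r / (2 * a) ≤ k := Nat.le_ceil _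
  have hk2 : (k : ℝ) < r / (2 * a) + 1 := Nat.ceil_lt_add_one (by positivity)
  have h1 : r ≤ 2 * a * k := by rwa [div_le_iff₀' (by positivity)] at hk1
  have h2 : m.real (ball x₀ r) ≤ D ^ k * m.real (ball x₀ (3 * a)) :=
    (measureReal_mono (ball_subset_ball (by linarith)) (h.fin _ _).ne).trans (hk k)
  have h3 : D ^ k ≤ D * Real.exp (b * r) := by
    have e1 : D ^ k = Real.exp (k * Real.log D) := by
      rw [mul_comm, Real.exp_mul, Real.exp_log hD0, Real.rpow_natCast]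
    have e2 : D * Real.exp (b * r) = Real.exp (Real.log D + b * r) := by
      rw [Real.exp_add, Real.exp_log hD0]
    rw [e1, e2]
    refine Real.exp_le_exp.2 ?_
    have h4 : (k : ℝ) * Real.log D ≤ (r / (2 * a) + 1) * Real.log D :=
      mul_le_mul_of_nonneg_right hk2.le (Real.log_nonneg hD)
    refine h4.trans (le_of_eq ?_)
    rw [hb]
    ring
  have h5 : Real.exp (b * r) ≤ Real.exp (max V b * r) :=
    Real.exp_le_exp.2 (mul_le_mul_of_nonneg_right (le_max_right _ _) hr.le)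
  have hmr : 0 ≤ m.real (ball x₀ (3 * a)) := measureReal_nonneg
  calc m.real (ball x₀ r) ≤ D ^ k * m.real (ball x₀ (3 * a)) := h2
    _ ≤ D * Real.exp (b * r) * m.real (ball x₀ (3 * a)) := mul_le_mul_of_nonneg_right h3 hmr
    _ = V * Real.exp (b * r) := by rw [hV]; ring
    _ ≤ max V b * Real.exp (max V b * r) :=
        mul_le_mul (le_max_left _ _) h5 (Real.exp_pos _).le (hV0.trans (le_max_left _ _))

end Hyp

/-- the hypotheses hold on a `CD(K,n)` space with its Hausdorff measure -/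
theorem hyp_of_CD [CompleteSpace M] {n : ℕ} {K : ℝ} (hn : 2 ≤ n)
    (full : (μH[(n : ℝ)] : Measure M).IsOpenPosMeasure)
    (fin : ∀ (x : M) (r : ℝ), (μH[(n : ℝ)] : Measure M) (ball x r) < ∞)
    (cd : IsCD K n (μH[(n : ℝ)] : Measure M)) : Hyp (μH[(n : ℝ)] : Measure M) n := by
  have hpos : ∀ (x : M) (r : ℝ), 0 < r → 0 < (μH[(n : ℝ)] : Measure M) (ball x r) :=
    fun x r hr => isOpen_ball.measure_pos _ ⟨x, mem_ball_self hr⟩
  have hN : (1 : ℝ) < n := by exact_mod_cast (show 1 < n by omega)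
  have hc : ∀ Q : ℝ, 0 < Q → Q < 1 → ∃ R₀ : ℝ, 0 < R₀ ∧
      Contr (μH[(n : ℝ)] : Measure M) n Q R₀ := fun Q hQ0 hQ1 =>
    contr_of_CD fin hpos cd hN hQ0 hQ1
  refine hyp_of_contr fin hpos (mids_of_CD fin hpos cd) hc ?_
  obtain ⟨R₀, hR₀, h⟩ := hc (1 / 2) (by norm_num) (by norm_num)
  refine ⟨16 ^ n / (1 / 2) ^ 2, R₀ / 2, by positivity, by positivity, fun x r hr hrR => ?_⟩
  exact hausdorff_upper h fin hpos (by norm_num) (by norm_num) x hr (by linarith)

/-- All volume and topology fields, from the curvature-dimension condition. -/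
theorem vol3b [CompleteSpace M] {n : ℕ} {K : ℝ} (hn : 2 ≤ n)
    (full : (μH[(n : ℝ)] : Measure M).IsOpenPosMeasure)
    (fin : ∀ (x : M) (r : ℝ), (μH[(n : ℝ)] : Measure M) (ball x r) < ∞)
    (cd : IsCD K n (μH[(n : ℝ)] : Measure M)) :
    ProperSpace M ∧
    (∀ x y : M, ∀ s t : ℝ, 0 ≤ s → 0 ≤ t → s + t = dist x y → ∃ w, dist x w = s ∧ dist w y = t) ∧
    (∀ x₀ : M, ∃ c : ℝ, ∀ r > 0,
      (μH[(n : ℝ)] : Measure M) (ball x₀ r) ≤ ENNReal.ofReal (c * Real.exp (c * r))) ∧
    (∃ R₁ : ℝ, 0 < R₁ ∧ ∀ (p : M) (r t : ℝ), 0 < r → r ≤ R₁ → 0 < t → t ≤ 1 →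
      (μH[(n : ℝ)] : Measure M) (ball p r) ≤
        ENNReal.ofReal ((2 / t) ^ n) * (μH[(n : ℝ)] : Measure M) (ball p (t * r))) ∧
    ∃ θ : M → ℝ, Measurable θ ∧
      (∀ (x₀ : M) (R : ℝ), ∃ c : ℝ, 0 < c ∧ ∀ x ∈ ball x₀ R, c ≤ θ x ∧ θ x ≤ c⁻¹) ∧
      ∀ x, Tendsto (fun r : ℝ => ((μH[(n : ℝ)] : Measure M) (ball x r)).toReal / r ^ n) (𝓝[>] 0)
        (𝓝 (θ x)) := by
  have h := hyp_of_CD hn full fin cd
  have hP := h.proper
  have hloc : IsLocallyFiniteMeasure (μH[(n : ℝ)] : Measure M) :=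
    ⟨fun x => ⟨ball x 1, ball_mem_nhds x one_pos, fin x 1⟩⟩
  refine ⟨hP, geo_of h.mids, h.growth, ?_, h.th, h.measurable_th, h.th_bd, h.tendsto_th⟩
  obtain ⟨R₀, hR₀, hc⟩ := h.contr (1 / 2) (by norm_num) (by norm_num)
  refine ⟨R₀, hR₀, fun p r t hr hrR ht ht1 => ?_⟩
  have h1 := hc p (t * r) r (by positivity) (by nlinarith) hrR
  have h2 : t * r / r = t := by field_simp
  rw [h2] at h1
  rw [← ofReal_measureReal (fin p r).ne, ← ofReal_measureReal (fin p (t * r)).ne,
    ← ENNReal.ofReal_mul (by positivity)]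
  refine ENNReal.ofReal_le_ofReal ?_
  have h3 : (2 : ℝ) ≤ 2 ^ n := by
    calc (2 : ℝ) = 2 ^ 1 := by norm_num
      _ ≤ 2 ^ n := pow_le_pow_right₀ (by norm_num) (by omega)
  have h4 : 0 < t ^ n := by positivity
  have h5 : (2 / t) ^ n * (μH[(n : ℝ)] : Measure M).real (ball p (t * r)) =
      2 ^ n * (μH[(n : ℝ)] : Measure M).real (ball p (t * r)) / t ^ n := by
    rw [div_pow]; ring
  rw [h5, le_div_iff₀ h4]
  have h6 : 0 ≤ (μH[(n : ℝ)] : Measure M).real (ball p (t * r)) := measureReal_nonneg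
  nlinarith only [h1, h3, h6]

end measure

end Vale.Agent.P233.H866.CDVol
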