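import Vale.Agent.P233.H866.CDVol
import Vale.Agent.P233.H675.G6
import Vale.Agent.P233.CD.If3b

/-! P233, stage 3, block Blk_Vol of the interface If3b. helper866. -/

open MeasureTheory Set Metric Filter Topology
open scoped ENNReal NNReal MeasureTheory

universe u

namespace Vale.Agent.P233.H866.CDVol

/-- `Blk_Vol` on a nonempty space -/
theorem blk_Vol_ne {M : Type u} [Nonempty M] [MetricSpace M] [CompleteSpace M]
    [SecondCountableTopology M] [MeasurableSpace M] [BorelSpace M] (m : Measure M) (n : ℕ) (K : ℝ)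
    (h : CD.Hyp m n K) : RG.GeoN m n ∧ ∃ θ : M → ℝ, CD.Th m n θ := by
  obtain ⟨hn, rfl, hfull, hR⟩ := h
  obtain ⟨hP, hg, -, ⟨R₁, hR₁, hloc⟩, θ, hm, hbd, hlim⟩ := vol3b hn hfull hR.fin hR.cd
  refine ⟨H675.G6.geoN_of hg rfl hR₁ (C := 2) (by norm_num) hloc
    (fun x => ⟨1, one_pos, hR.fin x 1⟩)
    (fun x s hs => isOpen_ball.measure_pos _ ⟨x, mem_ball_self hs⟩), θ, hm, hbd,
    Eventually.of_forall hlim⟩

/-- **Block Vol** -/
theorem blk_Vol : CD.Blk_Vol.{u} := by
  intro M _ _ _ _ _ m n K h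
  haveI := h.rcd.ne
  exact blk_Vol_ne m n K h

end Vale.Agent.P233.H866.CDVol
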