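import Vale.Agent.P233.H866.S4
import Vale.Agent.P233.H616.RadConc
import Vale.Agent.P233.Gig.Main

/-! P233, part F2, assembly (helper866): from the flows of part C, the weak Hessian bounds of part
E and the step S3 to `HasConc` and `RadConc`. -/

set_option linter.all false

open MeasureTheory Filter Topology Set
open scoped ENNReal NNReal MeasureTheory

universe u

namespace Vale.Agent.P233.PF

open Vale.Agent.P233.PC

variable {M : Type u} [MetricSpace M] [MeasurableSpace M]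

/-- What part F2 needs about the flows of one space: flows of all centres, with the output of
S3. -/
structure FlowS3 (m : Measure M) (K N κ : ℝ) : Prop where
  std : Std m K N
  heat : ∃ P, Heat (sob m) K P
  flow : ∀ (q : M) (s₀ C₀ : ℝ), 0 < s₀ → s₀ ≤ 1 → 0 < C₀ → ∃ φ ρ R Y,
    Lim m K N q s₀ C₀ φ ρ R ∧ Maps ρ R Y ∧ RFlow m K N q s₀ C₀ Y ∧
    ∀ (p : M) (r Λ₀ : ℝ), Adm κ r →
      (sob m).WHess (cl m (mdr κ p r)) (cl m (Lam κ p r Λ₀)) →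
      ∀ G, (sob m).FLap (cl m (mdr κ p r)) G →
      IntConc m (cl m (mdr κ p r)) (cl m (Lam κ p r Λ₀)) q s₀ C₀ Y

variable [BorelSpace M] [SecondCountableTopology M] {m : Measure M} {K N κ : ℝ}

/-- the one-sided Laplacian bound of `md_κ(d_p)` from the flow of centre `p` -/
theorem FlowS3.exists_FLap (h : FlowS3 m K N κ) {p : M} {R : ℝ} (hR : Adm κ R) :
    ∃ G, (sob m).FLap (cl m (mdr κ p R)) G := by
  have hR2 : 0 < R ^ 2 / (2 * (1 + 1)) := by have := hR.1; positivity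
  obtain ⟨φ, ρ, Rr, Y, hL, _, _, _⟩ := h.flow p 1 (R ^ 2 / (2 * (1 + 1))) one_pos le_rfl hR2
  obtain ⟨c, hc⟩ := hL.z_lap (1 / 2) ⟨by norm_num, by norm_num⟩
  exact H866.exists_FLap h.std hR (s₀ := 1) (t := 1) (by norm_num) rfl
    fun w hw hw1 hw0 => hc 1 ⟨by norm_num, le_rfl⟩ w hw.1 hw0 hw1

/-- **Part F2 up to the metric glue** -/
theorem FlowS3.hasConc (h : FlowS3 m K N κ)
    (hcontr : ∀ (q : M) (s₀ C₀ R : ℝ) (Y : ℝ → M → M), 0 < s₀ → s₀ ≤ 1 → 0 < C₀ →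
      (∀ᵐ x ∂m, dist q x < r1 s₀ C₀ → (sob m).Γ (dc m q s₀ C₀) (dc m q s₀ C₀) x = 1) →
      RFlow m K N q s₀ C₀ Y → R ≤ r1 s₀ C₀ → PD.Contr m q s₀ R N (cK K C₀) Y)
    (hH : ∀ (p : M) (R : ℝ), Adm κ R → HessDist m κ p R) : HasConc m N κ := by
  intro p R hR
  obtain ⟨Λ₀, hΛ⟩ := hH p R hR
  obtain ⟨G, hG⟩ := h.exists_FLap (p := p) hR
  obtain ⟨P, hP⟩ := h.heat
  refine ⟨Λ₀, fun R' hR' => ⟨cK K (R' ^ 2 / 2), fun q s₀ hs => ?_⟩⟩
  have hC0 : 0 < R' ^ 2 / 2 := by positivity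
  have hr : R' ≤ r1 s₀ (R' ^ 2 / 2) := by
    rw [r1]
    refine Real.le_sqrt_of_sq_le ?_
    nlinarith [hs.1, sq_nonneg R']
  obtain ⟨φ, ρ, Rr, Y, hL, _, hY, hI⟩ := h.flow q s₀ (R' ^ 2 / 2) hs.1 hs.2 hC0
  refine ⟨Y, hcontr q s₀ _ R' Y hs.1 hs.2 hC0 hL.unit hY hr, ?_⟩
  filter_upwards [concAt_of_intConc h.std hP hs.1 hC0 hY hL.unit hR (hI p R Λ₀ hR hΛ G hG)]
    with x hx hx'
  exact hx (hx'.trans_le hr)

/-- **`PartF2`** from the flows with S3, and `PartD1` -/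
theorem partF2_of (hD1 : Gig.PartD1.{u})
    (hflow : ∀ (M : Type u) [MetricSpace M] [CompleteSpace M] [SecondCountableTopology M]
      [MeasurableSpace M] [BorelSpace M] (n : ℕ) (κ : ℝ), Gig.HypB M n κ →
      ∃ K : ℝ, FlowS3 (μH[n] : Measure M) K n κ)
    (hcontr : ∀ (M : Type u) [MetricSpace M] [CompleteSpace M] [SecondCountableTopology M]
      [MeasurableSpace M] [BorelSpace M] (m : Measure M) (K N : ℝ), Std m K N →
      ∀ (q : M) (s₀ C₀ R : ℝ) (Y : ℝ → M → M), 0 < s₀ → s₀ ≤ 1 → 0 < C₀ →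
      (∀ᵐ x ∂m, dist q x < r1 s₀ C₀ → (sob m).Γ (dc m q s₀ C₀) (dc m q s₀ C₀) x = 1) →
      RFlow m K N q s₀ C₀ Y → R ≤ r1 s₀ C₀ → PD.Contr m q s₀ R N (cK K C₀) Y) :
    Gig.PartF2.{u} := by
  intro M _ _ _ _ _ n κ hB hH
  obtain ⟨K, hF⟩ := hflow M n κ hB
  haveI : ProperSpace M := (hD1 M n κ hB).1
  exact H616.radConc_of_conc hB.full
    (hF.hasConc (hcontr M _ K n hF.std) hH)

end Vale.Agent.P233.PF
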