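import Vale.Agent.P233.H866.F2Asm2
import Vale.Agent.P233.H276.CContr
import Vale.Agent.P233.H329.LvBlk

/-! P233, part F2, final assembly (helper866): `PartF2` from `PartD1`, part A, the blocks of
part C and the step S3. -/

set_option linter.all false

open MeasureTheory Filter Topology Set
open scoped ENNReal NNReal MeasureTheory

universe u

namespace Vale.Agent.P233.PF

open Vale.Agent.P233.PC
open Vale.Agent.P233.PA (en OutA PotLim)

/-- **Part F2** -/
theorem partF2 (hD1 : Gig.PartD1.{u}) (hA1 : PA.Blk_A1.{u}) (hA : PA.Blk_A.{u})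
    (h1 : Blk_C1.{u}) (h2 : Blk_C2.{u}) (h3 : Blk_C3.{u}) (h4 : Blk_C4.{u})
    (h6a : Blk_C6a.{u}) (hS3 : Blk_S3.{u}) : Gig.PartF2.{u} := by
  refine partF2_of hD1 (fun M _ _ _ _ _ n κ hB => ?_) (fun M _ _ _ _ _ m K N hS q s₀ C₀ R Y a1 a2 a3
    hu hY hR => ?_)
  · obtain ⟨P, E, i1, i2, i3, Gr, V, D, HO, e, hI⟩ := into_c hA1 hA H329.blk_AsmB M n κ hB
    exact ⟨_, flowS3_of h1 h2 h3 h4 h6a H329.blk_LvB hS3 hI⟩
  · haveI : SigmaFinite m := sigmaFinite_of_ball hS.hfin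
    exact H276.contr_of_rflow hS.hfin
      (isGamma_sob hS.hfin hS.rcd.quadratic hS.rcd.sobolev_to_lipschitz).toIsDir a1 hY hu hR

end Vale.Agent.P233.PF
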