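import Vale.Agent.P233.Gig.IfC
import Vale.Agent.P233.H368.F2Out

/-! P233, part F2 (helper866, helper368): output of S3, input of S4. -/

set_option linter.all false

open MeasureTheory Filter Topology Set
open scoped ENNReal NNReal

universe u

namespace Vale.Agent.P233.PF

open Vale.Agent.P233.PC (zc r1 dc spd1)

variable {M : Type u} [MetricSpace M] [MeasurableSpace M]

/-- OUTPUT OF S3: the integrated inequality along the flow `Y` of centre `q`, for all weights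
`exp l` at time `1`. -/
def IntConc (m : Measure M) (F Λ : M →ₘ[m] ℝ) (q : M) (s₀ C₀ : ℝ) (Y : ℝ → M → M) : Prop :=
  ∀ l ∈ (sob m).TestI, ∀ a ∈ Ioo (0 : ℝ) 1, ∀ b ∈ Ioo a 1,
    (∫ x, Real.exp (l x) * (sob m).Γ F (zc m q s₀ C₀ b) (Y b x) ∂m)
      - (∫ x, Real.exp (l x) * (sob m).Γ F (zc m q s₀ C₀ a) (Y a x) ∂m)
      ≤ ∫ r in a..b, ∫ x, Real.exp (l x) *
          (Λ (Y r x) * (sob m).Γ (zc m q s₀ C₀ r) (zc m q s₀ C₀ r) (Y r x)) ∂m

end Vale.Agent.P233.PF
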