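import Vale.Agent.P233.RA.IfST
import Vale.Agent.P233.H866.RDens2

/-! P233 RCDA: the field `InS.asy`. -/

set_option linter.all false

open MeasureTheory Filter Topology Set
open scoped ENNReal NNReal

universe u

namespace Vale.Agent.P233.H866

open Vale.Agent.P233.RA

variable {M : Type u} [MetricSpace M] [MeasurableSpace M] [BorelSpace M]
  [SecondCountableTopology M] {m : Measure M} {n : ℕ} {K θ : ℝ}

theorem asy_of (hN : NSp m n K θ) : ∀ᵐ x ∂m, ∀ η : ℝ, 0 < η →
    Tendsto (fun τ => tht m n K θ η τ x) (𝓝[>] 0) (𝓝 1) ∧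
    Tendsto (fun τ => mom m n K θ η τ x) (𝓝[>] 0) (𝓝 ((n : ℝ) / 2)) := by
  filter_upwards [hN.dens] with x hx η hη
  exact ⟨asy0 hη (hN.fin x η) hN.θ_pos hx, asy1 hη (hN.fin x η) hN.θ_pos hx⟩

end Vale.Agent.P233.H866
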