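import Mathlib.MeasureTheory.Integral.Prod
import Mathlib.MeasureTheory.Integral.IntervalIntegral.FundThmCalculus
import Mathlib.MeasureTheory.Integral.DominatedConvergence
import Mathlib.Analysis.SpecialFunctions.Gamma.Basic
import Mathlib.Analysis.SpecialFunctions.Pow.Real
import Mathlib.Analysis.SpecialFunctions.Pow.Asymptotics
import Mathlib.MeasureTheory.Constructions.BorelSpace.Metric

/-!
P233 (RCDA), part S3 (helper866): short time behaviour of the truncated Gaussian kernel at a point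
of density.
-/

set_option linter.all false

open MeasureTheory Filter Topology Set Real
open scoped ENNReal NNReal

universe u

namespace Vale.Agent.P233.H866

variable {M : Type u} [MetricSpace M] [MeasurableSpace M] [BorelSpace M] {m : Measure M}

theorem sqrt_mul_two_lt {s v η : ℝ} (hs : 0 < s) (hη : 0 < η) (hv : v ≤ η ^ 2 / (2 * s)) :
    √(2 * s * v) ≤ η := by
  refine sqrt_le_iff.2 ⟨hη.le, ?_⟩
  rw [le_div_iff₀ (by positivity)] at hv
  linarith

/-- **layer cake** for a smooth radial function on a ball -/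
theorem layer {x : M} {η s : ℝ} (hη : 0 < η) (hs : 0 < s) (hfin : m (Metric.ball x η) < ∞)
    {h h' : ℝ → ℝ} (hc : Continuous h') (hd : ∀ v, HasDerivAt h (h' v) v) :
    ∫ y in Metric.ball x η, h (dist x y ^ 2 / (2 * s)) ∂m
      = h (η ^ 2 / (2 * s)) * m.real (Metric.ball x η)
        - ∫ v in Ioc 0 (η ^ 2 / (2 * s)), h' v * m.real (Metric.ball x √(2 * s * v)) := by
  set V : ℝ := η ^ 2 / (2 * s) with hV
  have hV0 : 0 < V := by positivity
  have hmb : MeasurableSet (Metric.ball x η) := Metric.isOpen_ball.measurableSet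
  haveI : IsFiniteMeasure (m.restrict (Metric.ball x η)) := ⟨by
    rwa [Measure.restrict_apply_univ]⟩
  have hdist : Continuous fun y : M => dist x y := by fun_prop
  have hhc : Continuous h := continuous_iff_continuousAt.2 fun v => (hd v).continuousAt
  -- the inner integral
  set S : Set (M × ℝ) := {z | dist x z.1 ^ 2 / (2 * s) < z.2} with hS
  have hSm : MeasurableSet S :=
    measurableSet_lt (by fun_prop : Measurable fun z : M × ℝ => dist x z.1 ^ 2 / (2 * s))
      measurable_snd
  set f : M → ℝ → ℝ := fun y v => S.indicator (fun z => h' z.2) (y, v) with hf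
  have h1 : ∀ y ∈ Metric.ball x η, ∫ v in Ioc 0 V, f y v = h V - h (dist x y ^ 2 / (2 * s)) := by
    intro y hy
    have hy' : dist x y < η := by rwa [Metric.mem_ball, dist_comm] at hy
    set w : ℝ := dist x y ^ 2 / (2 * s) with hw
    have hw0 : 0 ≤ w := by positivity
    have hwV : w ≤ V := by
      rw [hw, hV]
      refine div_le_div_of_nonneg_right ?_ (by positivity)
      exact pow_le_pow_left₀ dist_nonneg hy'.le 2
    have e1 : ∀ v, f y v = (Ioi w).indicator h' v := by
      intro v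
      simp only [hf, hS, indicator, mem_setOf_eq, mem_Ioi, hw]
    simp only [e1]
    rw [setIntegral_indicator measurableSet_Ioi]
    have e2 : Ioc 0 V ∩ Ioi w = Ioc w V := by
      ext v
      simp only [mem_inter_iff, mem_Ioc, mem_Ioi]
      exact ⟨fun hv => ⟨hv.2, hv.1.2⟩, fun hv => ⟨⟨hw0.trans_lt hv.1, hv.2⟩, hv.1⟩⟩
    rw [e2, ← intervalIntegral.integral_of_le hwV]
    exact intervalIntegral.integral_eq_sub_of_hasDerivAt (fun v _ => hd v)
      (hc.intervalIntegrable _ _)
  obtain ⟨B, hB⟩ := (isCompact_Icc (a := (0 : ℝ)) (b := V)).exists_bound_of_continuousOn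
    hc.continuousOn
  have hint : Integrable (Function.uncurry f)
      ((m.restrict (Metric.ball x η)).prod (volume.restrict (Ioc 0 V))) := by
    have hmeas : Measurable (Function.uncurry f) :=
      (hc.measurable.comp measurable_snd).indicator hSm
    refine Integrable.of_bound hmeas.aestronglyMeasurable B ?_
    have hae : ∀ᵐ z ∂((m.restrict (Metric.ball x η)).prod (volume.restrict (Ioc 0 V))),
        z.2 ∈ Ioc 0 V :=
      Measure.quasiMeasurePreserving_snd.ae (ae_restrict_mem measurableSet_Ioc)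
    filter_upwards [hae] with z hz
    rw [Function.uncurry, hf]
    refine (norm_indicator_le_norm_self _ _).trans ?_
    exact hB z.2 ⟨hz.1.le, hz.2⟩
  have h2 := integral_integral_swap hint
  have h3 : ∫ y in Metric.ball x η, (∫ v in Ioc 0 V, f y v) ∂m
      = h V * m.real (Metric.ball x η) - ∫ y in Metric.ball x η, h (dist x y ^ 2 / (2 * s)) ∂m := by
    rw [setIntegral_congr_fun hmb h1, integral_sub]
    · rw [setIntegral_const, smul_eq_mul, mul_comm]
    · exact integrable_const _
    · obtain ⟨B', hB'⟩ := (isCompact_Icc (a := (0 : ℝ)) (b := V)).exists_bound_of_continuousOn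
        hhc.continuousOn
      refine Integrable.of_bound (hhc.comp (by fun_prop)).aestronglyMeasurable B' ?_
      filter_upwards [ae_restrict_mem hmb] with y hy
      have hy' : dist x y < η := by rwa [Metric.mem_ball, dist_comm] at hy
      refine hB' _ ⟨by positivity, ?_⟩
      rw [hV]
      refine div_le_div_of_nonneg_right ?_ (by positivity)
      exact pow_le_pow_left₀ dist_nonneg hy'.le 2
  have h4 : ∀ v ∈ Ioc 0 V, ∫ y in Metric.ball x η, f y v ∂m
      = h' v * m.real (Metric.ball x √(2 * s * v)) := by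
    intro v hv
    have hr : √(2 * s * v) ≤ η := sqrt_mul_two_lt hs hη hv.2
    have e1 : ∀ y, f y v = (Metric.ball x √(2 * s * v)).indicator (fun _ => h' v) y := by
      intro y
      have e2 : dist x y ^ 2 / (2 * s) < v ↔ y ∈ Metric.ball x √(2 * s * v) := by
        rw [Metric.mem_ball, dist_comm, Real.lt_sqrt dist_nonneg, div_lt_iff₀ (by positivity),
          mul_comm v]
      simp only [hf]
      by_cases hy : y ∈ Metric.ball x √(2 * s * v)
      · rw [indicator_of_mem (show (y, v) ∈ S from e2.2 hy), indicator_of_mem hy]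
      · rw [indicator_of_notMem (show (y, v) ∉ S from fun h => hy (e2.1 h)),
          indicator_of_notMem hy]
    simp only [e1]
    rw [integral_indicator Metric.isOpen_ball.measurableSet,
      Measure.restrict_restrict Metric.isOpen_ball.measurableSet,
      inter_eq_left.2 (Metric.ball_subset_ball hr), setIntegral_const, smul_eq_mul, mul_comm]
  rw [h3, setIntegral_congr_fun measurableSet_Ioc h4] at h2
  linarith

/-- the ratio `m(B_r)/r^n` is bounded on `(0, η]` -/
theorem ratio_bdd {x : M} {n : ℕ} {ω η : ℝ} (hη : 0 < η) (hfin : m (Metric.ball x η) < ∞)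
    (hdens : Tendsto (fun r => m.real (Metric.ball x r) / r ^ n) (𝓝[>] 0) (𝓝 ω)) :
    ∃ C : ℝ, ∀ r ∈ Ioc 0 η, m.real (Metric.ball x r) / r ^ n ≤ C := by
  have h1 := hdens.eventually (eventually_le_nhds (lt_add_one ω))
  obtain ⟨r₀, hr₀, h2⟩ := (mem_nhdsGT_iff_exists_Ioo_subset).1 h1
  have hr₀' : 0 < r₀ := hr₀
  refine ⟨max (ω + 1) (m.real (Metric.ball x η) / r₀ ^ n), fun r hr => ?_⟩
  rcases lt_or_ge r r₀ with h3 | h3
  · exact (h2 ⟨hr.1, h3⟩).trans (le_max_left _ _)
  · refine le_trans ?_ (le_max_right _ _)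
    refine div_le_div₀ measureReal_nonneg ?_ (by positivity) (pow_le_pow_left₀ hr₀'.le h3 n)
    exact measureReal_mono (Metric.ball_subset_ball hr.2) hfin.ne

theorem sqrt_pow_eq {s v : ℝ} (hs : 0 < s) (hv : 0 < v) (n : ℕ) :
    √(2 * s * v) ^ n = s ^ ((n : ℝ) / 2) * (2 * v) ^ ((n : ℝ) / 2) := by
  rw [← Real.mul_rpow hs.le (by positivity), Real.sqrt_eq_rpow, ← Real.rpow_natCast,
    ← Real.rpow_mul (by positivity)]
  congr 1
  · ring
  · ring

/-- **short time limit** for a radial profile -/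
theorem lim_layer {x : M} {n : ℕ} {ω η : ℝ} (hη : 0 < η)
    (hfin : m (Metric.ball x η) < ∞)
    (hdens : Tendsto (fun r => m.real (Metric.ball x r) / r ^ n) (𝓝[>] 0) (𝓝 ω))
    {h h' : ℝ → ℝ} (hc : Continuous h') (hd : ∀ v, HasDerivAt h (h' v) v)
    (hint : IntegrableOn (fun v => h' v * (2 * v) ^ ((n : ℝ) / 2)) (Ioi 0))
    (hV : Tendsto (fun v => v ^ ((n : ℝ) / 2) * h v) atTop (𝓝 0)) :
    Tendsto (fun s => s ^ (-((n : ℝ) / 2)) *
      ∫ y in Metric.ball x η, h (dist x y ^ 2 / (2 * s)) ∂m) (𝓝[>] 0)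
      (𝓝 (-∫ v in Ioi 0, h' v * (ω * (2 * v) ^ ((n : ℝ) / 2)))) := by
  obtain ⟨C, hC⟩ := ratio_bdd hη hfin hdens
  set q : ℝ → ℝ := fun r => m.real (Metric.ball x r) / r ^ n with hq
  have hpos : ∀ᶠ s in 𝓝[>] (0 : ℝ), 0 < s := self_mem_nhdsWithin
  set F : ℝ → ℝ → ℝ := fun s => (Ioc 0 (η ^ 2 / (2 * s))).indicator
    (fun v => h' v * (q √(2 * s * v) * (2 * v) ^ ((n : ℝ) / 2))) with hF
  have e1 : ∀ᶠ s in 𝓝[>] (0 : ℝ), (s ^ (-((n : ℝ) / 2)) *
      (h (η ^ 2 / (2 * s)) * m.real (Metric.ball x η))) - (∫ v in Ioi 0, F s v)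
      = s ^ (-((n : ℝ) / 2)) * ∫ y in Metric.ball x η, h (dist x y ^ 2 / (2 * s)) ∂m := by
    filter_upwards [hpos] with s hs
    rw [layer hη hs hfin hc hd, mul_sub]
    congr 1
    have e2 : ∫ v in Ioi 0, F s v = ∫ v in Ioc 0 (η ^ 2 / (2 * s)),
        h' v * (q √(2 * s * v) * (2 * v) ^ ((n : ℝ) / 2)) := by
      simp only [hF]
      rw [setIntegral_indicator measurableSet_Ioc]
      congr 2
      exact inter_eq_right.2 Ioc_subset_Ioi_self
    rw [e2, ← integral_const_mul]
    refine setIntegral_congr_fun measurableSet_Ioc fun v hv => ?_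
    have hv0 : 0 < v := hv.1
    have e3 := sqrt_pow_eq hs hv0 n
    have hsn : 0 < s ^ ((n : ℝ) / 2) := Real.rpow_pos_of_pos hs _
    have hvn : 0 < (2 * v) ^ ((n : ℝ) / 2) := Real.rpow_pos_of_pos (by positivity) _
    simp only [hq]
    rw [e3, Real.rpow_neg hs.le]
    field_simp
  refine Tendsto.congr' e1 ?_
  rw [show (-∫ v in Ioi (0 : ℝ), h' v * (ω * (2 * v) ^ ((n : ℝ) / 2)))
    = 0 - ∫ v in Ioi (0 : ℝ), h' v * (ω * (2 * v) ^ ((n : ℝ) / 2)) from (zero_sub _).symm]
  refine Tendsto.sub ?_ ?_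
  · -- the boundary term
    have h1 : Tendsto (fun s : ℝ => η ^ 2 / (2 * s)) (𝓝[>] 0) atTop := by
      have h2 : Tendsto (fun s : ℝ => s⁻¹) (𝓝[>] 0) atTop := tendsto_inv_nhdsGT_zero
      have h3 : Tendsto (fun s : ℝ => η ^ 2 / 2 * s⁻¹) (𝓝[>] 0) atTop :=
        h2.const_mul_atTop (by positivity)
      refine h3.congr fun s => ?_
      rw [← div_eq_mul_inv, div_div]
    have h4 := ((hV.comp h1).const_mul ((2 / η ^ 2) ^ ((n : ℝ) / 2))).mul_const
      (m.real (Metric.ball x η))
    rw [mul_zero, zero_mul] at h4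
    refine h4.congr' ?_
    filter_upwards [hpos] with s hs
    simp only [Function.comp_apply]
    have e4 : s ^ (-((n : ℝ) / 2)) = (2 / η ^ 2) ^ ((n : ℝ) / 2)
        * (η ^ 2 / (2 * s)) ^ ((n : ℝ) / 2) := by
      rw [← Real.mul_rpow (by positivity) (by positivity), Real.rpow_neg hs.le,
        ← Real.inv_rpow hs.le]
      congr 1
      field_simp
    rw [e4]
    ring
  · -- dominated convergence
    refine tendsto_integral_filter_of_dominated_convergence
      (fun v => |C| * |h' v * (2 * v) ^ ((n : ℝ) / 2)|) ?_ ?_ (hint.abs.const_mul _) ?_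
    · filter_upwards [hpos] with s hs
      have hqm : Measurable q := by
        have h1 : Measurable fun r : ℝ => m.real (Metric.ball x r) := by
          have hmono : Monotone fun r : ℝ => m (Metric.ball x r) := fun a b hab =>
            measure_mono (Metric.ball_subset_ball hab)
          exact hmono.measurable.ennreal_toReal
        exact h1.div (measurable_id.pow_const n)
      refine Measurable.aestronglyMeasurable ?_
      refine Measurable.indicator ?_ measurableSet_Ioc
      refine hc.measurable.mul ((hqm.comp (by fun_prop)).mul ?_)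
      exact (measurable_const.mul measurable_id).pow_const _
    · filter_upwards [hpos] with s hs
      refine Eventually.of_forall fun v => ?_
      simp only [hF]
      by_cases hv : v ∈ Ioc 0 (η ^ 2 / (2 * s))
      · rw [indicator_of_mem hv, Real.norm_eq_abs]
        have hr0 : 0 < √(2 * s * v) := Real.sqrt_pos.2 (by have := hv.1; positivity)
        have h1 := hC √(2 * s * v) ⟨hr0, sqrt_mul_two_lt hs hη hv.2⟩
        have h2 : 0 ≤ q √(2 * s * v) := div_nonneg measureReal_nonneg (by positivity)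
        have h3 : |q √(2 * s * v)| ≤ |C| := abs_le_abs h1 (by linarith)
        rw [show h' v * (q √(2 * s * v) * (2 * v) ^ ((n : ℝ) / 2))
          = q √(2 * s * v) * (h' v * (2 * v) ^ ((n : ℝ) / 2)) by ring, abs_mul]
        exact mul_le_mul_of_nonneg_right h3 (abs_nonneg _)
      · rw [indicator_of_notMem hv, norm_zero]
        positivity
    · refine (ae_restrict_iff' measurableSet_Ioi).2 (Eventually.of_forall fun v hv => ?_)
      have hv0 : 0 < v := hv
      have h1 : Tendsto (fun s : ℝ => √(2 * s * v)) (𝓝[>] 0) (𝓝[>] 0) := by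
        refine tendsto_nhdsWithin_iff.2 ⟨?_, ?_⟩
        · have h2 : Tendsto (fun s : ℝ => √(2 * s * v)) (𝓝 0) (𝓝 √(2 * 0 * v)) :=
            (by fun_prop : Continuous fun s : ℝ => √(2 * s * v)).tendsto 0
          rw [mul_zero, zero_mul, Real.sqrt_zero] at h2
          exact h2.mono_left nhdsWithin_le_nhds
        · filter_upwards [hpos] with s hs
          exact Real.sqrt_pos.2 (by positivity)
      have h3 : Tendsto (fun s => h' v * (q √(2 * s * v) * (2 * v) ^ ((n : ℝ) / 2))) (𝓝[>] 0)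
          (𝓝 (h' v * (ω * (2 * v) ^ ((n : ℝ) / 2)))) :=
        ((hdens.comp h1).mul_const _).const_mul _
      refine h3.congr' ?_
      have h4 : ∀ᶠ s in 𝓝[>] (0 : ℝ), s < η ^ 2 / (2 * v) :=
        nhdsWithin_le_nhds (eventually_lt_nhds (by positivity))
      filter_upwards [hpos, h4] with s hs hsv
      have hv' : v ∈ Ioc 0 (η ^ 2 / (2 * s)) := by
        refine ⟨hv0, ?_⟩
        rw [lt_div_iff₀ (by positivity)] at hsv
        rw [le_div_iff₀ (by positivity)]
        linarith
      simp only [hF]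
      rw [indicator_of_mem hv']

/-- the profile `v^k e^(-v)` and its derivative -/
theorem hasDerivAt_prof (k : ℕ) (v : ℝ) : HasDerivAt (fun v : ℝ => v ^ k * exp (-v))
    (k * v ^ (k - 1) * exp (-v) - v ^ k * exp (-v)) v := by
  have h1 := (hasDerivAt_pow k v).mul ((hasDerivAt_neg v).exp)
  have e : k * v ^ (k - 1) * exp (-v) + v ^ k * (exp (-v) * -1)
      = k * v ^ (k - 1) * exp (-v) - v ^ k * exp (-v) := by ring
  rw [← e]
  exact h1

theorem prof_int (k : ℕ) {c : ℝ} (hc : 0 ≤ c) :
    IntegrableOn (fun v : ℝ => v ^ k * exp (-v) * (2 * v) ^ c) (Ioi 0) ∧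
      ∫ v in Ioi (0 : ℝ), v ^ k * exp (-v) * (2 * v) ^ c
        = 2 ^ c * Real.Gamma (c + k + 1) := by
  have hpos : (0 : ℝ) < c + k + 1 := by positivity
  have h1 := Real.GammaIntegral_convergent hpos
  have e1 : ∀ v ∈ Ioi (0 : ℝ), v ^ k * exp (-v) * (2 * v) ^ c
      = 2 ^ c * (exp (-v) * v ^ (c + k + 1 - 1)) := by
    intro v hv
    have hv0 : (0 : ℝ) < v := hv
    rw [Real.mul_rpow (by norm_num) hv0.le, add_sub_cancel_right, Real.rpow_add hv0,
      Real.rpow_natCast]
    ring
  refine ⟨?_, ?_⟩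
  · exact IntegrableOn.congr_fun (h1.const_mul (2 ^ c)) (fun v hv => (e1 v hv).symm)
      measurableSet_Ioi
  · rw [setIntegral_congr_fun measurableSet_Ioi e1, integral_const_mul,
      Real.Gamma_eq_integral hpos]

/-- the limit of the `k`-th moment of the Gaussian on a ball -/
noncomputable def momL (n : ℕ) (θ : ℝ) (k : ℕ) : ℝ :=
  θ * (2 ^ ((n : ℝ) / 2) * Real.Gamma ((n : ℝ) / 2 + k + 1)
    - k * (2 ^ ((n : ℝ) / 2) * Real.Gamma ((n : ℝ) / 2 + (k - 1 : ℕ) + 1)))

theorem lim_mom {x : M} {n : ℕ} {θ η : ℝ} (hη : 0 < η) (hfin : m (Metric.ball x η) < ∞)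
    (hdens : Tendsto (fun r => m.real (Metric.ball x r) / r ^ n) (𝓝[>] 0) (𝓝 θ)) (k : ℕ) :
    Tendsto (fun s => s ^ (-((n : ℝ) / 2)) * ∫ y in Metric.ball x η,
      (dist x y ^ 2 / (2 * s)) ^ k * exp (-(dist x y ^ 2 / (2 * s))) ∂m) (𝓝[>] 0)
      (𝓝 (momL n θ k)) := by
  have hn : (0 : ℝ) ≤ (n : ℝ) / 2 := by positivity
  obtain ⟨i1, j1⟩ := prof_int k hn
  obtain ⟨i2, j2⟩ := prof_int (k - 1) hn
  have e1 : ∀ v : ℝ, (k * v ^ (k - 1) * exp (-v) - v ^ k * exp (-v)) * (2 * v) ^ ((n : ℝ) / 2)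
      = k * (v ^ (k - 1) * exp (-v) * (2 * v) ^ ((n : ℝ) / 2))
        - v ^ k * exp (-v) * (2 * v) ^ ((n : ℝ) / 2) := fun v => by ring
  have h1 := lim_layer (h := fun v : ℝ => v ^ k * exp (-v))
    (h' := fun v : ℝ => k * v ^ (k - 1) * exp (-v) - v ^ k * exp (-v)) hη hfin hdens
    (by fun_prop) (fun v => hasDerivAt_prof k v) (by
      simp only [e1]
      exact (i2.const_mul (k : ℝ)).sub i1) (by
      have h2 := tendsto_rpow_mul_exp_neg_mul_atTop_nhds_zero ((n : ℝ) / 2 + k) 1 one_pos
      refine h2.congr' ?_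
      filter_upwards [eventually_gt_atTop 0] with v hv
      rw [Real.rpow_add hv, Real.rpow_natCast]
      ring_nf)
  refine h1.trans_eq ?_
  congr 1
  have e2 : ∀ v : ℝ, (k * v ^ (k - 1) * exp (-v) - v ^ k * exp (-v))
      * (θ * (2 * v) ^ ((n : ℝ) / 2))
      = θ * (k * (v ^ (k - 1) * exp (-v) * (2 * v) ^ ((n : ℝ) / 2))
        - v ^ k * exp (-v) * (2 * v) ^ ((n : ℝ) / 2)) := fun v => by ring
  simp only [e2]
  rw [integral_const_mul, integral_sub (i2.const_mul (k : ℝ)) i1, integral_const_mul, j1, j2,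
    momL]
  ring

end Vale.Agent.P233.H866
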