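import Vale.Agent.P233.MathlibUsed2
import Mathlib.Analysis.ODE.Gronwall
import Mathlib.Analysis.SpecialFunctions.Log.Basic
import Mathlib.Analysis.SpecialFunctions.Exp

/-!
P233 (RCDA), parts S5, S6 (helper866): the real-variable part: optimisation of the sum of the two
entropy inequalities, the contraction rate, the Gronwall lemma with left Dini derivatives.
-/

set_option linter.all false

open Filter Topology Set Real

namespace Vale.Agent.P233.H866

/-- **optimisation in the two time scales** -/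
theorem opt {n al a1 a2 W : ℝ} (hn : 0 < n) (hal : 0 < al)
    (h : ∀ l > 0, ∀ l' > 0, 0 ≤ -(n / 2) * log (l * l') - n + (l * a1 + l' * a2) / (2 * al) - W) :
    0 < a1 ∧ 0 < a2 ∧ n ^ 2 * al ^ 2 * exp (2 * W / n) ≤ a1 * a2 := by
  have key : ∀ x y : ℝ, (∀ l > 0, 0 ≤ -(n / 2) * log l - n + (l * x + y) / (2 * al) - W) →
      0 < x := by
    intro x y hx
    by_contra hx0
    push Not at hx0
    set A : ℝ := |y / (2 * al)| + |W| + 1 with hA
    have hA0 : 0 < A := by positivity
    have h1 := hx (exp (2 * A / n)) (exp_pos _)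
    rw [log_exp] at h1
    have h2 : -(n / 2) * (2 * A / n) = -A := by field_simp
    rw [h2] at h1
    have h3 : (exp (2 * A / n) * x + y) / (2 * al) ≤ y / (2 * al) := by
      refine div_le_div_of_nonneg_right ?_ (by positivity)
      have := mul_nonpos_of_nonneg_of_nonpos (exp_pos (2 * A / n)).le hx0
      linarith
    have h4 := le_abs_self (y / (2 * al))
    have h5 := neg_abs_le W
    linarith
  have h1 : 0 < a1 := key a1 a2 fun l hl => by
    have := h l hl 1 one_pos
    rwa [mul_one, one_mul] at this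
  have h2 : 0 < a2 := key a2 a1 fun l hl => by
    have := h 1 one_pos l hl
    rw [one_mul, one_mul] at this
    rwa [add_comm a1] at this
  refine ⟨h1, h2, ?_⟩
  have h3 := h (n * al / a1) (by positivity) (n * al / a2) (by positivity)
  have e1 : (n * al / a1 * a1 + n * al / a2 * a2) / (2 * al) = n := by
    field_simp
    norm_num
  have e2 : n * al / a1 * (n * al / a2) = n ^ 2 * al ^ 2 / (a1 * a2) := by
    field_simp
  rw [e1, e2] at h3
  have hpos : 0 < n ^ 2 * al ^ 2 / (a1 * a2) := by positivity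
  have h4 : log (n ^ 2 * al ^ 2 / (a1 * a2)) ≤ -(2 * W / n) := by
    have h5 : (n / 2) * log (n ^ 2 * al ^ 2 / (a1 * a2)) ≤ -W := by linarith
    have h6 : -(2 * W / n) = (2 / n) * -W := by ring
    rw [h6]
    have h7 := mul_le_mul_of_nonneg_left h5 (by positivity : 0 ≤ 2 / n)
    have h8 : 2 / n * (n / 2 * log (n ^ 2 * al ^ 2 / (a1 * a2)))
        = log (n ^ 2 * al ^ 2 / (a1 * a2)) := by field_simp
    rwa [h8] at h7
  have h5 : n ^ 2 * al ^ 2 / (a1 * a2) ≤ exp (-(2 * W / n)) := by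
    rw [← exp_log hpos]
    exact exp_le_exp.2 h4
  rw [div_le_iff₀ (by positivity), exp_neg] at h5
  have h6 : 0 < exp (2 * W / n) := exp_pos _
  calc n ^ 2 * al ^ 2 * exp (2 * W / n)
      ≤ ((exp (2 * W / n))⁻¹ * (a1 * a2)) * exp (2 * W / n) :=
        mul_le_mul_of_nonneg_right h5 h6.le
    _ = a1 * a2 := by field_simp

/-- **the contraction rate**: `e` is a bound of `1 - al` (`D/δ`, or `0`) -/
theorem rate {n p q D al Ac G1 G2 K e : ℝ} (hn : 0 < n) (hp : 0 ≤ p) (hq : 0 ≤ q)
    (hal : 0 < al) (he : 1 - al ≤ e) (hAc : K * D ≤ K * Ac)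
    (h1 : 0 ≤ n + G1 - 2 * K / 3 * D) (h2 : 0 ≤ n + G2 - 2 * K / 3 * D)
    (h : n ^ 2 * al ^ 2 * exp (2 * (K / (3 * al) * Ac) / n)
      ≤ (n + G1 - 2 * K / 3 * D) * (n + G2 - 2 * K / 3 * D)) :
    -(p * G1 + q * G2) / 2 ≤ n / 2 * (√p - √q) ^ 2 + n * √(p * q) * e
      - K / 3 * (√(p * q) + p + q) * D := by
  set a1 := n + G1 - 2 * K / 3 * D with ha1
  set a2 := n + G2 - 2 * K / 3 * D with ha2
  set W := K / (3 * al) * Ac with hW
  have hpq : √(p * q) = √p * √q := sqrt_mul hp q
  have hs0 : 0 ≤ √(p * q) := sqrt_nonneg _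
  have sp : √p ^ 2 = p := sq_sqrt hp
  have sq' : √q ^ 2 = q := sq_sqrt hq
  -- `√(a1 a2) ≥ n al exp(W/n)`
  have h3 : n * al * exp (W / n) ≤ √a1 * √a2 := by
    rw [← sqrt_mul h1]
    refine le_sqrt_of_sq_le ?_
    have e1 : (n * al * exp (W / n)) ^ 2 = n ^ 2 * al ^ 2 * exp (2 * W / n) := by
      rw [mul_pow, mul_pow, ← exp_nat_mul]
      congr 2
      push_cast
      ring
    rw [e1]
    exact h
  have h4 : al + K * Ac / (3 * n) ≤ al * exp (W / n) := by
    have h5 := add_one_le_exp (W / n)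
    have h6 := mul_le_mul_of_nonneg_left h5 hal.le
    have h7 : al * (W / n + 1) = al + K * Ac / (3 * n) := by
      rw [hW]; field_simp; ring
    linarith
  have h5 : 2 * (√(p * q) * (√a1 * √a2)) ≤ p * a1 + q * a2 := by
    have s1 : √a1 ^ 2 = a1 := sq_sqrt h1
    have s2 : √a2 ^ 2 = a2 := sq_sqrt h2
    have h6 : 0 ≤ (√p * √a1 - √q * √a2) ^ 2 := sq_nonneg _
    have h7 : (√p * √a1 - √q * √a2) ^ 2 = √p ^ 2 * √a1 ^ 2 + √q ^ 2 * √a2 ^ 2
        - 2 * (√p * √q * (√a1 * √a2)) := by ring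
    rw [h7, sp, sq', s1, s2] at h6
    rw [hpq]
    linarith
  have h6 : √(p * q) * (n * (al + K * Ac / (3 * n))) ≤ √(p * q) * (√a1 * √a2) := by
    refine mul_le_mul_of_nonneg_left ?_ hs0
    refine le_trans ?_ h3
    rw [mul_assoc]
    exact mul_le_mul_of_nonneg_left h4 hn.le
  have h7 : √(p * q) * (n * (al + K * Ac / (3 * n)))
      = √(p * q) * n * al + √(p * q) * (K / 3 * Ac) := by
    field_simp
  have h8 : √(p * q) * n * (1 - al) ≤ √(p * q) * n * e :=
    mul_le_mul_of_nonneg_left he (by positivity)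
  have h9 : √(p * q) * (K / 3 * D) ≤ √(p * q) * (K / 3 * Ac) := by
    refine mul_le_mul_of_nonneg_left ?_ hs0
    linarith
  have e1 : -(p * G1 + q * G2) / 2 = n / 2 * (p + q) - K / 3 * (p + q) * D - (p * a1 + q * a2) / 2 := by
    rw [ha1, ha2]; ring
  have e2 : (√p - √q) ^ 2 = p + q - 2 * √(p * q) := by
    rw [hpq]
    calc (√p - √q) ^ 2 = √p ^ 2 + √q ^ 2 - 2 * (√p * √q) := by ring
      _ = p + q - 2 * (√p * √q) := by rw [sp, sq']
  rw [e1, e2]
  rw [h7] at h6
  nlinarith

/-- **Gronwall with left difference quotients** -/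
theorem gron_left {D : ℝ → ℝ} {T b C : ℝ} (hT : 0 ≤ T) (hb : 0 ≤ b)
    (hD : ContinuousOn D (Icc 0 T))
    (h : ∀ t ∈ Ioc (0 : ℝ) T, ∀ ε > 0, ∃ᶠ h in 𝓝[>] (0 : ℝ),
      D t - D (t - h) ≤ h * (b + C * D t + ε)) :
    D T ≤ exp (C * T) * D 0 + b * T * exp (max C 0 * T) := by
  set g : ℝ → ℝ := fun s => -D (T - s) with hg
  have hmaps : MapsTo (fun s => T - s) (Icc 0 T) (Icc 0 T) := fun s hs =>
    ⟨by linarith [hs.2], by linarith [hs.1]⟩
  have hgc : ContinuousOn g (Icc 0 T) :=
    (hD.comp (continuousOn_const.sub continuousOn_id) hmaps).neg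
  have hf' : ∀ x ∈ Ico 0 T, ∀ r, (b - C * g x) < r → ∃ᶠ z in 𝓝[>] x,
      (z - x)⁻¹ * (g z - g x) < r := by
    intro x hx r hr
    have hx' : T - x ∈ Ioc (0 : ℝ) T := ⟨by linarith [hx.2], by linarith [hx.1]⟩
    have h1 := h (T - x) hx' ((r - (b - C * g x)) / 2) (by linarith)
    have hmap : Tendsto (fun h : ℝ => x + h) (𝓝[>] 0) (𝓝[>] x) := by
      refine tendsto_nhdsWithin_iff.2 ⟨?_, ?_⟩
      · have : Tendsto (fun h : ℝ => x + h) (𝓝 0) (𝓝 (x + 0)) :=
          (continuous_const.add continuous_id).tendsto 0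
        rw [add_zero] at this
        exact this.mono_left nhdsWithin_le_nhds
      · filter_upwards [self_mem_nhdsWithin] with h hh
        show x < x + h
        have : 0 < h := hh
        linarith
    have h2 : ∃ᶠ h in 𝓝[>] (0 : ℝ), (x + h - x)⁻¹ * (g (x + h) - g x) < r := by
      have h3 : ∃ᶠ h in 𝓝[>] (0 : ℝ), (D (T - x) - D (T - x - h)
          ≤ h * (b + C * D (T - x) + (r - (b - C * g x)) / 2)) ∧ h ∈ Ioi (0 : ℝ) :=
        h1.and_eventually self_mem_nhdsWithin
      refine h3.mono fun h hh => ?_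
      obtain ⟨hh1, hh2⟩ := hh
      have hh0 : 0 < h := hh2
      have e1 : g (x + h) - g x = D (T - x) - D (T - x - h) := by
        simp only [hg]
        rw [show T - (x + h) = T - x - h by ring]
        ring
      rw [e1, add_sub_cancel_left]
      have h4 : h⁻¹ * (D (T - x) - D (T - x - h)) ≤ b + C * D (T - x) + (r - (b - C * g x)) / 2 := by
        rw [inv_mul_le_iff₀ hh0]
        exact hh1
      have e2 : g x = -D (T - x) := rfl
      rw [e2] at h4 hr
      linarith
    exact hmap.frequently h2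
  have h1 := le_gronwallBound_of_liminf_deriv_right_le (f := g) (f' := fun x => b - C * g x)
    (δ := g 0) (K := -C) (ε := b) hgc hf' le_rfl (fun x hx => by linarith) T ⟨hT, le_rfl⟩
  rw [sub_zero] at h1
  have e0 : g 0 = -D T := by simp [hg]
  have e1 : g T = -D 0 := by simp [hg]
  rw [e0, e1] at h1
  have hE : 0 < exp (C * T) := exp_pos _
  rcases eq_or_ne C 0 with hC | hC
  · rw [hC, neg_zero, gronwallBound_K0] at h1
    rw [hC, zero_mul, exp_zero, max_self, zero_mul, exp_zero]
    linarith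
  · rw [gronwallBound_of_K_ne_0 (neg_ne_zero.2 hC)] at h1
    have e2 : exp (-C * T) = (exp (C * T))⁻¹ := by rw [neg_mul, exp_neg]
    beta_reduce at h1
    rw [e2] at h1
    have h2 : D T ≤ exp (C * T) * D 0 + b / C * (exp (C * T) - 1) := by
      have h3 := mul_le_mul_of_nonneg_left h1 hE.le
      have e3 : exp (C * T) * (-D T * (exp (C * T))⁻¹ + b / -C * ((exp (C * T))⁻¹ - 1))
          = -D T + b / C * (exp (C * T) - 1) := by
        field_simp
        ring
      rw [e3] at h3
      linarith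
    refine h2.trans (add_le_add le_rfl ?_)
    have h3 : (exp (C * T) - 1) / C ≤ T * exp (max C 0 * T) := by
      rcases lt_or_gt_of_ne hC with hC0 | hC0
      · rw [max_eq_right hC0.le, zero_mul, exp_zero, mul_one, div_le_iff_of_neg hC0]
        have := add_one_le_exp (C * T)
        linarith
      · rw [max_eq_left hC0.le, div_le_iff₀ hC0]
        have h4 := add_one_le_exp (-(C * T))
        rw [exp_neg] at h4
        have h5 := mul_le_mul_of_nonneg_right h4 hE.le
        rw [inv_mul_cancel₀ hE.ne'] at h5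
        nlinarith
    calc b / C * (exp (C * T) - 1) = b * ((exp (C * T) - 1) / C) := by ring
      _ ≤ b * (T * exp (max C 0 * T)) := mul_le_mul_of_nonneg_left h3 hb
      _ = b * T * exp (max C 0 * T) := by ring

end Vale.Agent.P233.H866
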