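import Vale.Agent.P233.RA.IfST
import Vale.Agent.P233.H886.CDelta
import Vale.Agent.P233.H866.RS5

/-! P233 RCDA, block S6: from S5 (local inequality for optimal pairs) to the contraction
of the transport cost along the heat flow with two speeds. -/

set_option linter.all false

open MeasureTheory Filter Topology Set
open scoped ENNReal NNReal

universe u

namespace Vale.Agent.P233.H866

open Vale.Agent.P233.RA

/-- the case in which nothing is transported inside the cut-off region -/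
theorem rate0 {n p q D G1 G2 K e : ℝ} (hn : 0 < n) (hp : 0 ≤ p) (hq : 0 ≤ q) (he : 1 ≤ e)
    (hD : 0 ≤ D) (hK : K ≤ 0) (h1 : 0 ≤ n + G1 - 2 * K / 3 * D)
    (h2 : 0 ≤ n + G2 - 2 * K / 3 * D) :
    -(p * G1 + q * G2) / 2 ≤ n / 2 * (√p - √q) ^ 2 + n * √(p * q) * e
      - K / 3 * (√(p * q) + p + q) * D := by
  have hpq : √(p * q) = √p * √q := Real.sqrt_mul hp q
  have hs0 : 0 ≤ √(p * q) := Real.sqrt_nonneg _
  have sp : √p ^ 2 = p := Real.sq_sqrt hp
  have sq' : √q ^ 2 = q := Real.sq_sqrt hq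
  have a1 := mul_nonneg hp h1
  have a2 := mul_nonneg hq h2
  have a3 : 0 ≤ n * √(p * q) * (e - 1) := by
    have : 0 ≤ e - 1 := by linarith
    positivity
  have a4 : 0 ≤ -K * √(p * q) * D := by
    have : 0 ≤ -K := by linarith
    positivity
  have e1 : (√p - √q) ^ 2 = p + q - 2 * √(p * q) := by
    rw [hpq]
    nlinarith
  rw [e1]
  nlinarith

variable {M : Type u} [MetricSpace M] [MeasurableSpace M] {m : Measure M} {n : ℕ} {K θ δ : ℝ}

section basic

variable {ρ ρ' σ σ' f g : M →ₘ[m] ℝ}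

theorem cdI (h : CD m ρ ρ') : Integrable ρ m := int_of_mem h.m1

theorem cdI' (h : CD m ρ ρ') : Integrable ρ' m := int_of_mem h.m1'

theorem cdA (h : CD m ρ ρ') : ∀ᵐ x ∂m, 0 ≤ ρ x := nonneg_iff_ae.1 h.nonneg

theorem cd2' (h : CD m ρ ρ') : MemLp ρ' 2 m := h.lap.2.1

theorem cdP (h : CD m ρ ρ') : IsProbabilityMeasure (dm ρ) := by
  constructor
  unfold dm
  rw [withDensity_apply _ MeasurableSet.univ, Measure.restrict_univ,
    ← ofReal_integral_eq_lintegral_ofReal (cdI h) (cdA h)]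
  have h1 : ∫ x, ρ x ∂m = 1 := h.mass
  rw [h1, ENNReal.ofReal_one]

theorem dm_ac (ρ : M →ₘ[m] ℝ) : dm ρ ≪ m := withDensity_absolutelyContinuous _ _

theorem int_dm [BorelSpace M] [SecondCountableTopology M] [CompleteSpace M] (h : CD m ρ ρ')
    (φ : M → ℝ) : ∫ x, φ x ∂(dm ρ) = ∫ x, φ x * ρ x ∂m := by
  unfold dm
  rw [H886.integral_withDens (cdI h).1.aemeasurable (cdA h)]
  exact integral_congr_ae (Eventually.of_forall fun x => mul_comm _ _)

/-- the `L¹` norm -/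
noncomputable def N1 (f : M →ₘ[m] ℝ) : ℝ := ∫ x, |f x| ∂m

theorem N1_nonneg (f : M →ₘ[m] ℝ) : 0 ≤ N1 f := integral_nonneg fun _ => abs_nonneg _

theorem N1_sub_eq (f g : M →ₘ[m] ℝ) : ∫ x, |f x - g x| ∂m = N1 (f - g) := by
  unfold N1
  refine integral_congr_ae ?_
  filter_upwards [sub_ae f g] with x hx
  rw [hx]

end basic

section plans

variable [BorelSpace M] [SecondCountableTopology M] [CompleteSpace M] {ρ ρ' σ σ' f g : M →ₘ[m] ℝ}

theorem cost_cc {δ : ℝ} (hδ : 0 ≤ δ) : H886.Cost (cc δ : M → M → ℝ) δ (√(2 * δ)) :=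
  H886.cost_min hδ

theorem opt_plan {μ ν : Measure M} {γ : Measure (M × M)} {φ ψ : M → ℝ} (h : Opt δ μ ν γ φ ψ) :
    H886.IsPlan μ ν γ := ⟨h.fst, h.snd⟩

/-- Kantorovich duality in the form used in part S -/
theorem exists_opt' (hδ : 0 ≤ δ) (μ ν : Measure M) [IsProbabilityMeasure μ]
    [IsProbabilityMeasure ν] : ∃ (γ : Measure (M × M)) (φ ψ : M → ℝ), Opt δ μ ν γ φ ψ ∧
      ∫ z, cc δ z.1 z.2 ∂γ = H886.Dc (cc δ) μ ν ∧
      H886.Dc (cc δ) μ ν = ∫ x, φ x ∂μ + ∫ y, ψ y ∂ν := by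
  obtain ⟨γ, f, g, hγ, hγD, -, hfg, hae, hf1, hg1, hf2, hg2, hdual⟩ :=
    H886.kant (cost_cc (M := M) hδ) μ ν
  have hfB : ∀ x, |f x| ≤ δ := fun x => abs_le.2 ⟨by linarith [(hf1 x).1], (hf1 x).2⟩
  have hgB : ∀ x, |g x| ≤ δ := fun x => abs_le.2 ⟨(hg1 x).1, by linarith [(hg1 x).2]⟩
  have hL0 : (0 : ℝ) ≤ √(2 * δ) := Real.sqrt_nonneg _
  have hfL : BLip f := ⟨⟨⟨_, hL0⟩, LipschitzWith.of_dist_le_mul fun x y => by
    rw [Real.dist_eq]; exact hf2 x y⟩, δ, hfB⟩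
  have hgL : BLip g := ⟨⟨⟨_, hL0⟩, LipschitzWith.of_dist_le_mul fun x y => by
    rw [Real.dist_eq]; exact hg2 x y⟩, δ, hgB⟩
  exact ⟨γ, f, g, ⟨⟨hfL, hgL, hfg⟩, hfB, hgB, hγ.fst, hγ.snd, hae⟩, hγD, hdual⟩

/-- the cost is Lipschitz in the densities -/
theorem Dc_lip (hδ : 0 ≤ δ) {ρ₁ ρ₁' σ₁ σ₁' ρ₂ ρ₂' σ₂ σ₂' : M →ₘ[m] ℝ} (h1 : CD m ρ₁ ρ₁')
    (h2 : CD m σ₁ σ₁') (h3 : CD m ρ₂ ρ₂') (h4 : CD m σ₂ σ₂') :
    |H886.Dc (cc δ) (dm ρ₁) (dm σ₁) - H886.Dc (cc δ) (dm ρ₂) (dm σ₂)| ≤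
      δ * (N1 (ρ₁ - ρ₂) + N1 (σ₁ - σ₂)) := by
  haveI : IsProbabilityMeasure (m.withDensity fun x => ENNReal.ofReal (ρ₁ x)) := cdP h1
  haveI : IsProbabilityMeasure (m.withDensity fun x => ENNReal.ofReal (σ₁ x)) := cdP h2
  haveI : IsProbabilityMeasure (m.withDensity fun x => ENNReal.ofReal (ρ₂ x)) := cdP h3
  haveI : IsProbabilityMeasure (m.withDensity fun x => ENNReal.ofReal (σ₂ x)) := cdP h4
  have h := H886.Dc_dens (m := m) (cost_cc (M := M) hδ) (cdI h1) (cdI h2) (cdI h3) (cdI h4)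
    (cdA h1) (cdA h2) (cdA h3) (cdA h4)
  rw [N1_sub_eq, N1_sub_eq] at h
  exact h

/-- the product plan -/
theorem Dc_prod (hδ : 0 ≤ δ) (h1 : CD m ρ ρ') (h2 : CD m σ σ') :
    H886.Dc (cc δ) (dm ρ) (dm σ) ≤ ∫ x, ∫ y, cc δ x y * (ρ x * σ y) ∂m ∂m := by
  haveI := cdP h1
  haveI := cdP h2
  have h := H886.Dc_le (cost_cc (M := M) hδ) (H886.isPlan_prod (dm ρ) (dm σ))
  rw [integral_prod _ ((cost_cc hδ).integrable _), int_dm h1] at h
  refine h.trans (le_of_eq ?_)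
  refine integral_congr_ae (Eventually.of_forall fun x => ?_)
  show (∫ y, cc δ x y ∂(dm σ)) * ρ x = _
  rw [int_dm h2, ← integral_mul_const]
  refine integral_congr_ae (Eventually.of_forall fun y => ?_)
  show cc δ x y * σ y * ρ x = cc δ x y * (ρ x * σ y)
  ring

end plans

/-- The local inequality for optimal pairs. -/
def LocI (m : Measure M) (n : ℕ) (K δ : ℝ) : Prop :=
  ∀ ρ ρ' σ σ' : M →ₘ[m] ℝ, CD m ρ ρ' → CD m σ σ' →
    ∀ (γ : Measure (M × M)) (φ ψ : M → ℝ), Opt δ (dm ρ) (dm σ) γ φ ψ →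
    ∀ p q : ℝ, 0 ≤ p → 0 ≤ q →
    p / 2 * ∫ x, φ x * ρ' x ∂m + q / 2 * ∫ y, ψ y * σ' y ∂m ≤
      n / 2 * (√p - √q) ^ 2 + Cst n K δ p q * ∫ z, cc δ z.1 z.2 ∂γ

section main

variable [BorelSpace M] [ProperSpace M] {ρ ρ' σ σ' f g : M →ₘ[m] ℝ}

theorem cc_nonneg (hδ : 0 ≤ δ) (x y : M) : 0 ≤ cc δ x y := (cost_cc hδ).nonneg x y

/-- from the output of S5 to the local inequality -/
theorem locI_of (hn : 0 < n) (hok : Okd M K δ)
    (h5 : ∀ (ρ ρ' σ σ' : M →ₘ[m] ℝ), CD m ρ ρ' → CD m σ σ' →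
      ∀ (γ : Measure (M × M)) (φ ψ : M → ℝ), Opt δ (dm ρ) (dm σ) γ φ ψ →
      0 ≤ aS n K δ γ φ ρ' ∧ 0 ≤ aS n K δ γ ψ σ' ∧
      (0 < (γ (cutA M δ)).toReal →
        (n : ℝ) ^ 2 * (γ (cutA M δ)).toReal ^ 2 * Real.exp (2 * K / (3 * n *
          (γ (cutA M δ)).toReal) * ∫ z in cutA M δ, cc δ z.1 z.2 ∂γ)
            ≤ aS n K δ γ φ ρ' * aS n K δ γ ψ σ')) : LocI m n K δ := by
  intro ρ ρ' σ σ' hρ hσ γ φ ψ ho p q hp hq
  obtain ⟨h1, h2, h3⟩ := h5 ρ ρ' σ σ' hρ hσ γ φ ψ ho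
  have hδ : 0 < δ := hok.1
  have hn' : (0 : ℝ) < n := by exact_mod_cast hn
  haveI := cdP hρ
  haveI := cdP hσ
  haveI : IsProbabilityMeasure γ := (opt_plan ho).isProb
  have hc := cost_cc (M := M) hδ.le
  have hci := hc.integrable γ
  have hcn : ∀ z : M × M, 0 ≤ cc δ z.1 z.2 := fun z => hc.nonneg _ _
  set D := ∫ z, cc δ z.1 z.2 ∂γ with hD
  set Ac := ∫ z in cutA M δ, cc δ z.1 z.2 ∂γ with hAc
  set al := (γ (cutA M δ)).toReal with hal
  have hAmeas : MeasurableSet (cutA M δ) := by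
    have : Measurable fun z : M × M => dist z.1 z.2 ^ 2 / 2 :=
      ((continuous_fst.dist continuous_snd).pow 2 |>.div_const 2).measurable
    exact this measurableSet_Iio
  have hD0 : 0 ≤ D := integral_nonneg hcn
  have hAD : Ac ≤ D := setIntegral_le_integral hci (Eventually.of_forall hcn)
  have hsplit : Ac + ∫ z in (cutA M δ)ᶜ, cc δ z.1 z.2 ∂γ = D := integral_add_compl hAmeas hci
  have hcompl : ∫ z in (cutA M δ)ᶜ, cc δ z.1 z.2 ∂γ = δ * (1 - al) := by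
    have e1 : ∫ z in (cutA M δ)ᶜ, cc δ z.1 z.2 ∂γ = ∫ z in (cutA M δ)ᶜ, δ ∂γ := by
      refine setIntegral_congr_fun hAmeas.compl fun z hz => ?_
      have hz' : δ ≤ dist z.1 z.2 ^ 2 / 2 := not_lt.1 hz
      exact min_eq_right hz'
    rw [e1, setIntegral_const, smul_eq_mul, mul_comm]
    congr 1
    rw [measureReal_compl hAmeas, probReal_univ]
    rfl
  have hal0 : 0 ≤ al := ENNReal.toReal_nonneg
  have hal1 : al ≤ 1 := by
    have := prob_le_one (μ := γ) (s := cutA M δ)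
    exact ENNReal.toReal_le_of_le_ofReal zero_le_one (by simpa using this)
  have hAc0 : 0 ≤ Ac := setIntegral_nonneg hAmeas fun z _ => hcn z
  have e1 : aS n K δ γ φ ρ' = n + (-∫ x, φ x * ρ' x ∂m) - 2 * K / 3 * D := by
    unfold aS; ring
  have e2 : aS n K δ γ ψ σ' = n + (-∫ x, ψ x * σ' x ∂m) - 2 * K / 3 * D := by
    unfold aS; ring
  rw [e1] at h1 h3
  rw [e2] at h2 h3
  have hfin : ∀ e : ℝ, (if K ≤ 0 then n * √(p * q) / δ else 0) * D = n * √(p * q) * e →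
      (-(p * (-∫ x, φ x * ρ' x ∂m) + q * (-∫ x, ψ x * σ' x ∂m)) / 2 ≤
        n / 2 * (√p - √q) ^ 2 + n * √(p * q) * e - K / 3 * (√(p * q) + p + q) * D) →
      p / 2 * ∫ x, φ x * ρ' x ∂m + q / 2 * ∫ y, ψ y * σ' y ∂m ≤
        n / 2 * (√p - √q) ^ 2 + Cst n K δ p q * D := by
    intro e he h
    have e3 : Cst n K δ p q * D = n * √(p * q) * e - K / 3 * (√(p * q) + p + q) * D := by
      unfold Cst
      rw [sub_mul, he]
    rw [e3]
    linarith
  rcases le_or_gt K 0 with hK | hK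
  · -- `K ≤ 0`
    have he : 1 - al ≤ D / δ := by
      rw [le_div_iff₀ hδ]
      linarith
    refine hfin (D / δ) ?_ ?_
    · rw [if_pos hK]
      field_simp
    · rcases hal0.eq_or_lt with h0 | h0
      · exact rate0 hn' hp hq (by linarith) hD0 hK h1 h2
      · refine rate hn' hp hq h0 he (Ac := Ac) ?_ h1 h2 ?_
        · exact mul_le_mul_of_nonpos_left hAD hK
        · refine le_trans (le_of_eq ?_) (h3 h0)
          congr 2
          field_simp
  · -- `K > 0`: nothing is cut off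
    have hall : ∀ x y : M, gg y x < δ := hok.2.resolve_left (not_le.2 hK)
    have hAu : cutA M δ = univ := by
      rw [eq_univ_iff_forall]
      intro z
      have := hall z.1 z.2
      unfold gg at this
      rw [dist_comm] at this
      show dist z.1 z.2 ^ 2 / 2 < δ
      rwa [dist_comm]
    have hal' : al = 1 := by
      rw [hal, hAu, measure_univ, ENNReal.toReal_one]
    have hAc' : Ac = D := by
      rw [hAc, hAu, Measure.restrict_univ]
    refine hfin 0 ?_ ?_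
    · rw [if_neg (not_le.2 hK)]
      ring
    · have h0 : 0 < al := by rw [hal']; exact one_pos
      refine rate hn' hp hq h0 (by linarith) (Ac := Ac) ?_ h1 h2 ?_
      · rw [hAc']
      · refine le_trans (le_of_eq ?_) (h3 h0)
        congr 2
        field_simp

/-- **S6**: the contraction, from the local inequality. -/
theorem outCd_of (hS : InS m n K θ δ) (hloc : LocI m n K δ) : OutCd m n K δ := by
  intro ρ ρ' σ σ' hρ hσ φ ψ hφ hψ hle p q T hp hq hT
  have hN := hS.hN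
  have hδ0 : 0 ≤ δ := hS.ok.1.le
  have hc := cost_cc (M := M) hδ0
  set D : ℝ → ℝ := fun t => H886.Dc (cc δ) (dm (Q m (p * t) ρ)) (dm (Q m (q * t) σ)) with hD
  have hCρ : ∀ t : ℝ, 0 ≤ t → CD m (Q m (p * t) ρ) (Q m (p * t) ρ') := fun t ht =>
    hS.flow ρ ρ' hρ _ (mul_nonneg hp ht)
  have hCσ : ∀ t : ℝ, 0 ≤ t → CD m (Q m (q * t) σ) (Q m (q * t) σ') := fun t ht =>
    hS.flow σ σ' hσ _ (mul_nonneg hq ht)
  -- continuity
  have hcont : ContinuousOn D (Icc 0 T) := by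
    have hL : ∀ s ∈ Icc 0 T, ∀ t ∈ Icc 0 T, |D s - D t| ≤
        (δ * (p / 2 * N1 ρ' + q / 2 * N1 σ')) * |s - t| := by
      intro s hs t ht
      have b1 := Dc_lip hδ0 (hCρ s hs.1) (hCσ s hs.1) (hCρ t ht.1) (hCσ t ht.1)
      have b2 := hS.lip ρ ρ' hρ (p * t) (p * s) (mul_nonneg hp ht.1) (mul_nonneg hp hs.1)
      have b3 := hS.lip σ σ' hσ (q * t) (q * s) (mul_nonneg hq ht.1) (mul_nonneg hq hs.1)
      rw [← mul_sub, abs_mul, abs_of_nonneg hp] at b2
      rw [← mul_sub, abs_mul, abs_of_nonneg hq] at b3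
      refine b1.trans ?_
      have b4 : N1 (Q m (p * s) ρ - Q m (p * t) ρ) ≤ p * |s - t| / 2 * N1 ρ' := b2
      have b5 : N1 (Q m (q * s) σ - Q m (q * t) σ) ≤ q * |s - t| / 2 * N1 σ' := b3
      calc δ * (N1 (Q m (p * s) ρ - Q m (p * t) ρ) + N1 (Q m (q * s) σ - Q m (q * t) σ))
          ≤ δ * (p * |s - t| / 2 * N1 ρ' + q * |s - t| / 2 * N1 σ') :=
            mul_le_mul_of_nonneg_left (add_le_add b4 b5) hδ0
        _ = _ := by ring
    have hC0 : 0 ≤ δ * (p / 2 * N1 ρ' + q / 2 * N1 σ') := by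
      have := N1_nonneg ρ'
      have := N1_nonneg σ'
      positivity
    have : LipschitzOnWith ⟨_, hC0⟩ D (Icc 0 T) :=
      LipschitzOnWith.of_dist_le_mul fun s hs t ht => by
        rw [Real.dist_eq, Real.dist_eq]
        exact hL s hs t ht
    exact this.continuousOn
  have hb : 0 ≤ (n : ℝ) / 2 * (√p - √q) ^ 2 := by positivity
  -- left difference quotients
  have hleft : ∀ t ∈ Ioc (0 : ℝ) T, ∀ ε > 0, ∃ᶠ h in 𝓝[>] (0 : ℝ),
      D t - D (t - h) ≤ h * ((n : ℝ) / 2 * (√p - √q) ^ 2 + Cst n K δ p q * D t + ε) := by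
    intro t ht ε hε
    have ht0 : 0 < t := ht.1
    have c1 := hCρ t ht0.le
    have c2 := hCσ t ht0.le
    haveI := cdP c1
    haveI := cdP c2
    obtain ⟨γ, f, g, ho, hγD, hdual⟩ :=
      exists_opt' hδ0 (dm (Q m (p * t) ρ)) (dm (Q m (q * t) σ))
    obtain ⟨⟨Lf, hfL⟩, -⟩ := ho.adm.bl1
    obtain ⟨⟨Lg, hgL⟩, -⟩ := ho.adm.bl2
    have hl := hloc _ _ _ _ c1 c2 γ f g ho p q hp hq
    rw [hγD] at hl
    have hl' : p / 2 * ∫ x, f x * (Q m (p * t) ρ') x ∂m + q / 2 * ∫ y, g y * (Q m (q * t) σ') y ∂m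
        ≤ n / 2 * (√p - √q) ^ 2 + Cst n K δ p q * D t := hl
    -- the function `u`
    have d1 := hS.deriv ρ ρ' hρ f hfL.continuous.measurable ⟨δ, ho.bdφ⟩ (p * t)
      (mul_nonneg hp ht0.le)
    have d2 := hS.deriv σ σ' hσ g hgL.continuous.measurable ⟨δ, ho.bdψ⟩ (q * t)
      (mul_nonneg hq ht0.le)
    have l1 : HasDerivWithinAt (fun s : ℝ => p * s) p (Ici 0) t := by
      simpa using ((hasDerivAt_id t).const_mul p).hasDerivWithinAt
    have l2 : HasDerivWithinAt (fun s : ℝ => q * s) q (Ici 0) t := by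
      simpa using ((hasDerivAt_id t).const_mul q).hasDerivWithinAt
    have d3 := d1.comp t l1 (fun s (hs : 0 ≤ s) => mul_nonneg hp hs)
    have d4 := d2.comp t l2 (fun s (hs : 0 ≤ s) => mul_nonneg hq hs)
    have d5 := d3.add d4
    set U : ℝ → ℝ := fun s => ∫ x, f x * Q m (p * s) ρ x ∂m + ∫ y, g y * Q m (q * s) σ y ∂m
      with hU
    set d : ℝ := 2⁻¹ * (∫ x, f x * Q m (p * t) ρ' x ∂m) * p
      + 2⁻¹ * (∫ x, g x * Q m (q * t) σ' x ∂m) * q with hd
    have d6 : HasDerivWithinAt U d (Ici 0) t := d5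
    have hdle : d ≤ n / 2 * (√p - √q) ^ 2 + Cst n K δ p q * D t := by
      rw [hd]
      linarith
    rw [hasDerivWithinAt_iff_tendsto_slope] at d6
    have hmap : Tendsto (fun h : ℝ => t - h) (𝓝[>] 0) (𝓝[Ici 0 \ {t}] t) := by
      refine tendsto_nhdsWithin_iff.2 ⟨?_, ?_⟩
      · have : Tendsto (fun h : ℝ => t - h) (𝓝 0) (𝓝 (t - 0)) :=
          (continuous_const.sub continuous_id).tendsto 0
        rw [sub_zero] at this
        exact this.mono_left nhdsWithin_le_nhds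
      · have hsmall : ∀ᶠ h : ℝ in 𝓝[>] 0, h < t :=
          (eventually_lt_nhds ht0).filter_mono nhdsWithin_le_nhds
        filter_upwards [self_mem_nhdsWithin, hsmall] with h hh hht
        have hh0 : (0 : ℝ) < h := hh
        refine ⟨?_, ?_⟩
        · show (0 : ℝ) ≤ t - h
          linarith
        · intro h1
          have h2 : t - h = t := h1
          linarith
    have d7 := d6.comp hmap
    have hsmall : ∀ᶠ h : ℝ in 𝓝[>] 0, h < t :=
      (eventually_lt_nhds ht0).filter_mono nhdsWithin_le_nhds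
    refine Eventually.frequently ?_
    filter_upwards [self_mem_nhdsWithin, hsmall, d7.eventually (gt_mem_nhds (lt_add_of_pos_right d hε))]
      with h hh hht hlt
    have hh0 : (0 : ℝ) < h := hh
    have c3 := hCρ (t - h) (by linarith)
    have c4 := hCσ (t - h) (by linarith)
    haveI := cdP c3
    haveI := cdP c4
    have w1 := H886.dual_le hc (μ := dm (Q m (p * (t - h)) ρ)) (ν := dm (Q m (q * (t - h)) σ))
      hfL.continuous.measurable hgL.continuous.measurable ho.bdφ ho.bdψ ho.adm.le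
    rw [int_dm c3, int_dm c4] at w1
    rw [int_dm c1, int_dm c2] at hdual
    have hDt : D t = U t := hdual
    have hDh : U (t - h) ≤ D (t - h) := w1
    have hsl : (t - h - t)⁻¹ * (U (t - h) - U t) < d + ε := by
      have : _root_.slope U t (t - h) = (t - h - t)⁻¹ * (U (t - h) - U t) := by
        rw [slope_def_field]
        rw [div_eq_inv_mul]
      rw [← this]
      exact hlt
    have hsl2 : U t - U (t - h) < h * (d + ε) := by
      have e3 : (t - h - t)⁻¹ * (U (t - h) - U t) = h⁻¹ * (U t - U (t - h)) := by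
        have : t - h - t = -h := by ring
        rw [this, inv_neg]
        ring
      rw [e3] at hsl
      have := mul_lt_mul_of_pos_left hsl hh0
      have e4 : h * (h⁻¹ * (U t - U (t - h))) = U t - U (t - h) := by
        field_simp
      rwa [e4] at this
    have hfin : h * (d + ε) ≤ h * ((n : ℝ) / 2 * (√p - √q) ^ 2 + Cst n K δ p q * D t + ε) :=
      mul_le_mul_of_nonneg_left (by linarith) hh0.le
    linarith
  have hg := gron_left hT hb hcont hleft
  -- the left side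
  obtain ⟨⟨L1, hφL⟩, B1, hφB⟩ := hφ
  obtain ⟨⟨L2, hψL⟩, B2, hψB⟩ := hψ
  have c5 := hCρ T hT
  have c6 := hCσ T hT
  haveI := cdP c5
  haveI := cdP c6
  have v1 := H886.dual_le hc (μ := dm (Q m (p * T) ρ)) (ν := dm (Q m (q * T) σ))
    hφL.continuous.measurable hψL.continuous.measurable (B := max B1 B2)
    (fun x => (hφB x).trans (le_max_left _ _)) (fun x => (hψB x).trans (le_max_right _ _)) hle
  rw [int_dm c5, int_dm c6] at v1
  refine v1.trans (hg.trans ?_)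
  have hD0 : D 0 ≤ ∫ x, ∫ y, cc δ x y * (ρ x * σ y) ∂m ∂m := by
    have : D 0 = H886.Dc (cc δ) (dm ρ) (dm σ) := by
      simp only [hD, mul_zero]
      rw [hS.sg.zero ρ (hN.isDir.memLp ρ hρ.lap.1), hS.sg.zero σ (hN.isDir.memLp σ hσ.lap.1)]
    rw [this]
    exact Dc_prod hδ0 hρ hσ
  have := mul_le_mul_of_nonneg_left hD0 (Real.exp_pos (Cst n K δ p q * T)).le
  linarith

end main

/-- **T** -/
theorem blk_T : Blk_T.{u} := by
  intro M _ _ _ _ δ hδ μ ν _ _
  obtain ⟨γ, φ, ψ, h, -⟩ := exists_opt' hδ.le μ ν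
  exact ⟨γ, φ, ψ, h⟩

/-- **S6** -/
theorem blk_S6 (h5 : Blk_S5.{u}) : Blk_S6.{u} := by
  intro M _ _ _ _ m n K θ δ hS
  exact outCd_of hS (locI_of hS.hN.n_pos hS.ok (h5 m n K θ δ hS))

end Vale.Agent.P233.H866
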