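import Vale.Agent.P233.H866.HessF

/-!
P233, block F2S (helper866): localisation of a weak Hessian bound.
-/

set_option linter.all false

open MeasureTheory Filter Topology
open scoped ENNReal NNReal

namespace Vale.Agent.P233

variable {M : Type*} [MeasurableSpace M] {m : Measure M} {C : Calc m}

namespace H866

/-- strong locality for a pair `θ F = F` -/
theorem loc_pair (hC : IsGamma C) {F θ : M →ₘ[m] ℝ} (hF : F ∈ C.A) (hθ : θ ∈ C.A)
    (h : θ * F = F) {f g : M →ₘ[m] ℝ} (hf : f ∈ C.W) (hg : g ∈ C.W) :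
    θ * C.Γ F f = C.Γ F f ∧ C.Γ F f * C.Γ g θ = 0 := by
  have hD := hC.toIsDir
  have h1 := (hC.Γ_loc hF hθ h).2.1
  refine ⟨h1 f hf, ?_⟩
  have h2 : F * C.Γ g θ = 0 := by
    have e := hD.Γ_mul_right hθ hF hg
    rw [h, hD.symm g hg F hF.1, h1 g hg] at e
    have e2 : C.Γ F g + F * C.Γ g θ = C.Γ F g + 0 := by rw [add_zero]; exact e.symm
    exact add_left_cancel e2
  rw [eq_iff_ae]
  filter_upwards [eq_iff_ae.1 h2, mul_ae F (C.Γ g θ), mul_ae (C.Γ F f) (C.Γ g θ),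
    hD.Γ_zero_ae hF.1, hD.Γ_cs_ae hF.1 hf, zero_ae (M := M) (m := m)] with x a1 a2 a3 a4 a5 a6
  rw [a3, a6]
  rw [a2, a6] at a1
  rcases mul_eq_zero.1 a1 with h0 | h0
  · have h3 := a4 h0
    rw [h3, zero_mul] at a5
    have h4 : C.Γ F f x = 0 := by nlinarith [sq_nonneg (C.Γ F f x)]
    rw [h4, zero_mul]
  · rw [h0, mul_zero]

/-- **Localisation** of a weak Hessian bound: outside the support of `F` the bound is free. -/
theorem WHess_loc (hC : IsGamma C) {κ : ℝ} (hB : C.BEi κ) {F θ Λ : M →ₘ[m] ℝ} (hF : F ∈ C.A)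
    (hθ : θ ∈ C.TestI) (hθ0 : 0 ≤ θ) (h : θ * F = F) (hW : C.WHess F Λ) :
    C.WHess F (θ * Λ) := by
  have hD := hC.toIsDir
  have hθA := hC.test_A hθ.1
  intro g hg w hw hw0
  have hgA := hC.test_A hg.1
  have hwA := hC.test_A hw.1
  have hgg := hC.Γ_mem hB hg.1 hg.1
  have e0 := hW g hg _ (hC.testI_mul hB hw hθ) (mul_nonneg hw0 hθ0)
  have e1 : C.wH F g (w * θ) = C.wH F g w := by
    obtain ⟨k1, k2⟩ := loc_pair hC hF hθA h hgA.1 hgA.1
    have k3 := (loc_pair hC hF hθA h hgg.1 hgA.1).1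
    unfold Calc.wH
    have e2 : C.Γ F g * (w * θ * C.lap g + C.Γ g (w * θ))
        = C.Γ F g * (w * C.lap g + C.Γ g w) := by
      rw [hD.Γ_mul_right hwA hθA hgA.1]
      calc C.Γ F g * (w * θ * C.lap g + (w * C.Γ g θ + θ * C.Γ g w))
          = (θ * C.Γ F g) * (w * C.lap g + C.Γ g w) + w * (C.Γ F g * C.Γ g θ) := by ring
        _ = C.Γ F g * (w * C.lap g + C.Γ g w) := by rw [k1, k2]; ring
    have e3 : w * θ * C.Γ F (C.Γ g g) = w * C.Γ F (C.Γ g g) := by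
      rw [mul_assoc, k3]
    rw [e2, e3]
  rw [e1] at e0
  refine e0.trans (le_of_eq ?_)
  congr 1
  ring

end H866

end Vale.Agent.P233
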