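import Vale.Agent.P233.H866.S3a
import Vale.Agent.P233.H866.WLoc
import Vale.Agent.P233.H866.F2Asm2
import Vale.Agent.P233.H343.CloseB
import Vale.Agent.P233.H183.ZGrad
import Vale.Agent.P233.H368.S2

/-! P233, part F2, step S3 (helper866): the limit `ε → 0` of the level inequality of
`H368.level`, from the uniform convergences `TU4`, `TU6` (helper719). -/

set_option linter.all false

open MeasureTheory Filter Topology Set
open scoped ENNReal NNReal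

universe u

namespace Vale.Agent.P233.PF

open Vale.Agent.P233.PC
open Vale.Agent.P233.PA (en OutA PotLim)
open Vale.Agent.P233.H368 (UnifC n1)

variable {M : Type u} [MetricSpace M] [MeasurableSpace M]

/-- the densities converge, uniformly in time, for integrands that are continuous in time -/
def TU4 (m : Measure M) (U : Filter ℕ) (u : ℕ → ℝ → M →ₘ[m] ℝ)
    (φ : (M →ₘ[m] ℝ) → ℕ → ℝ → M →ₘ[m] ℝ) (Y : ℝ → M → M) : Prop :=
  ∀ l ∈ (sob m).TestI, ∀ s ∈ Ioo (0 : ℝ) 1, ∀ b : ℝ → M →ₘ[m] ℝ,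
    (∀ t ∈ Icc s 1, MemLp (b t) 1 m) → (∀ t ∈ Icc s 1, MemLp (b t) 2 m) →
    (∀ t ∈ Icc s 1, Tendsto (fun r => ∫ x, |b r x - b t x| ∂m) (𝓝[Icc s 1] t) (𝓝 0)) →
    (∀ t ∈ Icc s 1, Tendsto (fun r => I ((b r - b t) ^ 2)) (𝓝[Icc s 1] t) (𝓝 0)) →
    ∀ d > 0, ∀ᶠ n in U, ∀ t ∈ Icc s 1,
      |I (b t * rn u φ l n t) - ∫ x, b t (Y t x) * Real.exp (l x) ∂m| ≤ d

/-- the velocities converge, uniformly in time, locally -/
def TU6 (m : Measure M) (U : Filter ℕ) (q : M) (s₀ C₀ : ℝ) (u : ℕ → ℝ → M →ₘ[m] ℝ)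
    (φ : (M →ₘ[m] ℝ) → ℕ → ℝ → M →ₘ[m] ℝ) : Prop :=
  ∀ l ∈ (sob m).TestI, ∀ s ∈ Ioo (0 : ℝ) 1, ∀ A : M →ₘ[m] ℝ, MemLp A 1 m → 0 ≤ A →
    ∀ d > 0, ∀ᶠ n in U, ∀ t ∈ Icc s 1,
      I (A * rn u φ l n t *
        (sob m).Γ (tn u φ l n t - zc m q s₀ C₀ t) (tn u φ l n t - zc m q s₀ C₀ t)) ≤ d

variable [CompleteSpace M] [SecondCountableTopology M] [BorelSpace M] {m : Measure M}
  {K N κ : ℝ} {P : ℝ → (M →ₘ[m] ℝ) → (M →ₘ[m] ℝ)} {q : M} {s₀ C₀ : ℝ}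

theorem cut_of (hS : Std m K N) (p : M) {R : ℝ} (hR : 1 ≤ R) :
    ∃ χ ∈ (sob m).TestI, 0 ≤ χ ∧ χ ≤ 1 ∧ MemLp χ 1 m ∧ (∀ᵐ x ∂m, dist p x ≤ R → χ x = 1) := by
  have hC := H866.std_gamma hS
  obtain ⟨Cc, hcut⟩ := exists_cutI hS.hfin hC hS.hN hS.rcd.bochner p
  obtain ⟨χ, g1, g2, g3, g4, ⟨R', g5⟩, -, -⟩ := hcut R hR
  refine ⟨χ, g1, g2, g3, BSupp.mem1 hS.hfin (hC.test_A g1.1).2 ⟨p, R', g5⟩, ?_⟩
  filter_upwards [g4] with x hx h
  exact hx (by rwa [dist_comm])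

theorem one_le_max' (a b : ℝ) : (1 : ℝ) ≤ max 1 (a + b) := le_max_left _ _

/-- **S3** -/
theorem intConc_of_TU (hyp : CHyp M m K N P q s₀ C₀)
    {E : Type} [NormedAddCommGroup E] [InnerProductSpace ℝ E] [CompleteSpace E]
    {Gr : (M →ₘ[m] ℝ) → M → E} {V : (M →ₘ[m] ℝ) → (M →ₘ[m] ℝ) → M → E}
    {D : (M →ₘ[m] ℝ) → (M →ₘ[m] ℝ)} (hct : CtB (sob m) K N Gr V D)
    {u : ℕ → ℝ → M →ₘ[m] ℝ} {φ : (M →ₘ[m] ℝ) → ℕ → ℝ → M →ₘ[m] ℝ} (hLv : HasLvB m u φ)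
    {U : Ultrafilter ℕ} (hU : (U : Filter ℕ) ≤ atTop) {Y : ℝ → M → M}
    (hY : RFlow m K N q s₀ C₀ Y)
    (hzL : ∃ L : ℝ, ∀ t ∈ Icc (0 : ℝ) 1, ∀ᵐ x ∂m,
      (sob m).Γ (zc m q s₀ C₀ t) (zc m q s₀ C₀ t) x ≤ L)
    (h4 : TU4 m U u φ Y) (h6 : TU6 m U q s₀ C₀ u φ) {p : M} {r Λ₀ : ℝ} (hr : Adm κ r)
    (hW : (sob m).WHess (cl m (mdr κ p r)) (cl m (Lam κ p r Λ₀))) {G : M →ₘ[m] ℝ}
    (hG : (sob m).FLap (cl m (mdr κ p r)) G) :
    IntConc m (cl m (mdr κ p r)) (cl m (Lam κ p r Λ₀)) q s₀ C₀ Y := by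
  have hS := hyp.std
  haveI : SigmaFinite m := sigmaFinite_of_ball hS.hfin
  have hC : IsGamma (sob m) := hct.gam
  have hD := hC.toIsDir
  have hB : (sob m).BEi K := hC.bei hct.hN hct.be
  obtain ⟨hFA, hFF, hF1, hF0⟩ := H866.mdr_mem hS (κ := κ) p hr.1
  set F : M →ₘ[m] ℝ := cl m (mdr κ p r) with hFdef
  obtain ⟨cΛ, hcΛ, hΛb⟩ := Lam_bdd κ p r Λ₀
  have hΛae := cl_ae_meas (m := m) (Lam_measurable κ p r Λ₀)
  set Λ : M →ₘ[m] ℝ := cl m (Lam κ p r Λ₀) with hΛdef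
  have hΛc : ∀ᵐ x ∂m, |Λ x| ≤ cΛ := by
    filter_upwards [hΛae] with x hx
    rw [hx]; exact hΛb x
  have hΛt : MemLp Λ ∞ m := mem_top_iff.2 ⟨cΛ, hΛc⟩
  -- the cut-off
  set Rc : ℝ := max 1 (max r (dist p q + r1 s₀ C₀)) with hRc
  obtain ⟨χ, g1, g2, g3, g4, g5⟩ := cut_of hS p (le_max_left 1 _ : 1 ≤ Rc)
  have hχA : χ ∈ (sob m).A := hC.test_A g1.1
  have hχ' := nonneg_iff_ae.1 g2
  have hχ1 : ∀ᵐ x ∂m, χ x ≤ 1 := by
    filter_upwards [le_iff_ae.1 g3, one_ae (M := M) (m := m)] with x h1 h2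
    rwa [h2] at h1
  have hχF : χ * F = F := by
    rw [eq_iff_ae]
    filter_upwards [mul_ae χ F, g5, hF0] with x a1 a2 a3
    rw [a1]
    by_cases hx : r ≤ dist p x
    · rw [a3 hx, mul_zero]
    · rw [a2 ((not_le.1 hx).le.trans ((le_max_left _ _).trans (le_max_right _ _))), one_mul]
  have hχFg : ∀ g ∈ (sob m).W, χ * (sob m).Γ F g = (sob m).Γ F g := (hC.Γ_loc hFA hχA hχF).2.1
  have hW' : (sob m).WHess F (χ * Λ) := H866.WHess_loc hC hB hFA g1 g2 hχF hW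
  set w : M →ₘ[m] ℝ := χ * Λ with hw
  have hwχ : ∀ᵐ x ∂m, |w x| ≤ cΛ * χ x := by
    filter_upwards [mul_ae χ Λ, hΛc, hχ'] with x a1 a2 a3
    rw [hw, a1, abs_mul, abs_of_nonneg a3, mul_comm]
    exact mul_le_mul_of_nonneg_right a2 a3
  have hwb : ∀ᵐ x ∂m, |w x| ≤ cΛ := by
    filter_upwards [hwχ, hχ1] with x a1 a2
    exact a1.trans (mul_le_of_le_one_right hcΛ a2)
  have hwt : MemLp w ∞ m := mem_top_iff.2 ⟨cΛ, hwb⟩
  -- the limit potential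
  obtain ⟨Lz, hLz⟩ := hzL
  have hz : ∀ t ∈ Icc (0 : ℝ) 1, zc m q s₀ C₀ t ∈ (sob m).A := fun t ht =>
    H183.zc_mem_A hD hS.hfin hyp.hs hyp.hC0 ht
  have hχz : ∀ t ∈ Icc (0 : ℝ) 1, χ * zc m q s₀ C₀ t = zc m q s₀ C₀ t := by
    intro t ht
    rw [eq_iff_ae]
    filter_upwards [mul_ae χ (zc m q s₀ C₀ t), g5,
      H183.zc_ae (m := m) (p := q) (C₀ := C₀) hyp.hs ht] with x a1 a2 a3
    rw [a1]
    by_cases hx : r1 s₀ C₀ ≤ dist q x
    · rw [a3, H183.zr_far hyp.hs hyp.hC0 ht hx, mul_zero]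
    · rw [a2 ?_, one_mul]
      have h1 := dist_triangle p q x
      have h2 := (not_le.1 hx).le
      have h3 : dist p q + r1 s₀ C₀ ≤ Rc := (le_max_right _ _).trans (le_max_right _ _)
      linarith
  have hχΓz : ∀ t ∈ Icc (0 : ℝ) 1, χ * (sob m).Γ (zc m q s₀ C₀ t) (zc m q s₀ C₀ t)
      = (sob m).Γ (zc m q s₀ C₀ t) (zc m q s₀ C₀ t) := fun t ht =>
    (hC.Γ_loc (hz t ht) hχA (hχz t ht)).2.1 _ (hz t ht).1
  intro l hl a ha b hb
  have ha0 : 0 < a := ha.1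
  have hb1 : b < 1 := hb.2
  have hab : a ≤ b := hb.1.le
  set s : ℝ := a / 3 with hs
  have hs0 : 0 < s := by positivity
  have hsI : s ∈ Ioo (0 : ℝ) 1 := ⟨hs0, by linarith [ha.2]⟩
  obtain ⟨Λc, hΛc'⟩ := hLv l hl s hsI
  obtain ⟨c, hc⟩ := H368.level H343.blk_B0r.{u} H343.blk_B1.{u} H343.blk_B2.{u, 0}
    H343.blk_B3.{u, 0} H343.blk_B4.{u, 0} hct hG hwt
    (fun h hh ρ hρ hρ0 => H866.wH1_le hC hB hFA.1 hwt hW' hh hρ hρ0) (Λ := Λc)
    hs0 (by linarith : s < a / 2) (by linarith : a / 2 < b) hb1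
  have hsub : Icc a b ⊆ Icc s 1 := Icc_subset_Icc (by linarith) hb1.le
  have hsub0 : Icc s 1 ⊆ Icc (0 : ℝ) 1 := Icc_subset_Icc hs0.le le_rfl
  -- the level inequality
  have hlev : ∀ᶠ n in (U : Filter ℕ), LvB (sob m) (en n) s Λc l (φ l n) (u n) := hU hΛc'
  -- bounds
  set k : ℝ := max (max Λc Lz) 0 with hk
  have hk0 : 0 ≤ k := le_max_right _ _
  have hzk : ∀ t ∈ Icc (0 : ℝ) 1, ∀ᵐ x ∂m,
      (sob m).Γ (zc m q s₀ C₀ t) (zc m q s₀ C₀ t) x ≤ k := fun t ht =>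
    (hLz t ht).mono fun x hx => hx.trans ((le_max_right _ _).trans (le_max_left _ _))
  have hρ0 : ∀ n t, 0 ≤ rn u φ l n t := fun n t => H368.ex_nonneg _
  set R : ℝ := max Λc 0 with hR
  have hR0 : 0 ≤ R := le_max_right _ _
  have hfacts : ∀ n, LvB (sob m) (en n) s Λc l (φ l n) (u n) → ∀ t ∈ Icc s 1,
      tn u φ l n t ∈ (sob m).W ∧ (∀ᵐ x ∂m, (sob m).Γ (tn u φ l n t) (tn u φ l n t) x ≤ k) ∧
      ∀ᵐ x ∂m, rn u φ l n t x ≤ R := by
    intro n hn t ht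
    have hreg := H368.reg_rhoL hC hB hn.reg ht
    have hφ := (hC.test_A (hn.reg.φ_mem t ht).1).1
    have hu := (hC.test_A (hn.reg.u_mem t ht).1).1
    refine ⟨(hC.test_A hreg.2.1.1).1, ?_, ?_⟩
    · have e1 : (sob m).Γ (tn u φ l n t) (tn u φ l n t)
          = (2 : ℝ)⁻¹ • ((2 : ℝ)⁻¹ • (sob m).Γ (φ l n t + u n t) (φ l n t + u n t)) := by
        have hs2 := hD.add_mem _ hφ _ hu
        have e : tn u φ l n t = (2 : ℝ)⁻¹ • (φ l n t + u n t) := rfl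
        rw [e, hD.Γ_smul_right _ (hD.smul_mem _ _ hs2) hs2,
          hD.symm _ (hD.smul_mem _ _ hs2) _ hs2, hD.Γ_smul_right _ hs2 hs2]
      rw [e1]
      filter_upwards [H368.Γ_add_le4 hD hφ hu (hn.bd.gφ t ht) (hn.bd.gu t ht),
        smul_ae ((2 : ℝ)⁻¹ • (sob m).Γ (φ l n t + u n t) (φ l n t + u n t)) (2 : ℝ)⁻¹,
        smul_ae ((sob m).Γ (φ l n t + u n t) (φ l n t + u n t)) (2 : ℝ)⁻¹] with x a1 a2 a3
      rw [a2, a3]
      have : Λc ≤ k := (le_max_left _ _).trans (le_max_left _ _)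
      linarith
    · exact (hn.bd.rho t ht).mono fun x hx => hx.trans (le_max_left _ _)
  -- (1) the linear term
  have hlin : ∀ t ∈ Icc a b, Tendsto (fun n => I (rn u φ l n t * (sob m).Γ F (tn u φ l n t))) U
      (𝓝 (∫ x, Real.exp (l x) * (sob m).Γ F (zc m q s₀ C₀ t) (Y t x) ∂m)) := by
    intro t ht
    have hts := hsub ht
    have ht0 := hsub0 hts
    have hΓ2 : MemLp ((sob m).Γ F (zc m q s₀ C₀ t)) 2 m := hD.Γ_mem2 hFA.1 hFF (hz t ht0).1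
    have hΓ1 : MemLp ((sob m).Γ F (zc m q s₀ C₀ t)) 1 m := hD.Γ_mem1 hFA.1 (hz t ht0).1
    have i4 := h4 l hl s hsI (fun _ => (sob m).Γ F (zc m q s₀ C₀ t)) (fun _ _ => hΓ1)
      (fun _ _ => hΓ2) (fun _ _ => by simp only [sub_self, abs_zero, integral_zero]
                                      exact tendsto_const_nhds) (fun _ _ => by
        have h0 : I (((sob m).Γ F (zc m q s₀ C₀ t) - (sob m).Γ F (zc m q s₀ C₀ t)) ^ 2) = 0 := by
          rw [sub_self, sq, mul_zero, I_zero]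
        simp only [h0]
        exact tendsto_const_nhds)
    rw [Metric.tendsto_nhds]
    intro δ hδ
    set c1 : ℝ := √(R * I ((sob m).Γ F F)) with hc1
    have hc10 : 0 ≤ c1 := Real.sqrt_nonneg _
    have hd : 0 < (δ / (4 * (c1 + 1))) ^ 2 := by positivity
    filter_upwards [i4 (δ / 4) (by positivity), h6 l hl s hsI χ g4 g2 _ hd, hlev]
      with n b1 b2 b3
    obtain ⟨f1, f2, f3⟩ := hfacts n b3 t hts
    have e1 := H866.lin_diff hD (hρ0 n t) f3 g2 hχA.2 hFA.1 hχFg f1 (hz t ht0).1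
    have e2 : √(I (χ * rn u φ l n t * (sob m).Γ (tn u φ l n t - zc m q s₀ C₀ t)
        (tn u φ l n t - zc m q s₀ C₀ t))) ≤ δ / (4 * (c1 + 1)) := by
      rw [← Real.sqrt_sq (by positivity : 0 ≤ δ / (4 * (c1 + 1)))]
      exact Real.sqrt_le_sqrt (b2 t hts)
    have e3 : √(I (χ * rn u φ l n t * (sob m).Γ (tn u φ l n t - zc m q s₀ C₀ t)
        (tn u φ l n t - zc m q s₀ C₀ t))) * c1 ≤ δ / 4 := by
      refine (mul_le_mul_of_nonneg_right e2 hc10).trans ?_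
      rw [div_mul_eq_mul_div, div_le_iff₀ (by positivity)]
      nlinarith
    have e4 := b1 t hts
    have e5 : ∫ x, Real.exp (l x) * (sob m).Γ F (zc m q s₀ C₀ t) (Y t x) ∂m
        = ∫ x, (sob m).Γ F (zc m q s₀ C₀ t) (Y t x) * Real.exp (l x) ∂m := by
      congr 1; ext x; ring
    rw [e5, Real.dist_eq]
    calc _ ≤ |I (rn u φ l n t * (sob m).Γ F (tn u φ l n t))
              - I ((sob m).Γ F (zc m q s₀ C₀ t) * rn u φ l n t)|
            + |I ((sob m).Γ F (zc m q s₀ C₀ t) * rn u φ l n t)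
              - ∫ x, (sob m).Γ F (zc m q s₀ C₀ t) (Y t x) * Real.exp (l x) ∂m| :=
          abs_sub_le _ _ _
      _ ≤ δ / 4 + δ / 4 := add_le_add (e1.trans e3) e4
      _ < δ := by linarith
  -- (2) the quadratic term
  set g : ℝ → ℝ := fun t => ∫ x, Real.exp (l x) *
    (Λ (Y t x) * (sob m).Γ (zc m q s₀ C₀ t) (zc m q s₀ C₀ t) (Y t x)) ∂m with hg
  set f : ℕ → ℝ → ℝ := fun n t => I (rn u φ l n t * w * (sob m).Γ (tn u φ l n t) (tn u φ l n t))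
    with hf
  have hgeq : ∀ t ∈ Icc s 1, ∫ x, (w * (sob m).Γ (zc m q s₀ C₀ t) (zc m q s₀ C₀ t) : M →ₘ[m] ℝ)
      (Y t x) * Real.exp (l x) ∂m = g t := by
    intro t ht
    have ht' : t ∈ Ioc (0 : ℝ) 1 := ⟨hs0.trans_le ht.1, ht.2⟩
    have e1 : w * (sob m).Γ (zc m q s₀ C₀ t) (zc m q s₀ C₀ t)
        = Λ * (sob m).Γ (zc m q s₀ C₀ t) (zc m q s₀ C₀ t) := by
      calc w * (sob m).Γ (zc m q s₀ C₀ t) (zc m q s₀ C₀ t)
          = Λ * (χ * (sob m).Γ (zc m q s₀ C₀ t) (zc m q s₀ C₀ t)) := by rw [hw]; ring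
        _ = _ := by rw [hχΓz t (hsub0 ht)]
    rw [e1]
    refine integral_congr_ae ?_
    filter_upwards [flow_ae hY ht' (mul_ae Λ ((sob m).Γ (zc m q s₀ C₀ t) (zc m q s₀ C₀ t)))]
      with x hx
    rw [hx, mul_comm]
  have hΓzt : ∀ t ∈ Icc (0 : ℝ) 1, MemLp ((sob m).Γ (zc m q s₀ C₀ t) (zc m q s₀ C₀ t)) ∞ m :=
    fun t ht => mem_top_iff.2 ⟨k, by
      filter_upwards [hzk t ht, hD.Γ_nonneg_ae (hz t ht).1] with x h1 h2
      rwa [abs_of_nonneg h2]⟩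
  have hcont : ∀ t ∈ Icc s 1, Tendsto (fun τ => (sob m).nrm2 (zc m q s₀ C₀ τ - zc m q s₀ C₀ t))
      (𝓝[Icc s 1] t) (𝓝 0) := fun t ht =>
    (H183.zc_cont hD hS.hfin hyp.hs hyp.hC0 (hsub0 ht)).mono_left (nhdsWithin_mono t hsub0)
  have i4 := h4 l hl s hsI (fun t => w * (sob m).Γ (zc m q s₀ C₀ t) (zc m q s₀ C₀ t))
    (fun t ht => mem_mul_top hwt (hD.mem1 _ (hz t (hsub0 ht)).1))
    (fun t ht => mem_mul_top hwt (hD.Γ_mem2 (hz t (hsub0 ht)).1 (hΓzt t (hsub0 ht))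
      (hz t (hsub0 ht)).1))
    (fun t ht => by
      have h5 : Tendsto (fun τ => √(1 * (sob m).nrm2 (zc m q s₀ C₀ τ - zc m q s₀ C₀ t))
          * √(4 * k * (cΛ ^ 2 * I χ))) (𝓝[Icc s 1] t) (𝓝 0) := by
        have h0 : Tendsto (fun τ => 1 * (sob m).nrm2 (zc m q s₀ C₀ τ - zc m q s₀ C₀ t))
            (𝓝[Icc s 1] t) (𝓝 0) := by simpa using hcont t ht
        have h6 := (Real.continuous_sqrt.tendsto 0).comp h0
        rw [Real.sqrt_zero] at h6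
        simpa using h6.mul_const (√(4 * k * (cΛ ^ 2 * I χ)))
      refine squeeze_zero' (Eventually.of_forall fun τ => integral_nonneg fun _ => abs_nonneg _)
        ?_ h5
      filter_upwards [self_mem_nhdsWithin] with τ hτ
      have e1 := H866.quad_L1 hD hk0 hcΛ g2 g4 hχ1 zero_le_one hwχ (hz τ (hsub0 hτ)).1
        (hz t (hsub0 ht)).1 (hzk τ (hsub0 hτ)) (hzk t (hsub0 ht))
      refine le_trans (le_of_eq ?_) e1
      unfold n1
      refine integral_congr_ae ?_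
      filter_upwards [sub_ae (w * (sob m).Γ (zc m q s₀ C₀ τ) (zc m q s₀ C₀ τ))
        (w * (sob m).Γ (zc m q s₀ C₀ t) (zc m q s₀ C₀ t))] with x hx
      rw [hx])
    (fun t ht => by
      have h5 : Tendsto (fun τ => cΛ ^ 2 * (4 * k) *
          (sob m).nrm2 (zc m q s₀ C₀ τ - zc m q s₀ C₀ t)) (𝓝[Icc s 1] t) (𝓝 0) := by
        simpa using (hcont t ht).const_mul (cΛ ^ 2 * (4 * k))
      refine squeeze_zero' (Eventually.of_forall fun τ => I_sq_nonneg _) ?_ h5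
      filter_upwards [self_mem_nhdsWithin] with τ hτ
      exact H866.quad_L2 hD hk0 hwb (hz τ (hsub0 hτ)).1
        (hz t (hsub0 ht)).1 (hzk τ (hsub0 hτ)) (hzk t (hsub0 ht)))
  have hunif : UnifC (U : Filter ℕ) f g a b := by
    intro δ hδ
    set c1 : ℝ := √(4 * k * (cΛ ^ 2 * (R * I χ))) with hc1
    have hc10 : 0 ≤ c1 := Real.sqrt_nonneg _
    have hd : 0 < (δ / (2 * (c1 + 1))) ^ 2 := by positivity
    filter_upwards [i4 (δ / 2) (by positivity), h6 l hl s hsI χ g4 g2 _ hd, hlev]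
      with n b1 b2 b3 t ht
    have hts := hsub ht
    have ht0 := hsub0 hts
    obtain ⟨f1, f2, f3⟩ := hfacts n b3 t hts
    have e1 := H866.quad_diff hD (hρ0 n t) f3 hcΛ hk0 g2 g4 hχA.2 hwχ f1 (hz t ht0).1 f2
      (hzk t ht0)
    have e2 : √(I (χ * rn u φ l n t * (sob m).Γ (tn u φ l n t - zc m q s₀ C₀ t)
        (tn u φ l n t - zc m q s₀ C₀ t))) ≤ δ / (2 * (c1 + 1)) := by
      rw [← Real.sqrt_sq (by positivity : 0 ≤ δ / (2 * (c1 + 1)))]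
      exact Real.sqrt_le_sqrt (b2 t hts)
    have e3 : √(I (χ * rn u φ l n t * (sob m).Γ (tn u φ l n t - zc m q s₀ C₀ t)
        (tn u φ l n t - zc m q s₀ C₀ t))) * c1 ≤ δ / 2 := by
      refine (mul_le_mul_of_nonneg_right e2 hc10).trans ?_
      rw [div_mul_eq_mul_div, div_le_iff₀ (by positivity)]
      nlinarith
    have e4 := b1 t hts
    rw [hgeq t hts] at e4
    calc |f n t - g t| ≤ |f n t - I (w * (sob m).Γ (zc m q s₀ C₀ t) (zc m q s₀ C₀ t)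
              * rn u φ l n t)|
            + |I (w * (sob m).Γ (zc m q s₀ C₀ t) (zc m q s₀ C₀ t) * rn u φ l n t) - g t| :=
          abs_sub_le _ _ _
      _ ≤ δ / 2 + δ / 2 := add_le_add (e1.trans e3) e4
      _ = δ := by ring
  have hfc : ∀ᶠ n in (U : Filter ℕ), ContinuousOn (f n) (Icc a b) := by
    filter_upwards [hlev] with n hn
    exact (hc _ _ _ _ hn).1.mono hsub
  have hgc : ContinuousOn g (Icc a b) := H866.UnifC_continuousOn hunif hfc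
  have hint := hunif.integral hab (hfc.mono fun n hn => hn.intervalIntegrable_of_Icc hab)
    (hgc.intervalIntegrable_of_Icc hab)
  -- the conclusion
  have hen : Tendsto (fun n : ℕ => c * √(en n)) U (𝓝 0) := by
    have h1 : Tendsto (fun n : ℕ => en n) atTop (𝓝 0) := by
      unfold PA.en
      have h0 := tendsto_one_div_add_atTop_nhds_zero_nat (𝕜 := ℝ)
      simpa [one_div] using h0
    have h2 := (Real.continuous_sqrt.tendsto 0).comp (h1.mono_left hU)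
    rw [Real.sqrt_zero] at h2
    simpa using h2.const_mul c
  have l1 := (hlin b ⟨hab, le_rfl⟩).sub (hlin a ⟨le_rfl, hab⟩)
  have l2 := hint.add hen
  rw [add_zero] at l2
  refine le_of_tendsto_of_tendsto l1 l2 ?_
  filter_upwards [hlev] with n hn
  exact (hc _ _ _ _ hn).2 a b (by linarith) hab le_rfl

end Vale.Agent.P233.PF
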