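import Vale.Agent.P233.H368.Lim

/-!
P233, block F2S, S3 (helper866): comparison of the terms of the level inequality with those of the
limit potential, at one time; continuity of uniform limits.
-/

set_option linter.all false

open MeasureTheory Filter Topology Set
open scoped ENNReal NNReal

namespace Vale.Agent.P233

variable {M : Type*} [MeasurableSpace M] {m : Measure M} {C : Calc m}

namespace H866

open H368 (UnifC n1 cs3 n1_cs3 I_wΓ_le Γ_add_le4 Γ_sub_sub)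

/-- a uniform limit of continuous functions is continuous -/
theorem UnifC_continuousOn {ι : Type*} {L : Filter ι} [L.NeBot] {f : ι → ℝ → ℝ} {g : ℝ → ℝ}
    {a b : ℝ} (h : UnifC L f g a b) (hf : ∀ᶠ i in L, ContinuousOn (f i) (Icc a b)) :
    ContinuousOn g (Icc a b) := by
  have hu : TendstoUniformlyOn f g L (Icc a b) := by
    rw [Metric.tendstoUniformlyOn_iff]
    intro ε hε
    filter_upwards [h (ε / 2) (by positivity)] with i hi t ht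
    rw [dist_comm, Real.dist_eq]
    exact (hi t ht).trans_lt (by linarith)
  exact hu.continuousOn hf.frequently

/-- the quadratic term at one time -/
theorem quad_diff (hD : IsDir C) {ρ w θ z χ : M →ₘ[m] ℝ} {R A k : ℝ} (hρ0 : 0 ≤ ρ)
    (hρR : ∀ᵐ x ∂m, ρ x ≤ R) (hA : 0 ≤ A) (hk : 0 ≤ k) (hχ0 : 0 ≤ χ) (hχ1 : MemLp χ 1 m)
    (hχt : MemLp χ ∞ m) (hw : ∀ᵐ x ∂m, |w x| ≤ A * χ x) (hθ : θ ∈ C.W) (hz : z ∈ C.W)
    (hθk : ∀ᵐ x ∂m, C.Γ θ θ x ≤ k) (hzk : ∀ᵐ x ∂m, C.Γ z z x ≤ k) :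
    |I (ρ * w * C.Γ θ θ) - I (w * C.Γ z z * ρ)|
      ≤ √(I (χ * ρ * C.Γ (θ - z) (θ - z))) * √(4 * k * (A ^ 2 * (R * I χ))) := by
  have hχ' := nonneg_iff_ae.1 hχ0
  have hρ' := nonneg_iff_ae.1 hρ0
  obtain ⟨X, hX⟩ := mem_top_iff.1 hχt
  have hρt : MemLp ρ ∞ m := mem_top_iff.2 ⟨R, by
    filter_upwards [hρR, hρ'] with x h1 h2
    rwa [abs_of_nonneg h2]⟩
  have wt : MemLp w ∞ m := mem_top_iff.2 ⟨A * X, by
    filter_upwards [hw, hX] with x h1 h2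
    exact h1.trans (mul_le_mul_of_nonneg_left ((le_abs_self _).trans h2) hA)⟩
  have e1 : I (ρ * w * C.Γ θ θ) - I (w * C.Γ z z * ρ) = I ((ρ * w) * C.Γ (θ - z) (θ + z)) := by
    rw [show w * C.Γ z z * ρ = ρ * w * C.Γ z z by ring,
      ← I_sub (mem_mul_top (mem_mul_top hρt wt) (hD.mem1 _ hθ))
      (mem_mul_top (mem_mul_top hρt wt) (hD.mem1 _ hz)), ← Γ_sub_sub hD hθ hz]
    congr 1; ring
  rw [e1]
  have hχρ0 : 0 ≤ χ * ρ := mul_nonneg hχ0 hρ0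
  have hχρt : MemLp (χ * ρ : M →ₘ[m] ℝ) ∞ m := mem_mul_top hχt hρt
  have hχρ1 : MemLp (χ * ρ : M →ₘ[m] ℝ) 1 m := by
    rw [mul_comm]; exact mem_mul_top hρt hχ1
  have e2 := cs3 hD (w := ρ * w) (w₁ := χ * ρ) (w₂ := A ^ 2 • (χ * ρ)) (mem_mul_top hρt wt) hχρ0
    hχρt (smul_nonneg' (sq_nonneg A) hχρ0) (mem_smul _ hχρt) (by
      filter_upwards [mul_ae ρ w, smul_ae (χ * ρ) (A ^ 2), mul_ae χ ρ, hw, hχ', hρ']
        with x b1 b2 b3 b4 b5 b6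
      rw [b1, b2, b3]
      have c2 : w x ^ 2 ≤ (A * χ x) ^ 2 := by
        rw [← sq_abs]; exact pow_le_pow_left₀ (abs_nonneg _) b4 2
      nlinarith [mul_le_mul_of_nonneg_left c2 (sq_nonneg (ρ x))])
    (hD.sub_mem hθ hz) (hD.add_mem _ hθ _ hz)
  refine e2.trans (mul_le_mul_of_nonneg_left (Real.sqrt_le_sqrt ?_) (Real.sqrt_nonneg _))
  have e3 := I_wΓ_le (w := A ^ 2 • (χ * ρ)) (w' := C.Γ (θ + z) (θ + z))
    (mem_mul_top (mem_smul _ hχρt) (hD.mem1 _ (hD.add_mem _ hθ _ hz)))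
    (smul_nonneg' (sq_nonneg A) hχρ0) (mem_smul _ hχρ1) (Γ_add_le4 hD hθ hz hθk hzk)
  rw [I_smul] at e3
  refine e3.trans (mul_le_mul_of_nonneg_left (mul_le_mul_of_nonneg_left ?_ (sq_nonneg A))
    (by linarith))
  rw [← I_smul]
  refine I_mono hχρ1 (mem_smul _ hχ1) (le_iff_ae.2 ?_)
  filter_upwards [mul_ae χ ρ, smul_ae χ R, hρR, hχ'] with x b1 b2 b3 b4
  rw [b1, b2, mul_comm]
  exact mul_le_mul_of_nonneg_right b3 b4

/-- the linear term at one time -/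
theorem lin_diff (hD : IsDir C) {ρ F θ z χ : M →ₘ[m] ℝ} {R : ℝ} (hρ0 : 0 ≤ ρ)
    (hρR : ∀ᵐ x ∂m, ρ x ≤ R) (hχ0 : 0 ≤ χ) (hχt : MemLp χ ∞ m) (hF : F ∈ C.W)
    (hχF : ∀ g ∈ C.W, χ * C.Γ F g = C.Γ F g) (hθ : θ ∈ C.W) (hz : z ∈ C.W) :
    |I (ρ * C.Γ F θ) - I (C.Γ F z * ρ)|
      ≤ √(I (χ * ρ * C.Γ (θ - z) (θ - z))) * √(R * I (C.Γ F F)) := by
  have hχ' := nonneg_iff_ae.1 hχ0
  have hρ' := nonneg_iff_ae.1 hρ0
  have hρt : MemLp ρ ∞ m := mem_top_iff.2 ⟨R, by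
    filter_upwards [hρR, hρ'] with x h1 h2
    rwa [abs_of_nonneg h2]⟩
  have hsub := hD.sub_mem hθ hz
  have e1 : I (ρ * C.Γ F θ) - I (C.Γ F z * ρ) = I ((χ * ρ) * C.Γ (θ - z) F) := by
    rw [mul_comm (C.Γ F z) ρ, ← I_sub (mem_mul_top hρt (hD.Γ_mem1 hF hθ))
      (mem_mul_top hρt (hD.Γ_mem1 hF hz)), ← mul_sub, ← hD.Γ_sub_right hF hθ hz,
      ← hχF _ hsub, hD.symm _ hsub _ hF]
    congr 1; ring
  rw [e1]
  have hχρ0 : 0 ≤ χ * ρ := mul_nonneg hχ0 hρ0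
  have hχρt : MemLp (χ * ρ : M →ₘ[m] ℝ) ∞ m := mem_mul_top hχt hρt
  have e2 := cs3 hD (w := χ * ρ) (w₁ := χ * ρ) (w₂ := χ * ρ) hχρt hχρ0 hχρt hχρ0 hχρt
    (Eventually.of_forall fun x => le_of_eq (sq _)) hsub hF
  refine e2.trans (mul_le_mul_of_nonneg_left (Real.sqrt_le_sqrt ?_) (Real.sqrt_nonneg _))
  have e3 : (χ * ρ) * C.Γ F F = ρ * C.Γ F F := by
    rw [show (χ * ρ) * C.Γ F F = ρ * (χ * C.Γ F F) by ring, hχF F hF]
  rw [e3, ← I_smul]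
  refine I_mono (mem_mul_top hρt (hD.mem1 _ hF)) (mem_smul _ (hD.mem1 _ hF)) (le_iff_ae.2 ?_)
  filter_upwards [mul_ae ρ (C.Γ F F), smul_ae (C.Γ F F) R, hρR, hD.Γ_nonneg_ae hF]
    with x b1 b2 b3 b4
  rw [b1, b2]
  exact mul_le_mul_of_nonneg_right b3 b4

/-- `L²` continuity of `w Γ(z,z)` -/
theorem quad_L2 (hD : IsDir C) {w z z' : M →ₘ[m] ℝ} {B k : ℝ} (hk : 0 ≤ k)
    (hw : ∀ᵐ x ∂m, |w x| ≤ B) (hz : z ∈ C.W) (hz' : z' ∈ C.W)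
    (hzk : ∀ᵐ x ∂m, C.Γ z z x ≤ k) (hzk' : ∀ᵐ x ∂m, C.Γ z' z' x ≤ k) :
    I ((w * C.Γ z z - w * C.Γ z' z') ^ 2) ≤ B ^ 2 * (4 * k) * C.nrm2 (z - z') := by
  have hs := hD.sub_mem hz hz'
  have ha := hD.add_mem _ hz _ hz'
  have wt : MemLp w ∞ m := mem_top_iff.2 ⟨B, hw⟩
  have zt : ∀ {y : M →ₘ[m] ℝ}, y ∈ C.W → (∀ᵐ x ∂m, C.Γ y y x ≤ k) → MemLp (C.Γ y y) 2 m := by
    intro y hy hyk
    have ht : MemLp (C.Γ y y) ∞ m := mem_top_iff.2 ⟨k, by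
      filter_upwards [hyk, hD.Γ_nonneg_ae hy] with x h1 h2
      rwa [abs_of_nonneg h2]⟩
    exact hD.Γ_mem2 hy ht hy
  have e1 : w * C.Γ z z - w * C.Γ z' z' = w * C.Γ (z - z') (z + z') := by
    rw [← Γ_sub_sub hD hz hz']; ring
  have m2 : MemLp (w * C.Γ (z - z') (z + z') : M →ₘ[m] ℝ) 2 m := by
    rw [← e1]
    exact mem_sub (mem_mul_top wt (zt hz hzk)) (mem_mul_top wt (zt hz' hzk'))
  rw [e1]
  have h1 : I ((w * C.Γ (z - z') (z + z')) ^ 2) ≤ I ((B ^ 2 * (4 * k)) • C.Γ (z - z') (z - z')) := by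
    refine I_mono (mem_sq m2) (mem_smul _ (hD.mem1 _ hs)) (le_iff_ae.2 ?_)
    filter_upwards [sq_ae (w * C.Γ (z - z') (z + z')), mul_ae w (C.Γ (z - z') (z + z')),
      smul_ae (C.Γ (z - z') (z - z')) (B ^ 2 * (4 * k)), hw, hD.Γ_cs_ae hs ha,
      Γ_add_le4 hD hz hz' hzk hzk', hD.Γ_nonneg_ae hs] with x a1 a2 a3 a4 a5 a6 a7
    rw [a1, a2, a3, mul_pow]
    have c1 : w x ^ 2 ≤ B ^ 2 := by
      rw [← sq_abs]; exact pow_le_pow_left₀ (abs_nonneg _) a4 2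
    have c2 : C.Γ (z - z') (z + z') x ^ 2 ≤ C.Γ (z - z') (z - z') x * (4 * k) :=
      a5.trans (mul_le_mul_of_nonneg_left a6 a7)
    calc w x ^ 2 * C.Γ (z - z') (z + z') x ^ 2
        ≤ B ^ 2 * (C.Γ (z - z') (z - z') x * (4 * k)) :=
          mul_le_mul c1 c2 (sq_nonneg _) (sq_nonneg _)
      _ = B ^ 2 * (4 * k) * C.Γ (z - z') (z - z') x := by ring
  rw [I_smul] at h1
  exact h1.trans (mul_le_mul_of_nonneg_left (hD.E_le_nrm2 _) (by positivity))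

/-- `L¹` continuity of `w Γ(z,z)` -/
theorem quad_L1 (hD : IsDir C) {w z z' χ : M →ₘ[m] ℝ} {A X k : ℝ} (hk : 0 ≤ k) (hA : 0 ≤ A)
    (hχ0 : 0 ≤ χ) (hχ1 : MemLp χ 1 m) (hX : ∀ᵐ x ∂m, χ x ≤ X) (hX0 : 0 ≤ X)
    (hw : ∀ᵐ x ∂m, |w x| ≤ A * χ x) (hz : z ∈ C.W) (hz' : z' ∈ C.W)
    (hzk : ∀ᵐ x ∂m, C.Γ z z x ≤ k) (hzk' : ∀ᵐ x ∂m, C.Γ z' z' x ≤ k) :
    n1 (w * C.Γ z z - w * C.Γ z' z')
      ≤ √(X * C.nrm2 (z - z')) * √(4 * k * (A ^ 2 * I χ)) := by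
  have hs := hD.sub_mem hz hz'
  have ha := hD.add_mem _ hz _ hz'
  have hχ' := nonneg_iff_ae.1 hχ0
  have hχt : MemLp χ ∞ m := mem_top_iff.2 ⟨X, by
    filter_upwards [hX, hχ'] with x h1 h2
    rwa [abs_of_nonneg h2]⟩
  have wt : MemLp w ∞ m := mem_top_iff.2 ⟨A * X, by
    filter_upwards [hw, hX] with x h1 h2
    exact h1.trans (mul_le_mul_of_nonneg_left h2 hA)⟩
  have e1 : w * C.Γ z z - w * C.Γ z' z' = w * C.Γ (z - z') (z + z') := by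
    rw [← Γ_sub_sub hD hz hz']; ring
  rw [e1]
  have e2 := n1_cs3 hD (w := w) (w₁ := χ) (w₂ := A ^ 2 • χ) wt hχ0 hχt
    (smul_nonneg' (sq_nonneg A) hχ0) (mem_smul _ hχt) (by
      filter_upwards [hw, smul_ae χ (A ^ 2), hχ'] with x b1 b2 b3
      rw [b2]
      have c2 : w x ^ 2 ≤ (A * χ x) ^ 2 := by
        rw [← sq_abs]; exact pow_le_pow_left₀ (abs_nonneg _) b1 2
      exact c2.trans (le_of_eq (by ring))) hs ha
  refine e2.trans (mul_le_mul (Real.sqrt_le_sqrt ?_) (Real.sqrt_le_sqrt ?_) (Real.sqrt_nonneg _)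
    (Real.sqrt_nonneg _))
  · have h1 : I (χ * C.Γ (z - z') (z - z')) ≤ I (X • C.Γ (z - z') (z - z')) := by
      refine I_mono (mem_mul_top hχt (hD.mem1 _ hs)) (mem_smul _ (hD.mem1 _ hs)) (le_iff_ae.2 ?_)
      filter_upwards [mul_ae χ (C.Γ (z - z') (z - z')), smul_ae (C.Γ (z - z') (z - z')) X, hX,
        hD.Γ_nonneg_ae hs] with x b1 b2 b3 b4
      rw [b1, b2]
      exact mul_le_mul_of_nonneg_right b3 b4
    rw [I_smul] at h1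
    exact h1.trans (mul_le_mul_of_nonneg_left (hD.E_le_nrm2 _) hX0)
  · have e3 := I_wΓ_le (w := A ^ 2 • χ) (w' := C.Γ (z + z') (z + z'))
      (mem_mul_top (mem_smul _ hχt) (hD.mem1 _ ha))
      (smul_nonneg' (sq_nonneg A) hχ0) (mem_smul _ hχ1) (Γ_add_le4 hD hz hz' hzk hzk')
    rwa [I_smul] at e3

end H866

end Vale.Agent.P233
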