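import Vale.Agent.P233.H866.S3
import Vale.Agent.P233.H866.F2Final

/-! P233, part F2 (helper866): `Blk_S3` and `PartF2` from the uniform convergences TU4, TU6. -/

set_option linter.all false

open MeasureTheory Filter Topology Set
open scoped ENNReal NNReal

universe u

namespace Vale.Agent.P233.PF

open Vale.Agent.P233.PC
open Vale.Agent.P233.PA (en OutA PotLim)

/-- the uniform convergences (helper719) -/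
def Blk_TU : Prop :=
  ∀ (M : Type u) [MetricSpace M] [CompleteSpace M] [SecondCountableTopology M] [MeasurableSpace M]
    [BorelSpace M] (m : Measure M) (K N κ : ℝ) (P : ℝ → (M →ₘ[m] ℝ) → (M →ₘ[m] ℝ))
    (q : M) (s₀ C₀ : ℝ), CHyp M m K N P q s₀ C₀ →
    ∀ (E : Type) [NormedAddCommGroup E] [InnerProductSpace ℝ E] [CompleteSpace E]
    (Gr : (M →ₘ[m] ℝ) → M → E) (V : (M →ₘ[m] ℝ) → (M →ₘ[m] ℝ) → M → E)
    (D : (M →ₘ[m] ℝ) → (M →ₘ[m] ℝ))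
    (HO : (M →ₘ[m] ℝ) → M → E →L[ℝ] E) (e : ℕ → M →ₘ[m] ℝ), EHyp m K N Gr V D HO e →
    ∀ (u : ℕ → ℝ → M →ₘ[m] ℝ) (φ : (M →ₘ[m] ℝ) → ℕ → ℝ → M →ₘ[m] ℝ),
      OutA m K N P q s₀ C₀ u φ → LevB m Gr V D κ u φ →
    ∀ (U : Ultrafilter ℕ), (U : Filter ℕ) ≤ atTop →
    ∀ (φ₀ : ℝ → M → ℝ) (L B R₀ c : ℝ) (ρ : ℝ → M →ₘ[m] ℝ)
      (R : ℝ → ℝ → (M →ₘ[m] ℝ) → (M →ₘ[m] ℝ)) (Y : ℝ → M → M),
      PotLim m N q s₀ C₀ U (φ 0) u φ₀ L B R₀ c → LimOf P U u φ ρ R →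
      Lim m K N q s₀ C₀ (fun t => cl m (φ₀ t)) ρ R → Mult ρ R → Maps ρ R Y →
      RFlow m K N q s₀ C₀ Y → Strong q s₀ C₀ U u φ Y →
      TU4 m U u φ Y ∧ TU6 m U q s₀ C₀ u φ

theorem blk_S3_of (h : Blk_TU.{u}) : Blk_S3.{u} := by
  intro M _ _ _ _ _ m K N κ P q s₀ C₀ hyp E _ _ _ Gr V D HO e hE hct u φ hO hB hLv U hU φ₀ L B R₀ c
    ρ R Y a0 a1 a2 a3 a5 a6 a7 p r Λ₀ hr hW G hG
  obtain ⟨h4, h6⟩ := h M m K N κ P q s₀ C₀ hyp E Gr V D HO e hE u φ hO hB U hU φ₀ L B R₀ c ρ R Y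
    a0 a1 a2 a3 a5 a6 a7
  exact intConc_of_TU hyp hct hLv hU a6 a2.z_grad h4 h6 hr hW hG

/-- **Part F2** from the blocks of parts A and C and the uniform convergences -/
theorem partF2' (hD1 : Gig.PartD1.{u}) (hA1 : PA.Blk_A1.{u}) (hA : PA.Blk_A.{u})
    (h1 : Blk_C1.{u}) (h2 : Blk_C2.{u}) (h3 : Blk_C3.{u}) (h4 : Blk_C4.{u})
    (h6a : Blk_C6a.{u}) (hTU : Blk_TU.{u}) : Gig.PartF2.{u} :=
  partF2 hD1 hA1 hA h1 h2 h3 h4 h6a (blk_S3_of hTU)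

end Vale.Agent.P233.PF
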