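import Vale.Agent.P233.H866.S3b
import Vale.Agent.P233.H719.TU2
import Vale.Agent.P233.H719.TU4

/-! P233, part F2 (helper866): the uniform convergences of helper719 give `Blk_S3`. -/

set_option linter.all false

open MeasureTheory Filter Topology Set
open scoped ENNReal NNReal

universe u

namespace Vale.Agent.P233.PF

open Vale.Agent.P233.PC

/-- the uniform convergences -/
theorem blk_TU : Blk_TU.{u} := by
  intro M _ _ _ _ _ m K N κ P q s₀ C₀ hyp E _ _ _ Gr V D HO e hE u φ hO hB U hU φ₀ L B R₀ c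
    ρ R Y a0 a1 a2 a3 a5 a6 a7
  refine ⟨fun l hl s hs b hb1 hb2 _ hbc d hd => ?_, fun l hl s hs A hA1 hA0 d hd => ?_⟩
  · exact (H719.tu4_strong hyp hO hl hs.1 hs.2.le hU a7 hb1 hb2 hbc).2 d hd
  · exact hU (H719.tu6 hyp hO hB hl hs hA0 hA1 hd)

/-- **S3** -/
theorem blk_S3 : Blk_S3.{u} := blk_S3_of blk_TU

end Vale.Agent.P233.PF
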